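import Vale.Agent.P030.H462.Sol

/-!
# P030: series and logarithmic solutions of the scalar equation
-/

open PowerSeries Metric Set

namespace Vale.Agent.P030.H462

open Vale.Agent.P030.T

/-! ### formal -/

theorem D_X_mul (f : ℚ⟦X⟧) : d⁄dX ℚ (X * f) = f + X * d⁄dX ℚ f := by
  rw [Derivation.leibniz]
  simp [smul_eq_mul]
  ring

theorem reduce {s r : ℚ⟦X⟧}
    (h : (1 - X ^ 2) * th (th s) - C 2 * (X ^ 2 * th s) - X ^ 2 * s = X * r) :
    X * (1 - X ^ 2) * d⁄dX ℚ (d⁄dX ℚ s) + (1 - C 3 * X ^ 2) * d⁄dX ℚ s - X * s = r := by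
  rw [H605.th_eq, H605.th_eq, D_X_mul] at h
  have hX : (X : ℚ⟦X⟧) ≠ 0 := X_ne_zero
  refine mul_left_cancel₀ hX ?_
  have h3 : (C 3 : ℚ⟦X⟧) = 3 := map_ofNat C 3
  have h2 : (C 2 : ℚ⟦X⟧) = 2 := map_ofNat C 2
  rw [h2] at h
  rw [h3]
  linear_combination h

/-- coefficients of `R` : the third Frobenius solution is `K T² + 2 M T + R` -/
def cRf (k m : ℕ → ℚ) : ℕ → ℚ
  | 0 => 0
  | 1 => 0
  | n + 2 => (((n : ℚ) + 1) ^ 2 * cRf k m n - 2 * k (n + 2) + 2 * k n - 4 * ((n : ℚ) + 2) * m (n + 2)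
      + 4 * ((n : ℚ) + 1) * m n) / ((n : ℚ) + 2) ^ 2

noncomputable def cR (n : ℕ) : ℚ := cRf (fun n => coeff n serK) (fun n => coeff n serM) n

noncomputable def serR : ℚ⟦X⟧ := mk cR

theorem R_ode : (1 - X ^ 2) * th (th serR) - C 2 * (X ^ 2 * th serR) - X ^ 2 * serR
    = C 2 - C 2 * serK + C 2 * (X ^ 2 * serK) - C 4 * th serM
      + C 4 * (X ^ 2 * th serM) + C 4 * (X ^ 2 * serM) := by
  ext n
  rw [sub_mul, one_mul]
  simp only [map_sub, map_add, H605.coeff_C_mul']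
  rcases n with _ | _ | n
  · simp only [H605.coeff_X_sq_mul_zero]
    simp [serR, cR, cRf, H605.serK_zero]
  · simp only [zero_add, H605.coeff_X_sq_mul_one, H605.coeff_th]
    have h1 : coeff 1 serM = 0 := by rw [serM, coeff_mk, H605.serK_one, zero_mul]
    simp [serR, cR, cRf, H605.serK_one, h1]
  · rw [add_assoc]
    simp only [H605.coeff_X_sq_mul, H605.coeff_th]
    have h1 : ¬ (n + (1 + 1) = 0) := by omega
    rw [coeff_C, if_neg h1]
    simp only [serR, coeff_mk, cR]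
    rw [show n + (1 + 1) = n + 2 from rfl]
    simp only [cRf]
    have h2 : ((n : ℚ) + 2) ≠ 0 := by positivity
    push_cast
    field_simp
    ring

theorem abs_cR_le : ∀ n : ℕ, |cR n| ≤ 24 * ((n : ℚ) + 1)
  | 0 => by simp [cR, cRf]
  | 1 => by simp [cR, cRf]
  | n + 2 => by
    have ih := abs_cR_le n
    have hn : (0 : ℚ) ≤ n := Nat.cast_nonneg n
    have hM : ∀ m : ℕ, |coeff m serM| ≤ 2 * ((m : ℚ) + 1) := by
      intro m
      rw [serM, coeff_mk, abs_mul]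
      calc |coeff m serK| * |cMs m| ≤ 1 * (2 * ((m : ℚ) + 1)) :=
            mul_le_mul (abs_serK_le m) (abs_cMs_le m) (abs_nonneg _) zero_le_one
        _ = 2 * ((m : ℚ) + 1) := one_mul _
    have e : cR (n + 2) = (((n : ℚ) + 1) ^ 2 * cR n - 2 * coeff (n + 2) serK + 2 * coeff n serK
        - 4 * ((n : ℚ) + 2) * coeff (n + 2) serM + 4 * ((n : ℚ) + 1) * coeff n serM)
        / ((n : ℚ) + 2) ^ 2 := by
      simp only [cR, cRf]
    rw [e, abs_div, abs_of_pos (by positivity : (0 : ℚ) < ((n : ℚ) + 2) ^ 2),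
      div_le_iff₀ (by positivity)]
    have a1 := abs_le.1 ih
    have a2 := abs_le.1 (abs_serK_le n)
    have a3 := abs_le.1 (abs_serK_le (n + 2))
    have a4 := abs_le.1 (hM n)
    have a5 := abs_le.1 (hM (n + 2))
    push_cast at a5 ⊢
    have b1 := mul_le_mul_of_nonneg_left a1.1 (by positivity : (0 : ℚ) ≤ ((n : ℚ) + 1) ^ 2)
    have b2 := mul_le_mul_of_nonneg_left a1.2 (by positivity : (0 : ℚ) ≤ ((n : ℚ) + 1) ^ 2)
    have c1 := mul_le_mul_of_nonneg_left a4.1 (by positivity : (0 : ℚ) ≤ 4 * ((n : ℚ) + 1))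
    have c2 := mul_le_mul_of_nonneg_left a4.2 (by positivity : (0 : ℚ) ≤ 4 * ((n : ℚ) + 1))
    have d1 := mul_le_mul_of_nonneg_left a5.1 (by positivity : (0 : ℚ) ≤ 4 * ((n : ℚ) + 2))
    have d2 := mul_le_mul_of_nonneg_left a5.2 (by positivity : (0 : ℚ) ≤ 4 * ((n : ℚ) + 2))
    have hn2 : (0 : ℚ) ≤ (n : ℚ) ^ 2 := by positivity
    have hn3 : (0 : ℚ) ≤ (n : ℚ) ^ 3 := by positivity
    rw [abs_le]
    constructor
    · nlinarith
    · nlinarith

theorem pq_serR : PQ serR := by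
  refine pq_of_le 24 1 fun n => ?_
  rw [serR, coeff_mk]
  have h2 : ((|cR n| : ℚ) : ℝ) ≤ ((24 * ((n : ℚ) + 1) : ℚ) : ℝ) := Rat.cast_le.2 (abs_cR_le n)
  rw [Rat.cast_abs] at h2
  refine h2.trans (le_of_eq ?_)
  push_cast
  ring

/-! ### analytic -/

/-- `evQ` of a series and of its two derivatives -/
noncomputable def e1 (s : ℚ⟦X⟧) (z : ℂ) : ℂ := evQ (d⁄dX ℚ s) z
noncomputable def e2 (s : ℚ⟦X⟧) (z : ℂ) : ℂ := evQ (d⁄dX ℚ (d⁄dX ℚ s)) z

theorem hd_e0 {s : ℚ⟦X⟧} (hs : PQ s) {z : ℂ} (hz : ‖z‖ < 1) : HasDerivAt (evQ s) (e1 s z) z :=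
  hasDerivAt_ev hs hz

theorem hd_e1 {s : ℚ⟦X⟧} (hs : PQ s) {z : ℂ} (hz : ‖z‖ < 1) : HasDerivAt (e1 s) (e2 s z) z :=
  hasDerivAt_ev hs.deriv hz

theorem evQ_L {s : ℚ⟦X⟧} (hs : PQ s) {z : ℂ} (hz : ‖z‖ < 1) :
    evQ ((1 - X ^ 2) * th (th s) - C 2 * (X ^ 2 * th s) - X ^ 2 * s) z
      = z * (z * (1 - z ^ 2) * e2 s z + (1 - 3 * z ^ 2) * e1 s z - z * evQ s z) := by
  have p1 := hs.deriv
  have p2 := hs.deriv.deriv
  have pX2 : PQ (X ^ 2 : ℚ⟦X⟧) := PG.varX.pow 2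
  have pt := pq_th hs
  have ptt := pq_th pt
  rw [evQ, ev_sub (((PG.one.sub pX2).mul ptt).sub ((PG.const 2).mul (pX2.mul pt))) (pX2.mul hs) hz,
    ev_sub ((PG.one.sub pX2).mul ptt) ((PG.const 2).mul (pX2.mul pt)) hz,
    ev_mul (PG.one.sub pX2) ptt hz, ev_sub PG.one pX2 hz, ev_one, ev_pow PG.varX 2 hz, ev_X,
    ev_mul (PG.const 2) (pX2.mul pt) hz, ev_mul pX2 pt hz, ev_mul pX2 hs hz, ev_C,
    ev_pow PG.varX 2 hz, ev_X]
  have h1 : ev (algebraMap ℚ ℂ) (th s) z = z * e1 s z := by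
    rw [H605.th_eq, ev_mul PG.varX p1 hz, ev_X]; rfl
  have h2 : ev (algebraMap ℚ ℂ) (th (th s)) z = z * (e1 s z + z * e2 s z) := by
    rw [H605.th_eq, H605.th_eq, D_X_mul, ev_mul PG.varX (p1.add (PG.varX.mul p2)) hz, ev_X,
      ev_add p1 (PG.varX.mul p2) hz, ev_mul PG.varX p2 hz, ev_X]
    rfl
  rw [h1, h2]
  simp only [map_ofNat]
  ring

theorem sol_of_series {s r : ℚ⟦X⟧} (hs : PQ s)
    (h : (1 - X ^ 2) * th (th s) - C 2 * (X ^ 2 * th s) - X ^ 2 * s = X * r) :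
    Sol (ball 0 1) (evQ r) (evQ s) (e1 s) (e2 s) := by
  refine ⟨fun z hz => hd_e0 hs (mem_ball_zero_iff.1 hz), fun z hz => hd_e1 hs (mem_ball_zero_iff.1 hz),
    fun z hz => ?_⟩
  have hz' := mem_ball_zero_iff.1 hz
  have h1 := reduce h
  have p1 := hs.deriv
  have p2 := hs.deriv.deriv
  have pX2 : PQ (X ^ 2 : ℚ⟦X⟧) := PG.varX.pow 2
  rw [← h1]
  change _ = ev (algebraMap ℚ ℂ) _ z
  rw [ev_sub ((((PG.varX.mul (PG.one.sub pX2)).mul p2)).add
    ((PG.one.sub ((PG.const 3).mul pX2)).mul p1)) (PG.varX.mul hs) hz',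
    ev_add ((PG.varX.mul (PG.one.sub pX2)).mul p2) ((PG.one.sub ((PG.const 3).mul pX2)).mul p1) hz',
    ev_mul (PG.varX.mul (PG.one.sub pX2)) p2 hz', ev_mul PG.varX (PG.one.sub pX2) hz',
    ev_mul (PG.one.sub ((PG.const 3).mul pX2)) p1 hz', ev_sub PG.one ((PG.const 3).mul pX2) hz',
    ev_sub PG.one pX2 hz', ev_mul (PG.const 3) pX2 hz', ev_mul PG.varX hs hz', ev_C,
    ev_pow PG.varX 2 hz', ev_X, ev_one]
  simp only [map_ofNat]
  rfl

theorem sol_K : Sol (ball 0 1) (fun _ => 0) (evQ serK) (e1 serK) (e2 serK) := by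
  have h := sol_of_series (s := serK) (r := 0) pq_serK (by rw [H605.K_ode]; ring)
  exact h.congr_rhs fun z _ => ev_zero z

theorem sol_B : Sol (ball 0 1) (fun z => -(1 / 4) / (1 - z)) (evQ serB) (e1 serB) (e2 serB) := by
  have hg := H605.geo_mul
  have hb := H605.B_ode
  have h0 : (1 - X ^ 2) * th (th serB) - C 2 * (X ^ 2 * th serB) - X ^ 2 * serB
      = X * (C (-(1 / 4)) * geo) := by
    have h1 : (1 - X : ℚ⟦X⟧) ≠ 0 := by
      intro hcon
      rw [hcon, zero_mul] at hg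
      exact zero_ne_one hg
    refine mul_left_cancel₀ h1 ?_
    rw [hb, map_neg]
    linear_combination (C (1 / 4) * X) * hg
  have h := sol_of_series (s := serB) pq_serB h0
  refine h.congr_rhs fun z hz => ?_
  have hz' := mem_ball_zero_iff.1 hz
  rw [evQ, ev_mul (PG.const _) pq_geo hz', ev_C]
  have := evQ_geo hz'
  rw [evQ] at this
  rw [this, eq_ratCast]
  push_cast
  ring

theorem sol_B2 : Sol (ball 0 1) (fun _ => -(1 / 4)) (evQ serB2) (e1 serB2) (e2 serB2) := by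
  have hb := H605.B2_ode
  have h := sol_of_series (s := serB2) (r := C (-(1 / 4))) pq_serB2 (by
    rw [hb, map_neg]; ring)
  refine h.congr_rhs fun z _ => ?_
  rw [evQ, ev_C, eq_ratCast]
  push_cast
  ring

/-- right hand sides of `M` and `R` away from zero -/
theorem eq_M {z : ℂ} (hz : ‖z‖ < 1) :
    z * (1 - z ^ 2) * e2 serM z + (1 - 3 * z ^ 2) * e1 serM z - z * evQ serM z
      = -(2 * (1 - z ^ 2) * e1 serK z) + 2 * z * evQ serK z := by
  have hm := H605.M_ode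
  have h := sol_of_series (s := serM) (r := -(C 2 * ((1 - X ^ 2) * d⁄dX ℚ serK)) + C 2 * (X * serK))
    pq_serM (by
      have h3 : th serK = X * d⁄dX ℚ serK := H605.th_eq _
      rw [h3] at hm
      linear_combination hm)
  have h1 := h.eq z (mem_ball_zero_iff.2 hz)
  rw [h1]
  have pX2 : PQ (X ^ 2 : ℚ⟦X⟧) := PG.varX.pow 2
  have pK := pq_serK
  rw [evQ, ev_add (((PG.const 2).mul ((PG.one.sub pX2).mul pK.deriv)).neg)
    ((PG.const 2).mul (PG.varX.mul pK)) hz, ev_neg,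
    ev_mul (PG.const 2) ((PG.one.sub pX2).mul pK.deriv) hz, ev_mul (PG.one.sub pX2) pK.deriv hz,
    ev_sub PG.one pX2 hz, ev_mul (PG.const 2) (PG.varX.mul pK) hz, ev_mul PG.varX pK hz, ev_C,
    ev_pow PG.varX 2 hz, ev_X, ev_one]
  simp only [map_ofNat, e1, evQ]
  ring

theorem eq_R {z : ℂ} (hz : ‖z‖ < 1) :
    z * (z * (1 - z ^ 2) * e2 serR z + (1 - 3 * z ^ 2) * e1 serR z - z * evQ serR z)
      = 2 - 2 * (1 - z ^ 2) * evQ serK z - 4 * (1 - z ^ 2) * (z * e1 serM z)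
        + 4 * z ^ 2 * evQ serM z := by
  rw [← evQ_L pq_serR hz, R_ode]
  have pX2 : PQ (X ^ 2 : ℚ⟦X⟧) := PG.varX.pow 2
  have pK := pq_serK
  have pM := pq_serM
  have ptM := pq_th pM
  have h1 : ev (algebraMap ℚ ℂ) (th serM) z = z * e1 serM z := by
    rw [H605.th_eq, ev_mul PG.varX pM.deriv hz, ev_X]; rfl
  have q1 : PQ (C 2 * serK) := (PG.const 2).mul pK
  have q2 : PQ (C 2 * (X ^ 2 * serK)) := (PG.const 2).mul (pX2.mul pK)
  have q3 : PQ (C 4 * th serM) := (PG.const 4).mul ptM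
  have q4 : PQ (C 4 * (X ^ 2 * th serM)) := (PG.const 4).mul (pX2.mul ptM)
  have q5 : PQ (C 4 * (X ^ 2 * serM)) := (PG.const 4).mul (pX2.mul pM)
  rw [evQ, ev_add (((((PG.const 2).sub q1).add q2).sub q3).add q4) q5 hz,
    ev_add ((((PG.const 2).sub q1).add q2).sub q3) q4 hz,
    ev_sub (((PG.const 2).sub q1).add q2) q3 hz, ev_add ((PG.const 2).sub q1) q2 hz,
    ev_sub (PG.const 2) q1 hz, ev_mul (PG.const 2) pK hz, ev_mul (PG.const 2) (pX2.mul pK) hz,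
    ev_mul (PG.const 4) ptM hz, ev_mul (PG.const 4) (pX2.mul ptM) hz,
    ev_mul (PG.const 4) (pX2.mul pM) hz, ev_mul pX2 pK hz, ev_mul pX2 ptM hz, ev_mul pX2 pM hz,
    ev_C, ev_C, ev_pow PG.varX 2 hz, ev_X, h1]
  simp only [map_ofNat, evQ]
  ring

variable {Ω : Set ℂ} {lg : ℂ → ℂ}

/-- the second solution `K log + M` -/
theorem sol_M (hΩ : Ω ⊆ ball 0 1) (h0 : ∀ z ∈ Ω, z ≠ 0) (hl : ∀ z ∈ Ω, HasDerivAt lg z⁻¹ z) :
    Sol Ω (fun _ => 0) (fun z => evQ serK z * lg z + evQ serM z)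
      (fun z => e1 serK z * lg z + evQ serK z * z⁻¹ + e1 serM z)
      (fun z => e2 serK z * lg z + 2 * e1 serK z * z⁻¹ - evQ serK z * (z ^ 2)⁻¹ + e2 serM z) := by
  refine ⟨fun z hz => ?_, fun z hz => ?_, fun z hz => ?_⟩
  · have hz' := mem_ball_zero_iff.1 (hΩ hz)
    exact ((hd_e0 pq_serK hz').mul (hl z hz)).add (hd_e0 pq_serM hz')
  · have hz' := mem_ball_zero_iff.1 (hΩ hz)
    have a := (((hd_e1 pq_serK hz').mul (hl z hz)).add ((hd_e0 pq_serK hz').mul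
      (hasDerivAt_inv (h0 z hz)))).add (hd_e1 pq_serM hz')
    refine a.congr_deriv ?_
    ring
  · have hz' := mem_ball_zero_iff.1 (hΩ hz)
    have hne := h0 z hz
    have hK := sol_K.eq z (hΩ hz)
    have hM := eq_M hz'
    have hi : z * z⁻¹ = 1 := mul_inv_cancel₀ hne
    have hi2 : (z ^ 2)⁻¹ = z⁻¹ ^ 2 := by rw [inv_pow]
    rw [hi2]
    linear_combination (lg z) * hK + hM + (2 * (1 - z ^ 2) * e1 serK z
      - (1 - z ^ 2) * evQ serK z * z⁻¹ - 2 * z * evQ serK z) * hi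

/-- the third function `K log² + 2 M log + R` -/
theorem sol_R (hΩ : Ω ⊆ ball 0 1) (h0 : ∀ z ∈ Ω, z ≠ 0) (hl : ∀ z ∈ Ω, HasDerivAt lg z⁻¹ z) :
    Sol Ω (fun z => 2 * z⁻¹)
      (fun z => evQ serK z * lg z ^ 2 + 2 * evQ serM z * lg z + evQ serR z)
      (fun z => e1 serK z * lg z ^ 2 + 2 * evQ serK z * lg z * z⁻¹ + 2 * e1 serM z * lg z
        + 2 * evQ serM z * z⁻¹ + e1 serR z)
      (fun z => e2 serK z * lg z ^ 2 + 4 * e1 serK z * lg z * z⁻¹ + 2 * evQ serK z * (z ^ 2)⁻¹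
        - 2 * evQ serK z * lg z * (z ^ 2)⁻¹ + 2 * e2 serM z * lg z + 4 * e1 serM z * z⁻¹
        - 2 * evQ serM z * (z ^ 2)⁻¹ + e2 serR z) := by
  refine ⟨fun z hz => ?_, fun z hz => ?_, fun z hz => ?_⟩
  · have hz' := mem_ball_zero_iff.1 (hΩ hz)
    have a := (((hd_e0 pq_serK hz').mul ((hl z hz).pow 2)).add
      (((hd_e0 pq_serM hz').const_mul 2).mul (hl z hz))).add (hd_e0 pq_serR hz')
    refine a.congr_deriv ?_
    simp only [Pi.pow_apply]
    push_cast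
    ring
  · have hz' := mem_ball_zero_iff.1 (hΩ hz)
    have hi := hasDerivAt_inv (h0 z hz)
    have a := (((((hd_e1 pq_serK hz').mul ((hl z hz).pow 2)).add
      ((((hd_e0 pq_serK hz').const_mul 2).mul (hl z hz)).mul hi)).add
      (((hd_e1 pq_serM hz').const_mul 2).mul (hl z hz))).add
      (((hd_e0 pq_serM hz').const_mul 2).mul hi)).add (hd_e1 pq_serR hz')
    refine a.congr_deriv ?_
    have hi2 : (z ^ 2)⁻¹ = z⁻¹ ^ 2 := by rw [inv_pow]
    rw [hi2]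
    simp only [Pi.pow_apply, Pi.mul_apply]
    push_cast
    ring
  · have hz' := mem_ball_zero_iff.1 (hΩ hz)
    have hne := h0 z hz
    have hK := sol_K.eq z (hΩ hz)
    have hM := eq_M hz'
    have hR := eq_R hz'
    have hi : z * z⁻¹ = 1 := mul_inv_cancel₀ hne
    have hi2 : (z ^ 2)⁻¹ = z⁻¹ ^ 2 := by rw [inv_pow]
    rw [hi2]
    have hR' : z * (1 - z ^ 2) * e2 serR z + (1 - 3 * z ^ 2) * e1 serR z - z * evQ serR z
        = z⁻¹ * (2 - 2 * (1 - z ^ 2) * evQ serK z - 4 * (1 - z ^ 2) * (z * e1 serM z)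
        + 4 * z ^ 2 * evQ serM z) := by
      rw [← hR, ← mul_assoc, inv_mul_cancel₀ hne, one_mul]
    generalize evQ serK z = k0 at *
    generalize e1 serK z = k1 at *
    generalize e2 serK z = k2 at *
    generalize evQ serM z = m0 at *
    generalize e1 serM z = m1 at *
    generalize e2 serM z = m2 at *
    generalize evQ serR z = r0 at *
    generalize e1 serR z = r1 at *
    generalize e2 serR z = r2 at *
    generalize lg z = l at *
    field_simp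
    field_simp at hR' hK hM
    linear_combination (z * l ^ 2) * hK + (2 * z * l) * hM + hR

end Vale.Agent.P030.H462
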