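import Vale.Agent.P030.H462.SolSer

/-!
# P030: uniqueness for the scalar equation of `K`
-/

open PowerSeries Metric Set Filter Topology

namespace Vale.Agent.P030.H462

open Vale.Agent.P030.T

variable {Ω : Set ℂ} {f f1 f2 g g1 g2 : ℂ → ℂ}

theorem wronskian_const (ho : IsOpen Ω) (hp : IsPreconnected Ω) (hf : Sol Ω (fun _ => 0) f f1 f2)
    (hg : Sol Ω (fun _ => 0) g g1 g2) {z w : ℂ} (hz : z ∈ Ω) (hw : w ∈ Ω) :
    z * (1 - z ^ 2) * (f z * g1 z - g z * f1 z) = w * (1 - w ^ 2) * (f w * g1 w - g w * f1 w) := by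
  have hd : ∀ z ∈ Ω, HasDerivAt (fun z : ℂ => z * (1 - z ^ 2) * (f z * g1 z - g z * f1 z)) 0 z := by
    intro z hz
    have a1 : HasDerivAt (fun z : ℂ => z * (1 - z ^ 2)) (1 - 3 * z ^ 2) z := by
      have := (hasDerivAt_id z).mul (((hasDerivAt_pow 2 z)).const_sub (1 : ℂ))
      refine this.congr_deriv ?_
      simp only [id]
      push_cast
      ring
    have a2 := ((hf.d0 z hz).mul (hg.d1 z hz)).sub ((hg.d0 z hz).mul (hf.d1 z hz))
    refine (a1.mul a2).congr_deriv ?_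
    have e1 := hf.eq z hz
    have e2 := hg.eq z hz
    simp only [Pi.mul_apply, Pi.sub_apply]
    linear_combination (f z) * e2 - (g z) * e1
  exact ho.is_const_of_deriv_eq_zero hp (fun z hz => (hd z hz).differentiableAt.differentiableWithinAt)
    (fun z hz => (hd z hz).deriv) hz hw

theorem evQ_serK_zero : evQ serK 0 = 1 := by
  rw [evQ, ev_at_zero, H605.serK_zero, map_one]

theorem evQ_serM_zero : evQ serM 0 = 0 := by
  rw [evQ, ev_at_zero]
  have : coeff 0 serM = 0 := by rw [serM, coeff_mk]; simp [cMs]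
  rw [this, map_zero]

theorem evQ_serR_zero : evQ serR 0 = 0 := by
  rw [evQ, ev_at_zero]
  have : coeff 0 serR = 0 := by rw [serR, coeff_mk]; simp [cR, cRf]
  rw [this, map_zero]

theorem continuousAt_evQ {s : ℚ⟦X⟧} (hs : PQ s) {z : ℂ} (hz : ‖z‖ < 1) : ContinuousAt (evQ s) z :=
  (hasDerivAt_ev hs hz).continuousAt

/-- `K` has no zero near the origin -/
theorem exists_ball_K : ∃ r : ℝ, 0 < r ∧ r < 1 ∧ ∀ z ∈ ball (0 : ℂ) r, evQ serK z ≠ 0 := by
  have h1 : ContinuousAt (evQ serK) 0 := continuousAt_evQ pq_serK (by simp)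
  have h2 : ∀ᶠ z in 𝓝 (0 : ℂ), evQ serK z ≠ 0 :=
    h1.eventually_ne (by rw [evQ_serK_zero]; exact one_ne_zero)
  obtain ⟨r, hr, h3⟩ := Metric.eventually_nhds_iff_ball.1 h2
  exact ⟨min r (1 / 2), lt_min hr (by norm_num), lt_of_le_of_lt (min_le_right _ _) (by norm_num),
    fun z hz => h3 z (ball_subset_ball (min_le_left _ _) hz)⟩

theorem one_sub_sq_ne {z : ℂ} (hz : ‖z‖ < 1) : 1 - z ^ 2 ≠ 0 := by
  intro h
  have h1 : z ^ 2 = 1 := by linear_combination -h
  have h2 : ‖z‖ ^ 2 = 1 := by rw [← norm_pow, h1, norm_one]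
  nlinarith [norm_nonneg z]

/-- a solution regular at the origin is a multiple of `K` -/
theorem sol_reg (hf : Sol (ball 0 1) (fun _ => 0) f f1 f2) {z : ℂ} (hz : z ∈ ball (0 : ℂ) 1) :
    f z = f 0 * evQ serK z := by
  have hK := sol_K
  have h0 : (0 : ℂ) ∈ ball (0 : ℂ) 1 := mem_ball_self one_pos
  have hW : ∀ z ∈ ball (0 : ℂ) 1, f1 z * evQ serK z - f z * e1 serK z = 0 := by
    intro z hz
    rcases eq_or_ne z 0 with rfl | hne
    · have a := hf.eq 0 h0
      have b := hK.eq 0 h0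
      simp only [zero_mul, ne_eq, OfNat.ofNat_ne_zero, not_false_eq_true, zero_pow, mul_zero,
        sub_zero, one_mul, zero_add] at a b
      rw [a, b]; ring
    · have a := wronskian_const isOpen_ball (convex_ball 0 1).isPreconnected hf hK hz h0
      simp only [zero_mul] at a
      have b := mul_eq_zero.1 a
      rcases b with b | b
      · exact absurd b (mul_ne_zero hne (one_sub_sq_ne (mem_ball_zero_iff.1 hz)))
      · linear_combination -b
  obtain ⟨r, hr, hr1, hK0⟩ := exists_ball_K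
  have hsub : ball (0 : ℂ) r ⊆ ball 0 1 := ball_subset_ball hr1.le
  have hq : ∀ z ∈ ball (0 : ℂ) r, HasDerivAt (fun z => f z / evQ serK z) 0 z := by
    intro z hz
    refine ((hf.d0 z (hsub hz)).div (hK.d0 z (hsub hz)) (hK0 z hz)).congr_deriv ?_
    rw [hW z (hsub hz), zero_div]
  have hc : ∀ z ∈ ball (0 : ℂ) r, f z = f 0 * evQ serK z := by
    intro z hz
    have := isOpen_ball.is_const_of_deriv_eq_zero (convex_ball 0 r).isPreconnected
      (fun z hz => (hq z hz).differentiableAt.differentiableWithinAt) (fun z hz => (hq z hz).deriv)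
      hz (mem_ball_self hr)
    simp only [evQ_serK_zero, div_one] at this
    rw [div_eq_iff (hK0 z hz)] at this
    exact this
  have hfa : AnalyticOnNhd ℂ f (ball 0 1) := DifferentiableOn.analyticOnNhd
    (fun z hz => (hf.d0 z hz).differentiableAt.differentiableWithinAt) isOpen_ball
  have hka : AnalyticOnNhd ℂ (fun z => f 0 * evQ serK z) (ball 0 1) :=
    DifferentiableOn.analyticOnNhd
      (fun z hz => ((hK.d0 z hz).const_mul (f 0)).differentiableAt.differentiableWithinAt) isOpen_ball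
  refine hfa.eqOn_of_preconnected_of_eventuallyEq hka (convex_ball 0 1).isPreconnected h0 ?_ hz
  filter_upwards [ball_mem_nhds (0 : ℂ) hr] with w hw using hc w hw

/-- right half disc -/
def hdisc (r : ℝ) : Set ℂ := {z | ‖z‖ < r ∧ 0 < z.re}

theorem isOpen_hdisc (r : ℝ) : IsOpen (hdisc r) :=
  (isOpen_lt continuous_norm continuous_const).inter (isOpen_lt continuous_const Complex.continuous_re)

theorem convex_hdisc (r : ℝ) : Convex ℝ (hdisc r) := by
  have h1 : hdisc r = ball (0 : ℂ) r ∩ {z : ℂ | 0 < z.re} := by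
    ext z
    rw [mem_inter_iff, mem_ball_zero_iff]
    exact Iff.rfl
  rw [h1]
  exact (convex_ball _ _).inter (convex_halfSpace_re_gt 0)

theorem hdisc_sub : hdisc 1 ⊆ ball (0 : ℂ) 1 := fun _ hz => mem_ball_zero_iff.2 hz.1

theorem hdisc_ne {r : ℝ} {z : ℂ} (hz : z ∈ hdisc r) : z ≠ 0 := by
  rintro rfl
  exact lt_irrefl _ hz.2

theorem hdisc_slit {r : ℝ} {z : ℂ} (hz : z ∈ hdisc r) : z ∈ Complex.slitPlane := Or.inl hz.2

theorem ofReal_mem_hdisc {r x : ℝ} (h0 : 0 < x) (h1 : x < r) : (x : ℂ) ∈ hdisc r := by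
  refine ⟨?_, by simpa using h0⟩
  rwa [Complex.norm_real, Real.norm_of_nonneg h0.le]

/-- second solution on the right half disc -/
noncomputable def mm (z : ℂ) : ℂ := evQ serK z * Complex.log z + evQ serM z
noncomputable def mm1 (z : ℂ) : ℂ := e1 serK z * Complex.log z + evQ serK z * z⁻¹ + e1 serM z
noncomputable def mm2 (z : ℂ) : ℂ :=
  e2 serK z * Complex.log z + 2 * e1 serK z * z⁻¹ - evQ serK z * (z ^ 2)⁻¹ + e2 serM z

theorem sol_mm : Sol (hdisc 1) (fun _ => 0) mm mm1 mm2 :=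
  sol_M hdisc_sub (fun _ hz => hdisc_ne hz) fun _ hz => Complex.hasDerivAt_log (hdisc_slit hz)

/-- the Wronskian of the two solutions -/
theorem wronskian_mm {z : ℂ} (hz : z ∈ hdisc 1) :
    z * (1 - z ^ 2) * (mm z * e1 serK z - evQ serK z * mm1 z) = -1 := by
  have hK := sol_K.mono hdisc_sub
  set P : ℂ → ℂ := fun z => z * (1 - z ^ 2) * (evQ serM z * e1 serK z - evQ serK z * e1 serM z)
    - (1 - z ^ 2) * evQ serK z ^ 2 with hP
  have hPz : ∀ z ∈ hdisc 1, z * (1 - z ^ 2) * (mm z * e1 serK z - evQ serK z * mm1 z) = P z := by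
    intro z hz
    have hi : z * z⁻¹ = 1 := mul_inv_cancel₀ (hdisc_ne hz)
    simp only [hP, mm, mm1]
    linear_combination (-(1 - z ^ 2) * evQ serK z ^ 2) * hi
  have hPc : ContinuousAt P 0 := by
    have c0 : ∀ {s : ℚ⟦X⟧}, PQ s → ContinuousAt (evQ s) 0 := fun hs => continuousAt_evQ hs (by simp)
    have c1 : ∀ {s : ℚ⟦X⟧}, PQ s → ContinuousAt (e1 s) 0 := fun hs =>
      continuousAt_evQ hs.deriv (by simp)
    have p1 : ContinuousAt (fun z : ℂ => z * (1 - z ^ 2)) 0 := by fun_prop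
    have p2 : ContinuousAt (fun z : ℂ => (1 - z ^ 2)) 0 := by fun_prop
    exact (p1.mul (((c0 pq_serM).mul (c1 pq_serK)).sub ((c0 pq_serK).mul (c1 pq_serM)))).sub
      (p2.mul ((c0 pq_serK).pow 2))
  have hP0 : P 0 = -1 := by simp [hP, evQ_serK_zero]
  -- constant on the half disc
  have hconst : ∀ w ∈ hdisc 1, P w = P z := by
    intro w hw
    rw [← hPz w hw, ← hPz z hz]
    exact wronskian_const (isOpen_hdisc 1) (convex_hdisc 1).isPreconnected sol_mm hK hw hz
  rw [hPz z hz]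
  have hlim : Tendsto (fun x : ℝ => P x) (𝓝[>] 0) (𝓝 (P 0)) := by
    have h1 : Tendsto (fun x : ℝ => (x : ℂ)) (𝓝[>] 0) (𝓝 0) := by
      have : Tendsto (fun x : ℝ => (x : ℂ)) (𝓝 0) (𝓝 ((0 : ℝ) : ℂ)) :=
        Complex.continuous_ofReal.tendsto 0
      rw [Complex.ofReal_zero] at this
      exact this.mono_left nhdsWithin_le_nhds
    exact Tendsto.comp hPc h1
  have hlim2 : Tendsto (fun x : ℝ => P x) (𝓝[>] 0) (𝓝 (P z)) := by
    refine tendsto_const_nhds.congr' ?_
    have h2 : ∀ᶠ x : ℝ in 𝓝[>] 0, x < 1 := by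
      have : ∀ᶠ x : ℝ in 𝓝 0, x < 1 := gt_mem_nhds one_pos
      exact this.filter_mono nhdsWithin_le_nhds
    filter_upwards [self_mem_nhdsWithin, h2] with x hx hx1
    exact (hconst _ (ofReal_mem_hdisc hx hx1)).symm
  rw [← tendsto_nhds_unique hlim hlim2, hP0]

theorem mul_sub_ne {z : ℂ} (hz : z ∈ hdisc 1) : z * (1 - z ^ 2) ≠ 0 :=
  mul_ne_zero (hdisc_ne hz) (one_sub_sq_ne hz.1)

/-- all solutions on the right half disc -/
theorem sol_basis (hf : Sol (hdisc 1) (fun _ => 0) f f1 f2) :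
    ∃ c d : ℂ, ∀ z ∈ hdisc 1, f z = d * evQ serK z + c * mm z := by
  have hK := sol_K.mono hdisc_sub
  have hhalf : ((1 / 2 : ℝ) : ℂ) ∈ hdisc 1 := ofReal_mem_hdisc (by norm_num) (by norm_num)
  set p : ℂ := ((1 / 2 : ℝ) : ℂ) with hp
  set c : ℂ := p * (1 - p ^ 2) * (f p * e1 serK p - evQ serK p * f1 p) with hc
  have hg := hf.add (sol_mm.smul c)
  have hg0 : Sol (hdisc 1) (fun _ => 0) (fun z => f z + c * mm z) (fun z => f1 z + c * mm1 z)
      (fun z => f2 z + c * mm2 z) := hg.congr_rhs fun z _ => by simp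
  have hW : ∀ z ∈ hdisc 1, (f1 z + c * mm1 z) * evQ serK z - (f z + c * mm z) * e1 serK z = 0 := by
    intro z hz
    have a := wronskian_const (isOpen_hdisc 1) (convex_hdisc 1).isPreconnected hf hK hz hhalf
    have b := wronskian_mm hz
    have e : z * (1 - z ^ 2) * ((f1 z + c * mm1 z) * evQ serK z - (f z + c * mm z) * e1 serK z)
        = 0 := by
      linear_combination -a - c * b
    exact (mul_eq_zero.1 e).resolve_left (mul_sub_ne hz)
  obtain ⟨r, hr, hr1, hK0⟩ := exists_ball_K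
  have hsub : hdisc r ⊆ hdisc 1 := fun z hz => ⟨hz.1.trans hr1, hz.2⟩
  have hsubb : hdisc r ⊆ ball (0 : ℂ) r := fun z hz => mem_ball_zero_iff.2 hz.1
  have hq : ∀ z ∈ hdisc r, HasDerivAt (fun z => (f z + c * mm z) / evQ serK z) 0 z := by
    intro z hz
    refine ((hg0.d0 z (hsub hz)).div (hK.d0 z (hsub hz)) (hK0 z (hsubb hz))).congr_deriv ?_
    rw [hW z (hsub hz), zero_div]
  have hpr : ((r / 2 : ℝ) : ℂ) ∈ hdisc r := ofReal_mem_hdisc (by linarith) (by linarith)
  set q : ℂ := ((r / 2 : ℝ) : ℂ) with hqd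
  set d : ℂ := (f q + c * mm q) / evQ serK q with hd
  have hcst : ∀ z ∈ hdisc r, f z + c * mm z = d * evQ serK z := by
    intro z hz
    have := (isOpen_hdisc r).is_const_of_deriv_eq_zero (convex_hdisc r).isPreconnected
      (fun z hz => (hq z hz).differentiableAt.differentiableWithinAt) (fun z hz => (hq z hz).deriv)
      hz hpr
    rw [div_eq_iff (hK0 z (hsubb hz))] at this
    exact this
  refine ⟨-c, d, fun z hz => ?_⟩
  have hfa : AnalyticOnNhd ℂ (fun z => f z + c * mm z) (hdisc 1) := DifferentiableOn.analyticOnNhd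
    (fun z hz => (hg0.d0 z hz).differentiableAt.differentiableWithinAt) (isOpen_hdisc 1)
  have hka : AnalyticOnNhd ℂ (fun z => d * evQ serK z) (hdisc 1) :=
    DifferentiableOn.analyticOnNhd
      (fun z hz => ((hK.d0 z hz).const_mul d).differentiableAt.differentiableWithinAt) (isOpen_hdisc 1)
  have h1 := hfa.eqOn_of_preconnected_of_eventuallyEq hka (convex_hdisc 1).isPreconnected
    (hsub hpr) (by
      filter_upwards [(isOpen_hdisc r).mem_nhds hpr] with w hw using hcst w hw) hz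
  simp only at h1
  linear_combination h1

theorem tendsto_evQ_real {s : ℚ⟦X⟧} (hs : PQ s) :
    Tendsto (fun x : ℝ => evQ s x) (𝓝[>] 0) (𝓝 (evQ s 0)) := by
  have h1 : Tendsto (fun x : ℝ => (x : ℂ)) (𝓝[>] 0) (𝓝 0) := by
    have : Tendsto (fun x : ℝ => (x : ℂ)) (𝓝 0) (𝓝 ((0 : ℝ) : ℂ)) :=
      Complex.continuous_ofReal.tendsto 0
    rw [Complex.ofReal_zero] at this
    exact this.mono_left nhdsWithin_le_nhds
  exact Tendsto.comp (continuousAt_evQ hs (by simp)) h1

/-- a solution on the right half disc which tends to `0` at the origin vanishes -/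
theorem sol_zero (hf : Sol (hdisc 1) (fun _ => 0) f f1 f2)
    (ht : Tendsto (fun x : ℝ => f x) (𝓝[>] 0) (𝓝 0)) : ∀ z ∈ hdisc 1, f z = 0 := by
  obtain ⟨c, d, h⟩ := sol_basis hf
  have hK := tendsto_evQ_real pq_serK
  have hM := tendsto_evQ_real pq_serM
  rw [evQ_serK_zero] at hK
  rw [evQ_serM_zero] at hM
  have hx1 : ∀ᶠ x : ℝ in 𝓝[>] 0, x < 1 :=
    (gt_mem_nhds one_pos : ∀ᶠ x : ℝ in 𝓝 0, x < 1).filter_mono nhdsWithin_le_nhds
  -- the logarithmic term
  have h1 : Tendsto (fun x : ℝ => c * evQ serK x * (Real.log x : ℂ)) (𝓝[>] 0) (𝓝 (-d)) := by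
    have h2 : Tendsto (fun x : ℝ => f x - d * evQ serK x - c * evQ serM x) (𝓝[>] 0)
        (𝓝 (0 - d * 1 - c * 0)) := (ht.sub (hK.const_mul d)).sub (hM.const_mul c)
    have h3 : (0 : ℂ) - d * 1 - c * 0 = -d := by ring
    rw [h3] at h2
    refine h2.congr' ?_
    filter_upwards [self_mem_nhdsWithin, hx1] with x hx hx1
    have h4 := h _ (ofReal_mem_hdisc hx hx1)
    rw [mm, ← Complex.ofReal_log (le_of_lt hx)] at h4
    rw [h4]
    ring
  have h2 : Tendsto (fun x : ℝ => ((Real.log x : ℂ))⁻¹) (𝓝[>] 0) (𝓝 0) := by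
    have h3 : Tendsto (fun x : ℝ => (Real.log x)⁻¹) (𝓝[>] 0) (𝓝 0) :=
      tendsto_inv_atBot_zero.comp Real.tendsto_log_nhdsGT_zero
    have h4 := (Complex.continuous_ofReal.tendsto 0).comp h3
    rw [Complex.ofReal_zero] at h4
    refine h4.congr fun x => ?_
    simp only [Function.comp_apply]
    push_cast
    rfl
  have h3 := h1.mul h2
  rw [mul_zero] at h3
  have h4 : Tendsto (fun x : ℝ => c * evQ serK x) (𝓝[>] 0) (𝓝 0) := by
    refine h3.congr' ?_
    filter_upwards [self_mem_nhdsWithin, hx1] with x hx hx1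
    have h5 : (Real.log x : ℂ) ≠ 0 := by
      rw [Ne, Complex.ofReal_eq_zero]
      exact (Real.log_neg hx hx1).ne
    field_simp
  have h5 := tendsto_nhds_unique h4 (hK.const_mul c)
  have hc : c = 0 := by rw [mul_one] at h5; exact h5.symm
  subst hc
  have h6 : Tendsto (fun x : ℝ => f x) (𝓝[>] 0) (𝓝 (d * 1)) := by
    refine (hK.const_mul d).congr' ?_
    filter_upwards [self_mem_nhdsWithin, hx1] with x hx hx1
    rw [h _ (ofReal_mem_hdisc hx hx1)]
    ring
  have hd : d = 0 := by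
    have := tendsto_nhds_unique h6 ht
    rwa [mul_one] at this
  intro z hz
  rw [h z hz, hd]
  ring

end Vale.Agent.P030.H462
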