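import Vale.Agent.P030.H462.Stiel
import Vale.Agent.P030.H462.SolUniq

/-!
# P030: the main branch `F̂` as a double integral; expansions at `c1` and `c0`

`Ft w = -(1/4) ∬ (1 - w sin α sin β)⁻¹`, `Fh u = Ft ((u+1)/(u-1)) / (1-u)`.
-/

open MeasureTheory Set Metric Filter Topology PowerSeries

namespace Vale.Agent.P030.H462

open Vale.Agent.P030.T

noncomputable def mu1 : Measure ℝ := volume.restrict (Ioc 0 (Real.pi / 2))
noncomputable def mu2 : Measure (ℝ × ℝ) := mu1.prod mu1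
noncomputable def ss (x : ℝ × ℝ) : ℝ := Real.sin x.1 * Real.sin x.2

instance : IsFiniteMeasure mu1 := by unfold mu1; infer_instance
instance : IsFiniteMeasure mu2 := by unfold mu2; infer_instance

theorem meas_ss : Measurable ss := by unfold ss; fun_prop

theorem ae_mu1 : ∀ᵐ x ∂mu1, x ∈ Ioc 0 (Real.pi / 2) := ae_restrict_mem measurableSet_Ioc

theorem sin_mem {x : ℝ} (hx : x ∈ Ioc 0 (Real.pi / 2)) : Real.sin x ∈ Icc (0 : ℝ) 1 :=
  ⟨Real.sin_nonneg_of_nonneg_of_le_pi hx.1.le (by linarith [hx.2, Real.pi_pos]), Real.sin_le_one x⟩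

theorem ae_mu2 : ∀ᵐ x ∂mu2, x.1 ∈ Ioc 0 (Real.pi / 2) ∧ x.2 ∈ Ioc 0 (Real.pi / 2) := by
  have h1 : ∀ᵐ x ∂mu2, x.1 ∈ Ioc 0 (Real.pi / 2) :=
    Measure.quasiMeasurePreserving_fst.ae ae_mu1
  have h2 : ∀ᵐ x ∂mu2, x.2 ∈ Ioc 0 (Real.pi / 2) :=
    Measure.quasiMeasurePreserving_snd.ae ae_mu1
  filter_upwards [h1, h2] with x a b using ⟨a, b⟩

theorem ae_ss : ∀ᵐ x ∂mu2, ss x ∈ Icc (0 : ℝ) 1 := by
  filter_upwards [ae_mu2] with x hx
  have a := sin_mem hx.1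
  have b := sin_mem hx.2
  exact ⟨mul_nonneg a.1 b.1, mul_le_one₀ a.2 b.1 b.2⟩

/-- Wallis integrals -/
noncomputable def Wal (n : ℕ) : ℝ := ∫ x in (0 : ℝ)..(Real.pi / 2), Real.sin x ^ n

theorem Wal_zero : Wal 0 = Real.pi / 2 := by simp [Wal]

theorem Wal_one : Wal 1 = 1 := by
  simp [Wal, integral_sin]

theorem Wal_succ (n : ℕ) : Wal (n + 2) = ((n : ℝ) + 1) / ((n : ℝ) + 2) * Wal n := by
  unfold Wal
  rw [integral_sin_pow]
  simp

theorem mom_ss (n : ℕ) : ∫ x, ss x ^ n ∂mu2 = Wal n ^ 2 := by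
  have h1 : ∀ x : ℝ × ℝ, ss x ^ n = Real.sin x.1 ^ n * Real.sin x.2 ^ n := fun x => by
    rw [ss, mul_pow]
  simp_rw [h1]
  rw [mu2, integral_prod_mul (fun x => Real.sin x ^ n) (fun x => Real.sin x ^ n)]
  have h2 : ∫ x, Real.sin x ^ n ∂mu1 = Wal n := by
    rw [Wal, intervalIntegral.integral_of_le (by positivity), mu1]
  rw [h2, sq]

theorem wal_coeff : ∀ n : ℕ, -(1 / 4) * Wal n ^ 2
    = ((cB2 n : ℚ) : ℝ) - Real.pi ^ 2 / 16 * ((coeff n serK : ℚ) : ℝ)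
  | 0 => by
    rw [Wal_zero, H605.serK_zero, cB2]
    push_cast
    ring
  | 1 => by
    rw [Wal_one, H605.serK_one, cB2]
    push_cast
    ring
  | n + 2 => by
    have ih := wal_coeff n
    have hK : ((coeff (n + 2) serK : ℚ) : ℝ)
        = ((n : ℝ) + 1) ^ 2 * ((coeff n serK : ℚ) : ℝ) / ((n : ℝ) + 2) ^ 2 := by
      have h1 := H605.serK_rec n
      have h2 : ((n : ℚ) + 2) ≠ 0 := by positivity
      have h3 : coeff (n + 2) serK = ((n : ℚ) + 1) ^ 2 * coeff n serK / ((n : ℚ) + 2) ^ 2 := by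
        field_simp; linear_combination h1
      rw [h3]; push_cast; ring
    have hi : ∀ x : ℝ, x / ((n : ℝ) + 2) ^ 2 = x * (((n : ℝ) + 2)⁻¹) ^ 2 := fun x => by
      rw [div_eq_mul_inv, inv_pow]
    rw [Wal_succ, hK, cB2]
    push_cast
    rw [hi, hi]
    linear_combination (((n : ℝ) + 1) / ((n : ℝ) + 2)) ^ 2 * ih

noncomputable def Ft (w : ℂ) : ℂ := -(1 / 4) * stiel mu2 ss w

/-- the expansion at `c1` -/
theorem Ft_eq {w : ℂ} (hw : ‖w‖ < 1) :
    Ft w = evQ serB2 w - (Real.pi : ℂ) ^ 2 / 16 * evQ serK w := by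
  have h1 := (hasSum_stiel meas_ss ae_ss hw).mul_left (-(1 / 4) : ℂ)
  have h2 := (pq_serB2.hasSum hw).sub ((pq_serK.hasSum hw).mul_left ((Real.pi : ℂ) ^ 2 / 16))
  refine h1.unique ?_
  have h3 : (fun n : ℕ => -(1 / 4) * (w ^ n * ((∫ x, ss x ^ n ∂mu2 : ℝ) : ℂ))) = fun n : ℕ =>
      (algebraMap ℚ ℂ) (coeff n serB2) * w ^ n
        - (Real.pi : ℂ) ^ 2 / 16 * ((algebraMap ℚ ℂ) (coeff n serK) * w ^ n) := by
    funext n
    have h4 : ((-(1 / 4) * Wal n ^ 2 : ℝ) : ℂ)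
        = ((((cB2 n : ℚ) : ℝ) - Real.pi ^ 2 / 16 * ((coeff n serK : ℚ) : ℝ) : ℝ) : ℂ) := by
      rw [wal_coeff n]
    push_cast at h4
    rw [mom_ss]
    simp only [eq_ratCast]
    rw [serB2, coeff_mk]
    push_cast
    linear_combination (w ^ n) * h4
  rw [h3]
  exact h2

/-- continuation of the equation along an open connected set -/
theorem sol_extend {Ω : Set ℂ} (ho : IsOpen Ω) (hp : IsPreconnected Ω) {f ρ : ℂ → ℂ}
    (hf : DifferentiableOn ℂ f Ω) (hρ : DifferentiableOn ℂ ρ Ω) {z0 : ℂ} (hz0 : z0 ∈ Ω)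
    {r : ℝ} (hr : 0 < r) {g g1 g2 : ℂ → ℂ} (hg : Sol (ball z0 r) ρ g g1 g2)
    (hfg : ∀ z ∈ ball z0 r, f z = g z) : Sol Ω ρ f (deriv f) (deriv (deriv f)) := by
  have h1 : DifferentiableOn ℂ (deriv f) Ω := hf.deriv ho
  have h2 : DifferentiableOn ℂ (deriv (deriv f)) Ω := h1.deriv ho
  refine ⟨fun z hz => (hf.differentiableAt (ho.mem_nhds hz)).hasDerivAt,
    fun z hz => (h1.differentiableAt (ho.mem_nhds hz)).hasDerivAt, fun z hz => ?_⟩
  have a1 : AnalyticOnNhd ℂ (fun z => z * (1 - z ^ 2) * deriv (deriv f) z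
      + (1 - 3 * z ^ 2) * deriv f z - z * f z) Ω := by
    refine DifferentiableOn.analyticOnNhd ?_ ho
    have p1 : DifferentiableOn ℂ (fun z : ℂ => z * (1 - z ^ 2)) Ω := by fun_prop
    have p2 : DifferentiableOn ℂ (fun z : ℂ => 1 - 3 * z ^ 2) Ω := by fun_prop
    have p3 : DifferentiableOn ℂ (fun z : ℂ => z) Ω := by fun_prop
    exact ((p1.mul h2).add (p2.mul h1)).sub (p3.mul hf)
  have a2 : AnalyticOnNhd ℂ ρ Ω := hρ.analyticOnNhd ho
  refine a1.eqOn_of_preconnected_of_eventuallyEq a2 hp hz0 ?_ hz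
  filter_upwards [ball_mem_nhds z0 hr] with w hw
  have e : ∀ᶠ z in 𝓝 w, f z = g z := by
    filter_upwards [isOpen_ball.mem_nhds hw] with z hz using hfg z hz
  have e1 : deriv f w = g1 w := by
    rw [Filter.EventuallyEq.deriv_eq e]; exact (hg.d0 w hw).deriv
  have e2 : ∀ᶠ z in 𝓝 w, deriv f z = g1 z := by
    filter_upwards [isOpen_ball.mem_nhds hw] with z hz
    have e : ∀ᶠ z' in 𝓝 z, f z' = g z' := by
      filter_upwards [isOpen_ball.mem_nhds hz] with z' hz' using hfg z' hz'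
    rw [Filter.EventuallyEq.deriv_eq e]; exact (hg.d0 z hz).deriv
  have e3 : deriv (deriv f) w = g2 w := by
    rw [Filter.EventuallyEq.deriv_eq e2]; exact (hg.d1 w hw).deriv
  rw [e1, e3, hfg w hw]
  exact hg.eq w hw

theorem differentiableOn_Ft : DifferentiableOn ℂ Ft cut1 := by
  unfold Ft
  exact (differentiableOn_stiel meas_ss ae_ss).const_mul _

theorem sol_Ft : Sol cut1 (fun _ => -(1 / 4)) Ft (deriv Ft) (deriv (deriv Ft)) := by
  have h1 := sol_B2.sub (sol_K.smul ((Real.pi : ℂ) ^ 2 / 16))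
  have h2 := h1.congr_rhs (σ := fun _ => -(1 / 4)) (fun z _ => by ring)
  exact sol_extend isOpen_cut1 isPreconnected_cut1 differentiableOn_Ft
    (differentiableOn_const _) (ball_sub_cut1 (mem_ball_self one_pos)) one_pos h2
    fun z hz => Ft_eq (mem_ball_zero_iff.1 hz)

/-- the main branch -/
noncomputable def Fh (u : ℂ) : ℂ := Ft ((u + 1) / (u - 1)) / (1 - u)

/-- the domain of the main branch: the complement of `[1, ∞)` -/
def dmain : Set ℂ := {u | u ≠ 1 ∧ (u + 1) / (u - 1) ∈ cut1}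

theorem mem_dmain {u : ℂ} : u ∈ dmain ↔ u ≠ 1 ∧ ∀ s ∈ Icc (0 : ℝ) 1, (1 - u) + (1 + u) * (s : ℂ) ≠ 0 := by
  constructor
  · rintro ⟨h1, h2⟩
    refine ⟨h1, fun s hs hcon => h2 s hs ?_⟩
    have h3 : u - 1 ≠ 0 := sub_ne_zero.2 h1
    field_simp
    linear_combination -hcon
  · rintro ⟨h1, h2⟩
    refine ⟨h1, fun s hs hcon => h2 s hs ?_⟩
    have h3 : u - 1 ≠ 0 := sub_ne_zero.2 h1
    field_simp at hcon
    linear_combination -hcon

noncomputable def Fh1 (u : ℂ) : ℂ :=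
  -2 * deriv Ft ((u + 1) / (u - 1)) / (1 - u) ^ 3 + Ft ((u + 1) / (u - 1)) / (1 - u) ^ 2
noncomputable def Fh2 (u : ℂ) : ℂ :=
  4 * deriv (deriv Ft) ((u + 1) / (u - 1)) / (1 - u) ^ 5
    - 8 * deriv Ft ((u + 1) / (u - 1)) / (1 - u) ^ 4 + 2 * Ft ((u + 1) / (u - 1)) / (1 - u) ^ 3

theorem sol_Fh : Sol dmain (fun u => -(1 / 4) / (1 - u)) Fh Fh1 Fh2 := sol_Ft.comp_w

theorem ball_sub_dmain : ball (0 : ℂ) 1 ⊆ dmain := by
  intro u hu
  rw [mem_ball_zero_iff] at hu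
  rw [mem_dmain]
  have hre := (Complex.abs_re_le_norm u).trans_lt hu
  have h1 := (abs_lt.1 hre).1
  have h2 := (abs_lt.1 hre).2
  refine ⟨?_, fun s hs hcon => ?_⟩
  · rintro rfl
    rw [norm_one] at hu
    exact lt_irrefl _ hu
  · have h3 := congrArg Complex.re hcon
    simp at h3
    have h4 := hs.1
    nlinarith [hs.2]

/-- the expansion at `c0`, up to the value at `0` -/
theorem Fh_eq_aux {u : ℂ} (hu : ‖u‖ < 1) : Fh u = evQ serB u + Fh 0 * evQ serK u := by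
  have h1 := (sol_Fh.mono ball_sub_dmain).sub sol_B
  have h2 := h1.congr_rhs (σ := fun _ => 0) (fun z _ => by ring)
  have h3 := sol_reg h2 (mem_ball_zero_iff.2 hu)
  have h4 : evQ serB 0 = 0 := by
    rw [evQ, ev_at_zero, serB, coeff_mk, cB, map_zero]
  rw [h4, sub_zero] at h3
  linear_combination h3

/-- the expansion at `c1` -/
theorem Fh_eq_c1 {u : ℂ} (hu : ‖(u + 1) / (u - 1)‖ < 1) :
    Fh u = (evQ serB2 ((u + 1) / (u - 1))
      - (Real.pi : ℂ) ^ 2 / 16 * evQ serK ((u + 1) / (u - 1))) / (1 - u) := by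
  rw [Fh, Ft_eq hu]

end Vale.Agent.P030.H462
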