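import Vale.Agent.P030.H532.Table

/-!
# P030, route N: certificate tables with general atoms

An atom is `U(z) = (1/2) log max (m₁ |a₁ z + b₁|², m₂ |a₂ z + b₂|²)` with Gaussian integers
`a`, `b` and natural factors `m`: circle atoms, Cauchy atoms, harmonic measures of circles with
rational data. `bridge` expresses the weight on a piece through logarithms of quadratics, in the
format of the kernel checker of H532.
-/

noncomputable section

namespace Vale.Agent.P030.H462.TA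

open Vale.Agent.P030.H532 (Piece Quad)

/-- the data of `m |a z + b|²` -/
structure Lin where
  m : ℕ
  ax : ℤ
  ay : ℤ
  bx : ℤ
  bY : ℤ
deriving DecidableEq

/-- the leading coefficient -/
def Lin.a (l : Lin) : ℂ := (l.ax : ℂ) + (l.ay : ℂ) * Complex.I

/-- the constant coefficient -/
def Lin.b (l : Lin) : ℂ := (l.bx : ℂ) + (l.bY : ℂ) * Complex.I

/-- `m |a z + b|²` -/
def Lin.ev (l : Lin) (z : ℂ) : ℝ := l.m * ‖l.a * z + l.b‖ ^ 2

/-- conjugate coefficients -/
def Lin.cj (l : Lin) : Lin := ⟨l.m, l.ax, -l.ay, l.bx, -l.bY⟩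

/-- an atom, with its mirror image if `mir` -/
structure Ent where
  f : Lin
  g : Lin
  mir : Bool
  q : List ℤ
deriving DecidableEq

/-- `(1/2) log max (f, g)` -/
def lmax (f g : Lin) (z : ℂ) : ℝ := (1 / 2) * Real.log (max (f.ev z) (g.ev z))

/-- potential of an entry -/
def Ent.U (e : Ent) (z : ℂ) : ℝ :=
  if e.mir then lmax e.f e.g z + lmax e.f.cj e.g.cj z else lmax e.f e.g z

/-- nondegenerate: the two forms have no common zero -/
def Ent.nd (e : Ent) : Bool :=
  decide (0 < e.f.m ∧ 0 < e.g.m ∧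
    (e.f.ax * e.g.bx - e.f.ay * e.g.bY - (e.g.ax * e.f.bx - e.g.ay * e.f.bY) ≠ 0 ∨
      e.f.ax * e.g.bY + e.f.ay * e.g.bx - (e.g.ax * e.f.bY + e.g.ay * e.f.bx) ≠ 0))

/-- a table: `L` = denominator of the charges and of the constants -/
structure Tab where
  L : ℕ
  ents : List Ent
  G : List ℤ

/-- number of unit masses of an entry -/
def Ent.mult (e : Ent) : ℤ := if e.mir then 2 else 1

/-- total charge of block `b` (numerator) -/
def Tab.mass (D : Tab) (b : ℕ) : ℤ := (D.ents.map fun e => e.q.getD b 0 * e.mult).sum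

/-- the weight `W b` -/
def Tab.W (D : Tab) (b : ℕ) (z : ℂ) : ℝ :=
  ((D.ents.map fun e => (e.q.getD b 0 : ℝ) * e.U z).sum + (D.G.getD b 0 : ℤ)) / D.L

/-! ### quadratics on a piece -/

/-- `s² m |a num + b den|²` -/
def qd (p : Piece) (s : ℕ) (l : Lin) : Quad :=
  let u := l.ax * p.ax - l.ay * p.ay + (l.bx * p.bx - l.bY * p.By)
  let v := l.ax * p.ay + l.ay * p.ax + (l.bx * p.By + l.bY * p.bx)
  let u' := l.ax * p.ax' - l.ay * p.ay' + (l.bx * p.bx' - l.bY * p.by')
  let v' := l.ax * p.ay' + l.ay * p.ax' + (l.bx * p.by' + l.bY * p.bx')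
  ⟨(s : ℤ) ^ 2 * l.m * (u' * u' + v' * v'), (s : ℤ) ^ 2 * l.m * (2 * (u * u' + v * v')),
    (s : ℤ) ^ 2 * l.m * (u * u + v * v)⟩

/-- the larger one at `t0` -/
def pick (p : Piece) (s : ℕ) (f g : Lin) (t0 : ℤ) : Quad :=
  if (qd p s g).evZ t0 ≤ (qd p s f).evZ t0 then qd p s f else qd p s g

/-- the choice is right on `[t0, t1]` -/
def pickOk (p : Piece) (s : ℕ) (f g : Lin) (t0 t1 : ℤ) : Bool :=
  if (qd p s g).evZ t0 ≤ (qd p s f).evZ t0 then
    ((qd p s f).sub (qd p s g)).posOn t0 t1 else ((qd p s g).sub (qd p s f)).posOn t0 t1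

/-- the quadratics of an entry with their multiplicities -/
def terms (p : Piece) (s : ℕ) (t0 : ℤ) (e : Ent) : List (Quad × List ℤ) :=
  if e.mir then
    if p.isReal then [(pick p s e.f e.g t0, e.q.map fun x => 2 * x)]
    else [(pick p s e.f e.g t0, e.q), (pick p s e.f.cj e.g.cj t0, e.q)]
  else [(pick p s e.f e.g t0, e.q)]

/-- the choices are right -/
def termsOk (p : Piece) (s : ℕ) (t0 t1 : ℤ) (e : Ent) : Bool :=
  if e.mir then
    if p.isReal then pickOk p s e.f e.g t0 t1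
    else pickOk p s e.f e.g t0 t1 && pickOk p s e.f.cj e.g.cj t0 t1
  else pickOk p s e.f e.g t0 t1

/-! ### proofs -/

theorem evZ_cast (Q : Quad) (t : ℤ) : ((Q.evZ t : ℤ) : ℝ) = Q.ev t := by
  simp only [Quad.evZ, Quad.ev]; push_cast; ring

theorem ev_sub (Q P : Quad) (t : ℝ) : (Q.sub P).ev t = Q.ev t - P.ev t := by
  simp only [Quad.sub, Quad.ev]; push_cast; ring

theorem posOn_sound {Q : Quad} {t0 t1 : ℤ} (h : Q.posOn t0 t1 = true) {t : ℝ}
    (h0 : (t0 : ℝ) ≤ t) (h1 : t ≤ t1) : 0 ≤ Q.ev t := by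
  simp only [Quad.posOn, decide_eq_true_eq] at h
  obtain ⟨ha, hb, hc⟩ := h
  have ha' : (0 : ℝ) ≤ Q.ev t0 := by rw [← evZ_cast]; exact_mod_cast ha
  have hb' : (0 : ℝ) ≤ Q.ev t1 := by rw [← evZ_cast]; exact_mod_cast hb
  by_cases hA : Q.A ≤ 0
  · have hA' : (Q.A : ℝ) ≤ 0 := by exact_mod_cast hA
    rcases eq_or_lt_of_le (h0.trans h1) with h | h
    · have : t = t0 := le_antisymm (h ▸ h1) h0
      rw [this]; exact ha'
    · have key : Q.ev t * ((t1 : ℝ) - t0) = (t1 - t) * Q.ev t0 + (t - t0) * Q.ev t1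
          + (-(Q.A : ℝ)) * (t - t0) * (t1 - t) * (t1 - t0) := by
        simp only [Quad.ev]; ring
      have h2 : 0 ≤ Q.ev t * ((t1 : ℝ) - t0) := by
        rw [key]
        have e1 : 0 ≤ t - (t0 : ℝ) := by linarith
        have e2 : 0 ≤ (t1 : ℝ) - t := by linarith
        have e3 : 0 ≤ (t1 : ℝ) - t0 := by linarith
        have e4 : 0 ≤ -(Q.A : ℝ) := by linarith
        positivity
      exact nonneg_of_mul_nonneg_left h2 (by linarith)
  · rw [not_le] at hA
    have hA' : (0 : ℝ) < Q.A := by exact_mod_cast hA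
    rcases hc with h | h | h | h
    · exact absurd h (not_le.2 hA)
    · have h' : (0 : ℝ) ≤ 2 * Q.A * t0 + Q.B := by exact_mod_cast h
      have key : Q.ev t = Q.ev t0 + (t - t0) * ((2 * Q.A * t0 + Q.B) + Q.A * (t - t0)) := by
        simp only [Quad.ev]; ring
      rw [key]
      have e1 : 0 ≤ t - (t0 : ℝ) := by linarith
      positivity
    · have h' : 2 * Q.A * t1 + Q.B ≤ (0 : ℝ) := by exact_mod_cast h
      have key : Q.ev t = Q.ev t1 + (t1 - t) * (-(2 * Q.A * t1 + Q.B) + Q.A * (t1 - t)) := by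
        simp only [Quad.ev]; ring
      rw [key]
      have e1 : 0 ≤ (t1 : ℝ) - t := by linarith
      have e2 : (0 : ℝ) ≤ -(2 * Q.A * t1 + Q.B) := by linarith
      positivity
    · have h' : (Q.B : ℝ) ^ 2 ≤ 4 * Q.A * Q.C := by exact_mod_cast h
      have key : 4 * Q.A * Q.ev t = (2 * Q.A * t + Q.B) ^ 2 + (4 * Q.A * Q.C - Q.B ^ 2) := by
        simp only [Quad.ev]; ring
      have h2 : 0 ≤ 4 * Q.A * Q.ev t := by
        rw [key]
        have := sq_nonneg (2 * (Q.A : ℝ) * t + Q.B)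
        linarith
      exact nonneg_of_mul_nonneg_right h2 (by linarith)

theorem norm_sq_mk (x y : ℝ) : ‖(x : ℂ) + (y : ℂ) * Complex.I‖ ^ 2 = x ^ 2 + y ^ 2 := by
  rw [← Complex.normSq_eq_norm_sq, Complex.normSq_add_mul_I]

/-- the quadratic on the piece -/
theorem qd_ev (p : Piece) (s : ℕ) (l : Lin) (t : ℝ) :
    (qd p s l).ev t = (s : ℝ) ^ 2 * (l.m * ‖l.a * p.num t + l.b * p.den t‖ ^ 2) := by
  have h : l.a * p.num t + l.b * p.den t =
      (((l.ax * p.ax - l.ay * p.ay + (l.bx * p.bx - l.bY * p.By)) +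
        (l.ax * p.ax' - l.ay * p.ay' + (l.bx * p.bx' - l.bY * p.by')) * t : ℝ) : ℂ) +
      (((l.ax * p.ay + l.ay * p.ax + (l.bx * p.By + l.bY * p.bx)) +
        (l.ax * p.ay' + l.ay * p.ax' + (l.bx * p.by' + l.bY * p.bx')) * t : ℝ) : ℂ) *
        Complex.I := by
    simp only [Lin.a, Lin.b, Piece.num, Piece.den]
    push_cast
    linear_combination ((l.ay : ℂ) * p.ay + l.ay * p.ay' * t + l.bY * p.By + l.bY * p.by' * t) *
      Complex.I_sq
  rw [h, norm_sq_mk]
  simp only [qd, Quad.ev]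
  push_cast
  ring

theorem cj_a (l : Lin) : l.cj.a = (starRingEnd ℂ) l.a := by
  simp [Lin.cj, Lin.a]

theorem cj_b (l : Lin) : l.cj.b = (starRingEnd ℂ) l.b := by
  simp [Lin.cj, Lin.b]

theorem cj_cj (l : Lin) : l.cj.cj = l := by simp [Lin.cj]

theorem ev_cj (l : Lin) (z : ℂ) : l.cj.ev z = l.ev ((starRingEnd ℂ) z) := by
  have h : l.cj.a * z + l.cj.b = (starRingEnd ℂ) (l.a * (starRingEnd ℂ) z + l.b) := by
    rw [cj_a, cj_b]; simp
  simp only [Lin.ev]
  rw [h, Complex.norm_conj]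
  rfl

theorem lmax_cj (f g : Lin) (z : ℂ) : lmax f.cj g.cj z = lmax f g ((starRingEnd ℂ) z) := by
  simp only [lmax, ev_cj]

theorem U_conj (e : Ent) (h : e.mir = true) (z : ℂ) : e.U ((starRingEnd ℂ) z) = e.U z := by
  simp only [Ent.U, h, if_true, lmax_cj, Complex.conj_conj]
  ring

/-- the maximum is positive -/
theorem max_pos {e : Ent} (h : e.nd = true) {x y : ℂ} (hy : y ≠ 0) :
    0 < max ((e.f.m : ℝ) * ‖e.f.a * x + e.f.b * y‖ ^ 2)
      ((e.g.m : ℝ) * ‖e.g.a * x + e.g.b * y‖ ^ 2) := by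
  simp only [Ent.nd, decide_eq_true_eq] at h
  obtain ⟨h1, h2, h3⟩ := h
  have h1' : (0 : ℝ) < e.f.m := by exact_mod_cast h1
  have h2' : (0 : ℝ) < e.g.m := by exact_mod_cast h2
  by_contra hc
  rw [not_lt, max_le_iff] at hc
  have hf : e.f.a * x + e.f.b * y = 0 := by
    by_contra hh
    have := norm_pos_iff.2 hh
    have : 0 < (e.f.m : ℝ) * ‖e.f.a * x + e.f.b * y‖ ^ 2 := by positivity
    linarith [hc.1]
  have hg : e.g.a * x + e.g.b * y = 0 := by
    by_contra hh
    have := norm_pos_iff.2 hh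
    have : 0 < (e.g.m : ℝ) * ‖e.g.a * x + e.g.b * y‖ ^ 2 := by positivity
    linarith [hc.2]
  have hdet : e.f.a * e.g.b - e.g.a * e.f.b = 0 := by
    have : (e.f.a * e.g.b - e.g.a * e.f.b) * y = 0 := by
      linear_combination (-e.g.a) * hf + e.f.a * hg
    exact (mul_eq_zero.1 this).resolve_right hy
  have hre := congrArg Complex.re hdet
  have him := congrArg Complex.im hdet
  simp only [Lin.a, Lin.b, Complex.sub_re, Complex.sub_im, Complex.mul_re, Complex.mul_im,
    Complex.add_re, Complex.add_im, Complex.intCast_re, Complex.intCast_im, Complex.I_re,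
    Complex.I_im, Complex.zero_re, Complex.zero_im] at hre him
  rcases h3 with h3 | h3
  · apply h3
    have : ((e.f.ax * e.g.bx - e.f.ay * e.g.bY - (e.g.ax * e.f.bx - e.g.ay * e.f.bY) : ℤ) : ℝ)
        = 0 := by
      push_cast; linarith
    exact_mod_cast this
  · apply h3
    have : ((e.f.ax * e.g.bY + e.f.ay * e.g.bx - (e.g.ax * e.f.bY + e.g.ay * e.f.bx) : ℤ) : ℝ)
        = 0 := by
      push_cast; linarith
    exact_mod_cast this

/-- the value of the atom on the piece -/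
theorem lmax_piece {e : Ent} (hnd : e.nd = true) (p : Piece) {s : ℕ} (hs : 0 < s) {t0 t1 : ℤ}
    (hok : pickOk p s e.f e.g t0 t1 = true) {t : ℝ} (h0 : (t0 : ℝ) ≤ t) (h1 : t ≤ t1)
    (hd : p.den t ≠ 0) :
    2 * lmax e.f e.g (p.z t) = Real.log ((pick p s e.f e.g t0).ev t)
      - 2 * Real.log (s * ‖p.den t‖) := by
  have hs' : (0 : ℝ) < s := by exact_mod_cast hs
  have hdn : 0 < ‖p.den t‖ := norm_pos_iff.2 hd
  -- the picked quadratic is the maximum
  have hpick : (pick p s e.f e.g t0).ev t = max ((qd p s e.f).ev t) ((qd p s e.g).ev t) := by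
    simp only [pick, pickOk] at hok ⊢
    split_ifs at hok ⊢ with hc
    · have := posOn_sound hok h0 h1
      rw [ev_sub] at this
      rw [max_eq_left (by linarith)]
    · have := posOn_sound hok h0 h1
      rw [ev_sub] at this
      rw [max_eq_right (by linarith)]
  have key : ∀ l : Lin, (qd p s l).ev t = (s * ‖p.den t‖) ^ 2 * l.ev (p.z t) := by
    intro l
    rw [qd_ev, Lin.ev, Piece.z]
    have : l.a * p.num t + l.b * p.den t = (l.a * (p.num t / p.den t) + l.b) * p.den t := by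
      field_simp
    rw [this, norm_mul]
    ring
  rw [hpick, key, key, ← mul_max_of_nonneg _ _ (by positivity)]
  have hpos : 0 < max (e.f.ev (p.z t)) (e.g.ev (p.z t)) := by
    have := max_pos hnd (x := p.z t) (y := 1) one_ne_zero
    simpa [Lin.ev] using this
  rw [Real.log_mul (by positivity) hpos.ne', Real.log_pow, lmax]
  push_cast
  ring

theorem isReal_conj {p : Piece} (h : p.isReal = true) (t : ℝ) :
    (starRingEnd ℂ) (p.z t) = p.z t := by
  simp only [Piece.isReal, Bool.and_eq_true, beq_iff_eq] at h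
  obtain ⟨⟨⟨h1, h2⟩, h3⟩, h4⟩ := h
  simp [Piece.z, Piece.num, Piece.den, h1, h2, h3, h4]

theorem nd_cj {e : Ent} (h : e.nd = true) : (Ent.mk e.f.cj e.g.cj e.mir e.q).nd = true := by
  unfold Ent.nd at h ⊢
  rw [decide_eq_true_eq] at h ⊢
  refine ⟨h.1, h.2.1, ?_⟩
  simp only [Lin.cj]
  rcases h.2.2 with h | h
  · left
    intro hc; apply h; linarith
  · right
    intro hc; apply h; linarith

/-- one entry -/
theorem entry {e : Ent} (hnd : e.nd = true) (p : Piece) {s : ℕ} (hs : 0 < s) {t0 t1 : ℤ}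
    (hok : termsOk p s t0 t1 e = true) {t : ℝ} (h0 : (t0 : ℝ) ≤ t) (h1 : t ≤ t1)
    (hd : p.den t ≠ 0) (b : ℕ) :
    2 * ((e.q.getD b 0 : ℝ) * e.U (p.z t)) =
      ((terms p s t0 e).map fun x => ((x.2.getD b 0 : ℤ) : ℝ) * Real.log (x.1.ev t)).sum
      - ((e.q.getD b 0 * e.mult : ℤ) : ℝ) * (2 * Real.log (s * ‖p.den t‖)) := by
  simp only [termsOk, terms, Ent.U, Ent.mult] at hok ⊢
  have hnd' := nd_cj hnd
  split_ifs at hok ⊢ with hm hr
  · -- mirrored, real piece
    have h2 := lmax_piece hnd p hs hok h0 h1 hd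
    have h3 : lmax e.f.cj e.g.cj (p.z t) = lmax e.f e.g (p.z t) := by
      rw [lmax_cj, isReal_conj hr]
    have h4 : ((e.q.map fun x => 2 * x).getD b 0 : ℤ) = 2 * e.q.getD b 0 := by
      simp only [List.getD_eq_getElem?_getD, List.getElem?_map]
      cases e.q[b]? <;> simp
    simp only [List.map_cons, List.map_nil, List.sum_cons, List.sum_nil, h3, h4]
    push_cast
    linear_combination (2 * (e.q.getD b 0 : ℝ)) * h2
  · rw [Bool.and_eq_true] at hok
    have h2 := lmax_piece hnd p hs hok.1 h0 h1 hd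
    have h3 := lmax_piece (e := ⟨e.f.cj, e.g.cj, e.mir, e.q⟩) hnd' p hs hok.2 h0 h1 hd
    simp only [List.map_cons, List.map_nil, List.sum_cons, List.sum_nil]
    push_cast
    linear_combination (e.q.getD b 0 : ℝ) * h2 + (e.q.getD b 0 : ℝ) * h3
  · have h2 := lmax_piece hnd p hs hok h0 h1 hd
    simp only [List.map_cons, List.map_nil, List.sum_cons, List.sum_nil]
    push_cast
    linear_combination (e.q.getD b 0 : ℝ) * h2

/-- **The bridge**: weights on a piece as sums of logarithms of integer quadratics. -/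
theorem bridge (D : Tab) (p : Piece) (s : ℕ) (t0 t1 : ℤ) (hL : 0 < D.L) (hs : 0 < s)
    (hnd : ∀ e ∈ D.ents, e.nd = true) (hok : ∀ e ∈ D.ents, termsOk p s t0 t1 e = true) {t : ℝ}
    (h0 : (t0 : ℝ) ≤ t) (h1 : t ≤ t1) (hd : p.den t ≠ 0) (b : ℕ) :
    2 * (D.L : ℝ) * D.W b (p.z t) =
      ((D.ents.flatMap (terms p s t0)).map fun x =>
        ((x.2.getD b 0 : ℤ) : ℝ) * Real.log (x.1.ev t)).sum
      + 2 * ((D.G.getD b 0 : ℤ) : ℝ) - (D.mass b : ℝ) * (2 * Real.log (s * ‖p.den t‖)) := by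
  have hL' : (D.L : ℝ) ≠ 0 := by exact_mod_cast hL.ne'
  have key : ∀ l : List Ent, (∀ e ∈ l, e.nd = true) → (∀ e ∈ l, termsOk p s t0 t1 e = true) →
      2 * (l.map fun e => (e.q.getD b 0 : ℝ) * e.U (p.z t)).sum =
      ((l.flatMap (terms p s t0)).map fun x =>
        ((x.2.getD b 0 : ℤ) : ℝ) * Real.log (x.1.ev t)).sum
      - (((l.map fun e => e.q.getD b 0 * e.mult).sum : ℤ) : ℝ)
        * (2 * Real.log (s * ‖p.den t‖)) := by
    intro l
    induction l with
    | nil => intro _ _; simp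
    | cons e l ih =>
      intro hn hk
      have ih' := ih (fun x hx => hn x (List.mem_cons_of_mem _ hx))
        (fun x hx => hk x (List.mem_cons_of_mem _ hx))
      have he := entry (hn e List.mem_cons_self) p hs (hk e List.mem_cons_self) h0 h1 hd b
      simp only [List.map_cons, List.sum_cons, List.flatMap_cons, List.map_append,
        List.sum_append]
      push_cast at ih' he ⊢
      linear_combination ih' + he
  have h2 := key D.ents hnd hok
  rw [Tab.W, Tab.mass]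
  have h3 : 2 * (D.L : ℝ) * (((D.ents.map fun e => (e.q.getD b 0 : ℝ) * e.U (p.z t)).sum
      + (D.G.getD b 0 : ℤ)) / D.L) = 2 * (D.ents.map fun e => (e.q.getD b 0 : ℝ) * e.U (p.z t)).sum
      + 2 * ((D.G.getD b 0 : ℤ) : ℝ) := by
    field_simp
  rw [h3]
  linear_combination h2

/-- comparison of two blocks with the same total charge -/
theorem W_le (D : Tab) (p : Piece) (s : ℕ) (t0 t1 : ℤ) (hL : 0 < D.L) (hs : 0 < s)
    (hnd : ∀ e ∈ D.ents, e.nd = true) (hok : ∀ e ∈ D.ents, termsOk p s t0 t1 e = true) {t : ℝ}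
    (h0 : (t0 : ℝ) ≤ t) (h1 : t ≤ t1) (hd : p.den t ≠ 0) {b c : ℕ} (hm : D.mass b = D.mass c)
    (h : ((D.ents.flatMap (terms p s t0)).map fun x =>
        ((x.2.getD c 0 : ℤ) : ℝ) * Real.log (x.1.ev t)).sum + 2 * ((D.G.getD c 0 : ℤ) : ℝ) ≤
      ((D.ents.flatMap (terms p s t0)).map fun x =>
        ((x.2.getD b 0 : ℤ) : ℝ) * Real.log (x.1.ev t)).sum + 2 * ((D.G.getD b 0 : ℤ) : ℝ)) :
    D.W c (p.z t) ≤ D.W b (p.z t) := by
  have hL' : (0 : ℝ) < D.L := by exact_mod_cast hL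
  have h1' := bridge D p s t0 t1 hL hs hnd hok h0 h1 hd b
  have h2' := bridge D p s t0 t1 hL hs hnd hok h0 h1 hd c
  rw [hm] at h1'
  have : 2 * (D.L : ℝ) * D.W c (p.z t) ≤ 2 * (D.L : ℝ) * D.W b (p.z t) := by
    rw [h1', h2']; linarith
  exact le_of_mul_le_mul_left this (by positivity)

end Vale.Agent.P030.H462.TA
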