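import Vale.Agent.P030.H208.PotMix
import Vale.Agent.P030.H208.Closed
import Vale.Agent.P030.H462.TabA

/-!
# P030, route N: entries of a table as atoms

* `En_unique` : the energy of a mixture depends on its potential only;
* `lmax_cau`, `lmax_circ` : the entries of a table (Cauchy poles, circles) in closed form as
  potentials of atoms of H208, up to the additive constant `log N`.
-/

noncomputable section

namespace Vale.Agent.P030.H462.PK

open Vale.Agent.P030.H208 Vale.Agent.P030.H462.TA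
open MeasureTheory

/-! ### the energy is a function of the potential -/

section unique

variable {κ κ' : Type*} [Fintype κ] [Fintype κ']

theorem integral_U (m : Mix κ) (A : Atom) : ∫ x, m.U x ∂A.ν = ∑ l, m.w l * A.cr (m.A l) := by
  have h : ∀ l ∈ Finset.univ, Integrable (fun x => m.w l * (m.A l).u x) A.ν := fun l _ =>
    (A.integrable_u (m.A l)).const_mul _
  simp only [Mix.U]
  rw [integral_finsetSum _ h]
  refine Finset.sum_congr rfl fun l _ => ?_
  rw [integral_const_mul]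
  rfl

theorem En_eq_sum (m : Mix κ) : m.En = ∑ k, m.w k * ∫ x, m.U x ∂(m.A k).ν := by
  rw [Mix.En]
  refine Finset.sum_congr rfl fun k _ => ?_
  rw [integral_U, Finset.mul_sum]
  refine Finset.sum_congr rfl fun l _ => by ring

/-- **two mixtures with the same potential have the same energy** -/
theorem En_unique (m : Mix κ) (m' : Mix κ') (h : ∀ z, m.U z = m'.U z) : m.En = m'.En := by
  have hU : m.U = m'.U := funext h
  have h1 : m.En = ∑ k, ∑ l, m.w k * m'.w l * (m.A k).cr (m'.A l) := by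
    rw [En_eq_sum, hU]
    refine Finset.sum_congr rfl fun k _ => ?_
    rw [integral_U, Finset.mul_sum]
    refine Finset.sum_congr rfl fun l _ => by ring
  have h2 : m'.En = ∑ l, ∑ k, m.w k * m'.w l * (m.A k).cr (m'.A l) := by
    rw [En_eq_sum, ← hU]
    refine Finset.sum_congr rfl fun l _ => ?_
    rw [integral_U, Finset.mul_sum]
    refine Finset.sum_congr rfl fun k _ => ?_
    rw [Atom.cr_comm]
    ring
  rw [h1, h2, Finset.sum_comm]

end unique

/-! ### the forms -/

/-- the point `(X + i y) / N` -/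
def pt (N : ℕ) (X y : ℤ) : ℂ := ((X : ℂ) + (y : ℂ) * Complex.I) / (N : ℂ)

theorem pt_im (N : ℕ) (X y : ℤ) : (pt N X y).im = (y : ℝ) / N := by
  have h : pt N X y = (((X : ℝ) / N : ℝ) : ℂ) + (((y : ℝ) / N : ℝ) : ℂ) * Complex.I := by
    simp only [pt]
    push_cast
    ring
  rw [h]
  simp

theorem pt_re (N : ℕ) (X y : ℤ) : (pt N X y).re = (X : ℝ) / N := by
  have h : pt N X y = (((X : ℝ) / N : ℝ) : ℂ) + (((y : ℝ) / N : ℝ) : ℂ) * Complex.I := by
    simp only [pt]
    push_cast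
    ring
  rw [h]
  simp

theorem conj_pt (N : ℕ) (X y : ℤ) : (starRingEnd ℂ) (pt N X y) = pt N X (-y) := by
  simp only [pt, map_div₀, map_add, map_mul, Complex.conj_I, map_intCast, map_natCast]
  push_cast
  ring

theorem ev_lin {N : ℕ} (hN : 0 < N) (X y : ℤ) (z : ℂ) :
    (Lin.mk 1 N 0 (-X) (-y)).ev z = (N * ‖z - pt N X y‖) ^ 2 := by
  have hN' : (N : ℂ) ≠ 0 := Nat.cast_ne_zero.2 hN.ne'
  have e : (Lin.mk 1 N 0 (-X) (-y)).a * z + (Lin.mk 1 N 0 (-X) (-y)).b =
      (N : ℂ) * (z - pt N X y) := by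
    simp only [Lin.a, Lin.b, pt]
    push_cast
    field_simp
    ring
  rw [Lin.ev, e, norm_mul, Complex.norm_natCast]
  push_cast
  ring

theorem ev_const (r : ℤ) (z : ℂ) : (Lin.mk 1 0 0 r 0).ev z = (r : ℝ) ^ 2 := by
  simp only [Lin.ev, Lin.a, Lin.b]
  push_cast
  simp only [zero_mul, add_zero, zero_add, one_mul]
  rw [show ((r : ℤ) : ℂ) = (((r : ℤ) : ℝ) : ℂ) by push_cast; rfl, Complex.norm_real,
    Real.norm_eq_abs, sq_abs]

theorem half_log_max {a b : ℝ} (ha : 0 ≤ a) (hb : 0 ≤ b) :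
    (1 / 2) * Real.log (max (a ^ 2) (b ^ 2)) = Real.log (max a b) := by
  have h : max (a ^ 2) (b ^ 2) = (max a b) ^ 2 := by
    rcases le_total a b with h | h
    · rw [max_eq_right h, max_eq_right (pow_le_pow_left₀ ha h 2)]
    · rw [max_eq_left h, max_eq_left (pow_le_pow_left₀ hb h 2)]
  rw [h, Real.log_pow]
  push_cast
  ring

theorem ne_of_im {N : ℕ} (hN : 0 < N) {X y : ℤ} (hy : y ≠ 0) : (pt N X y).im ≠ 0 := by
  rw [pt_im]
  exact div_ne_zero (Int.cast_ne_zero.2 hy) (Nat.cast_ne_zero.2 hN.ne')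

/-- **Cauchy pole** -/
theorem lmax_cau {N : ℕ} (hN : 0 < N) {X y : ℤ} (hy : y ≠ 0) (z : ℂ) :
    lmax ⟨1, N, 0, -X, y⟩ ⟨1, N, 0, -X, -y⟩ z =
      Real.log N + (cau (pt N X y) (ne_of_im hN hy)).u z := by
  have hN' : (0 : ℝ) < N := Nat.cast_pos.2 hN
  have h1 := ev_lin hN X (-y) z
  rw [neg_neg] at h1
  have hp : 0 < max ‖z - pt N X y‖ ‖z - (starRingEnd ℂ) (pt N X y)‖ := by
    by_contra h0
    have h3 := sub_eq_zero.1 (norm_le_zero_iff.1 ((le_max_left _ _).trans (not_lt.1 h0)))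
    have h4 := sub_eq_zero.1 (norm_le_zero_iff.1 ((le_max_right _ _).trans (not_lt.1 h0)))
    rw [h3] at h4
    exact ne_of_im hN hy (Complex.conj_eq_iff_im.1 h4.symm)
  rw [lmax, h1, ev_lin hN, half_log_max (by positivity) (by positivity), cau_u, conj_pt,
    ← mul_max_of_nonneg _ _ hN'.le, max_comm, Real.log_mul hN'.ne']
  rw [conj_pt] at hp
  exact hp.ne'

/-- **circle** -/
theorem lmax_circ {N : ℕ} (hN : 0 < N) (X y : ℤ) {r : ℤ} (hr : 0 < r) (z : ℂ) :
    lmax ⟨1, N, 0, -X, -y⟩ ⟨1, 0, 0, r, 0⟩ z =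
      Real.log N + (circ (pt N X y) ((r : ℝ) / N)
        (div_pos (Int.cast_pos.2 hr) (Nat.cast_pos.2 hN))).u z := by
  have hN' : (0 : ℝ) < N := Nat.cast_pos.2 hN
  have hr' : (0 : ℝ) < r := Int.cast_pos.2 hr
  have hp : 0 < max ((r : ℝ) / N) ‖z - pt N X y‖ := lt_max_of_lt_left (by positivity)
  rw [lmax, ev_lin hN, ev_const, half_log_max (by positivity) hr'.le, circ_u]
  have e : (r : ℝ) = N * (r / N) := by field_simp
  conv_lhs => rw [e]
  rw [← mul_max_of_nonneg _ _ hN'.le, max_comm, Real.log_mul hN'.ne' hp.ne']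

end Vale.Agent.P030.H462.PK
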