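import Vale.Agent.P030.H462.MobF
import Vale.Agent.P030.H462.PotK

/-!
# P030, route N: the potentials of a certificate table

For a table `D` (with the Bool check `potOk D`) : potentials `pots D b` in the sense of H905 and
constants `gam D b` with `D.W b z = D0 * (pots D b).U z + gam D b` for all `z`.
-/

noncomputable section

namespace Vale.Agent.P030.H462.PT

open Vale.Agent.P030.H208 Vale.Agent.P030.H462.TA

/-! ### mixtures from lists -/

theorem sum_get {α : Type*} (l : List α) (f : α → ℝ) :
    ∑ k : Fin l.length, f (l.get k) = (l.map f).sum := by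
  rw [← List.sum_ofFn, ← List.ofFn_get l |> fun h => congrArg (List.map f) h, List.map_ofFn]
  rfl

/-- a mixture from a list of weighted atoms -/
def lmix (l : List (ℝ × Atom)) (h : (l.map Prod.fst).sum = 1) : Mix (Fin l.length) where
  w k := (l.get k).1
  A k := (l.get k).2
  w_sum := by rw [sum_get l Prod.fst, h]

theorem lmix_U (l : List (ℝ × Atom)) (h : (l.map Prod.fst).sum = 1) (z : ℂ) :
    (lmix l h).U z = (l.map fun p => p.1 * p.2.u z).sum := by
  simp only [Mix.U, lmix]
  exact sum_get l fun p => p.1 * p.2.u z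

/-! ### the copies of an entry -/

/-- the entry and its mirror image -/
def cps (e : Ent) : List (Lin × Lin) :=
  if e.mir then [(e.f, e.g), (e.f.cj, e.g.cj)] else [(e.f, e.g)]

/-- weighted atoms of the block `b` -/
def lst (D : Tab) (b : ℕ) : List (ℝ × Atom) :=
  D.ents.flatMap fun e => (cps e).map fun p =>
    (((e.q.getD b 0 : ℤ) : ℝ) / (D.mass b : ℝ), atm p.1 p.2)

/-- nondegenerate -/
def Ent.ok (e : Ent) : Bool := (cps e).all fun p => decide (0 < brs p.1.h p.2.h)

/-- `nrm` of the copies together: the number whose half logarithm is the normalisation -/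
def Ent.nm (e : Ent) : ℕ := ((cps e).map fun p => nrm p.1 p.2).prod

theorem map_sum_mul {α : Type*} (l : List α) (c : ℝ) (f : α → ℝ) :
    (l.map fun x => c * f x).sum = c * (l.map f).sum := by
  induction l with
  | nil => simp
  | cons a l ih => simp only [List.map_cons, List.sum_cons, ih]; ring

theorem sum_flatMap {α β : Type*} (l : List α) (f : α → List β) (g : β → ℝ) :
    ((l.flatMap f).map g).sum = (l.map fun a => ((f a).map g).sum).sum := by
  induction l with
  | nil => simp
  | cons a l ih => simp only [List.flatMap_cons, List.map_append, List.sum_append,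
      List.map_cons, List.sum_cons, ih]

theorem U_copies {e : Ent} (z : ℂ) : e.U z = ((cps e).map fun p => lmax p.1 p.2 z).sum := by
  unfold Ent.U cps
  split_ifs <;> simp

theorem mult_copies (e : Ent) : ((cps e).map fun _ => (1 : ℝ)).sum = (e.mult : ℝ) := by
  unfold Ent.mult cps
  split_ifs
  · simp only [List.map_cons, List.map_nil, List.sum_cons, List.sum_nil]; norm_num
  · simp

theorem nrm_pos {f g : Lin} (h : 0 < brs f.h g.h) : 0 < nrm f g := by
  have h1 := (dt_ne_iff f g).2 h
  by_contra h0
  have h2 : f.h.al = 0 ∧ g.h.al = 0 := by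
    simp only [nrm] at h0
    omega
  have h3 : f.sa = 0 := by
    have := norm_sa_sq f
    rw [h2.1] at this
    simpa using this
  have h4 : g.sa = 0 := by
    have := norm_sa_sq g
    rw [h2.2] at this
    simpa using this
  apply h1
  rw [dt, h3, h4]
  ring

theorem u_copies {e : Ent} (h : Ent.ok e = true) (z : ℂ) :
    ((cps e).map fun p => (atm p.1 p.2).u z).sum = e.U z - (1 / 2) * Real.log (Ent.nm e) := by
  rw [U_copies, Ent.nm]
  simp only [Ent.ok, List.all_eq_true, decide_eq_true_eq] at h
  have key : ∀ l : List (Lin × Lin), (∀ p ∈ l, 0 < brs p.1.h p.2.h) →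
      (l.map fun p => (atm p.1 p.2).u z).sum = (l.map fun p => lmax p.1 p.2 z).sum -
        (1 / 2) * Real.log (((l.map fun p => nrm p.1 p.2).prod : ℕ) : ℝ) := by
    intro l
    induction l with
    | nil => intro _; simp
    | cons p l ih =>
      intro hl
      have hp := hl p (List.mem_cons_self ..)
      have ih' := ih fun x hx => hl x (List.mem_cons_of_mem _ hx)
      have hn : 0 < (l.map fun p => nrm p.1 p.2).prod := by
        refine List.prod_pos fun n hn => ?_
        obtain ⟨x, hx, rfl⟩ := List.mem_map.1 hn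
        exact nrm_pos (hl x (List.mem_cons_of_mem _ hx))
      simp only [List.map_cons, List.sum_cons, List.prod_cons]
      rw [ih', atm_u _ _ hp, Nat.cast_mul, Real.log_mul (Nat.cast_ne_zero.2 (nrm_pos hp).ne')
        (Nat.cast_ne_zero.2 hn.ne')]
      ring
  exact key _ h

/-! ### the table -/

/-- check: nondegenerate entries, all the masses are `D0 L` -/
def potOk (D : Tab) (D0 n : ℕ) : Bool :=
  decide (0 < D.L) && decide (0 < D0) && D.ents.all Ent.ok &&
    (List.range n).all fun b => decide (D.mass b = D0 * D.L)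

theorem sum_fst (D : Tab) (b : ℕ) (hm : D.mass b ≠ 0) :
    ((lst D b).map Prod.fst).sum = 1 := by
  have hm' : (D.mass b : ℝ) ≠ 0 := Int.cast_ne_zero.2 hm
  rw [lst, sum_flatMap]
  simp only [List.map_map, Function.comp_def]
  have e1 : ∀ e : Ent, ((cps e).map fun _ => ((e.q.getD b 0 : ℤ) : ℝ) / (D.mass b : ℝ)).sum =
      (1 / (D.mass b : ℝ)) * (((e.q.getD b 0 : ℤ) : ℝ) * (e.mult : ℝ)) := by
    intro e
    rw [← mult_copies, ← map_sum_mul, ← map_sum_mul]
    congr 1
    refine List.map_congr_left fun _ _ => ?_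
    rw [mul_one, one_div, div_eq_inv_mul]
  simp only [e1]
  rw [map_sum_mul, Tab.mass]
  have e2 : (D.ents.map fun e => ((e.q.getD b 0 : ℤ) : ℝ) * (e.mult : ℝ)).sum =
      (((D.ents.map fun e => e.q.getD b 0 * e.mult).sum : ℤ) : ℝ) := by
    induction D.ents with
    | nil => simp
    | cons a l ih => simp only [List.map_cons, List.sum_cons, ih]; push_cast; ring
  rw [e2, ← Tab.mass]
  field_simp

/-- the mixture of the block `b` (anything if the mass is zero) -/
def mixT (D : Tab) (b : ℕ) : Σ n : ℕ, Mix (Fin n) :=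
  if h : D.mass b ≠ 0 then ⟨_, lmix (lst D b) (sum_fst D b h)⟩
  else ⟨1, ⟨fun _ => 1, fun _ => circ 0 1 one_pos, by simp⟩⟩

/-- **the potentials of a table** -/
def pots (D : Tab) (b : ℕ) : H905.Pot := (mixT D b).2.pot

/-- **the constants** -/
def gam (D : Tab) (b : ℕ) : ℝ :=
  ((D.ents.map fun e => ((e.q.getD b 0 : ℤ) : ℝ) * ((1 / 2) * Real.log (Ent.nm e))).sum +
    (D.G.getD b 0 : ℤ)) / D.L

theorem mixT_U (D : Tab) (b : ℕ) (hm : D.mass b ≠ 0) (hok : D.ents.all Ent.ok = true) (z : ℂ) :
    (mixT D b).2.U z = (D.ents.map fun e => ((e.q.getD b 0 : ℤ) : ℝ) *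
      (e.U z - (1 / 2) * Real.log (Ent.nm e))).sum / (D.mass b : ℝ) := by
  have hm' : (D.mass b : ℝ) ≠ 0 := Int.cast_ne_zero.2 hm
  rw [mixT, dif_pos hm]
  change (lmix (lst D b) (sum_fst D b hm)).U z = _
  rw [lmix_U, lst, sum_flatMap]
  simp only [List.map_map, Function.comp_def]
  rw [eq_div_iff hm', mul_comm, ← map_sum_mul]
  congr 1
  refine List.map_congr_left fun e he => ?_
  rw [← u_copies (List.all_eq_true.1 hok e he), ← map_sum_mul, ← map_sum_mul]
  congr 1
  refine List.map_congr_left fun p _ => ?_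
  field_simp

theorem W_mix (D : Tab) {D0 n : ℕ} (h : potOk D D0 n = true) {b : ℕ} (hb : b < n) (z : ℂ) :
    D.W b z = D0 * (pots D b).U z + gam D b := by
  simp only [potOk, Bool.and_eq_true, decide_eq_true_eq] at h
  obtain ⟨⟨⟨hL, h0⟩, hok⟩, hms⟩ := h
  have hm : D.mass b = D0 * D.L := by
    have := List.all_eq_true.1 hms b (List.mem_range.2 hb)
    simpa using this
  have hL' : (D.L : ℝ) ≠ 0 := Nat.cast_ne_zero.2 hL.ne'
  have h0' : (D0 : ℝ) ≠ 0 := Nat.cast_ne_zero.2 h0.ne'
  have hne : D.mass b ≠ 0 := by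
    rw [hm]; positivity
  rw [pots, Mix.pot_U, mixT_U D b hne hok, hm, gam, Tab.W]
  have key : ∀ l : List Ent, (l.map fun e => ((e.q.getD b 0 : ℤ) : ℝ) * e.U z).sum =
      (l.map fun e => ((e.q.getD b 0 : ℤ) : ℝ) *
        (e.U z - (1 / 2) * Real.log (Ent.nm e))).sum +
      (l.map fun e => ((e.q.getD b 0 : ℤ) : ℝ) * ((1 / 2) * Real.log (Ent.nm e))).sum := by
    intro l
    induction l with
    | nil => simp
    | cons a l ih => simp only [List.map_cons, List.sum_cons, ih]; ring
  rw [key]
  push_cast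
  rw [← mul_div_assoc, mul_div_mul_left _ _ h0', ← add_div, add_assoc]

/-- **the weight of a table is the weight of its potentials** -/
theorem W_eq (D : Tab) {D0 n : ℕ} (h : potOk D D0 n = true) (b : Fin n) (z : ℂ) :
    D.W b z = H905.WtP (fun _ => D0) (fun b : Fin n => pots D b) (fun b : Fin n => gam D b) b z := by
  rw [W_mix D h b.2 z]
  rfl

/-- **the energy of the table is the energy of any mixture with the same potential** -/
theorem En_of_U (D : Tab) (b : ℕ) {κ : Type*} [Fintype κ] (m : Mix κ)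
    (h : ∀ z, (pots D b).U z = m.U z) : (pots D b).En = m.En :=
  PK.En_unique (mixT D b).2 m h

/-! ### reality -/

/-- the entry is symmetric under conjugation -/
def Ent.sym (e : Ent) : Bool :=
  e.mir || decide (e.f.cj = e.g ∧ e.g.cj = e.f) || decide (e.f.cj = e.f ∧ e.g.cj = e.g)

theorem U_sym {e : Ent} (h : Ent.sym e = true) (z : ℂ) : e.U ((starRingEnd ℂ) z) = e.U z := by
  rcases hm : e.mir with _ | _
  · simp only [Ent.sym, hm, Bool.false_or, Bool.or_eq_true, decide_eq_true_eq] at h
    have h0 : ∀ w, e.U w = lmax e.f e.g w := fun w => by simp [Ent.U, hm]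
    rw [h0, h0, ← lmax_cj]
    rcases h with ⟨h1, h2⟩ | ⟨h1, h2⟩
    · rw [h1, h2, lmax, lmax, max_comm]
    · rw [h1, h2]
  · exact U_conj e hm z

/-- check of the symmetry of a table -/
def symOk (D : Tab) : Bool := D.ents.all Ent.sym

/-- **reality of the weights** -/
theorem W_conj (D : Tab) (h : symOk D = true) (b : ℕ) (z : ℂ) :
    D.W b ((starRingEnd ℂ) z) = D.W b z := by
  rw [Tab.W, Tab.W]
  congr 2
  congr 1
  refine List.map_congr_left fun e he => ?_
  rw [U_sym (List.all_eq_true.1 h e he)]

theorem mass_of_ok (D : Tab) {D0 n : ℕ} (h : potOk D D0 n = true) {b : ℕ} (hb : b < n) :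
    D.mass b = D0 * D.L := by
  simp only [potOk, Bool.and_eq_true] at h
  have := List.all_eq_true.1 h.2 b (List.mem_range.2 hb)
  simpa using this

theorem L_of_ok (D : Tab) {D0 n : ℕ} (h : potOk D D0 n = true) : 0 < D.L := by
  simp only [potOk, Bool.and_eq_true, decide_eq_true_eq] at h
  exact h.1.1.1

end Vale.Agent.P030.H462.PT
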