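import Vale.Agent.P030.H476.ValX
import Vale.Agent.P030.H462.PotT

/-!
# P030, route N: the certificate table and its energy

`mtch S l D.ents` : the list of H476 and the table of H462 describe the same atoms.  Then the
measures `lvM S l h b` of H476 have the weights of the table (`W_val`), and the energy check of
H476 bounds `E0P` from below (`E0_ge`).
-/

noncomputable section

namespace Vale.Agent.P030.H462.LK

open Vale.Agent.P030.H208 Vale.Agent.P030.H462.TA Vale.Agent.P030.H476 Vale.Agent.P030.H476.VE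

/-- the two descriptions of an entry agree -/
def mt1 (S : SE) (a : EA) (e : Ent) : Bool :=
  decide (e.f = ⟨1, S.N, 0, (S.X : ℤ) - a.x, if a.kd = 0 then (a.y : ℤ) else -(a.y : ℤ)⟩) &&
  decide (e.g = if a.kd = 0 then ⟨1, S.N, 0, (S.X : ℤ) - a.x, -(a.y : ℤ)⟩ else ⟨1, 0, 0, a.r, 0⟩) &&
  decide (e.mir = decide (a.kd = 1)) &&
  decide (e.q.getD 0 0 = (a.u0 : ℤ) - S.O ∧ e.q.getD 1 0 = (a.u1 : ℤ) - S.O ∧
    e.q.getD 2 0 = (a.u2 : ℤ) - S.O ∧ e.q.getD 3 0 = (a.u3 : ℤ) - S.O ∧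
    e.q.getD 4 0 = (a.u4 : ℤ) - S.O ∧ e.q.getD 5 0 = (a.u5 : ℤ) - S.O ∧
    e.q.getD 6 0 = (a.u6 : ℤ) - S.O ∧ e.q.getD 7 0 = (a.u7 : ℤ) - S.O)

/-- the two descriptions of a table agree -/
def mtch (S : SE) : List EA → List Ent → Bool
  | [], [] => true
  | a :: l, e :: l' => mt1 S a e && mtch S l l'
  | _, _ => false

variable {S : SE}

theorem q_of {a : EA} {e : Ent} (h : mt1 S a e = true) (i : Fin 8) :
    ((e.q.getD i 0 : ℤ) : ℝ) = a.q S.O i := by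
  simp only [mt1, Bool.and_eq_true, decide_eq_true_eq] at h
  obtain ⟨-, h0, h1, h2, h3, h4, h5, h6, h7⟩ := h
  rw [EA.q, EA.u]
  fin_cases i
  · change ((e.q.getD 0 0 : ℤ) : ℝ) = (a.u0 : ℝ) - S.O
    rw [h0]; push_cast; rfl
  · change ((e.q.getD 1 0 : ℤ) : ℝ) = (a.u1 : ℝ) - S.O
    rw [h1]; push_cast; rfl
  · change ((e.q.getD 2 0 : ℤ) : ℝ) = (a.u2 : ℝ) - S.O
    rw [h2]; push_cast; rfl
  · change ((e.q.getD 3 0 : ℤ) : ℝ) = (a.u3 : ℝ) - S.O
    rw [h3]; push_cast; rfl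
  · change ((e.q.getD 4 0 : ℤ) : ℝ) = (a.u4 : ℝ) - S.O
    rw [h4]; push_cast; rfl
  · change ((e.q.getD 5 0 : ℤ) : ℝ) = (a.u5 : ℝ) - S.O
    rw [h5]; push_cast; rfl
  · change ((e.q.getD 6 0 : ℤ) : ℝ) = (a.u6 : ℝ) - S.O
    rw [h6]; push_cast; rfl
  · change ((e.q.getD 7 0 : ℤ) : ℝ) = (a.u7 : ℝ) - S.O
    rw [h7]; push_cast; rfl

theorem z_eq (a : EA) : a.z S = PK.pt S.N ((a.x : ℤ) - S.X) a.y := by
  apply Complex.ext
  · rw [PK.pt_re]
    simp only [EA.z]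
    push_cast
    rfl
  · rw [PK.pt_im]
    simp only [EA.z]
    push_cast
    rfl

theorem cj_circ (N : ℕ) (X y r : ℤ) (z : ℂ) :
    lmax (Lin.cj ⟨1, N, 0, X, -y⟩) (Lin.cj ⟨1, 0, 0, r, 0⟩) z =
      lmax ⟨1, N, 0, X, -(-y)⟩ ⟨1, 0, 0, r, 0⟩ z := by
  simp [Lin.cj]

theorem U_of (hN : 0 < S.N) {a : EA} (hok : a.ok = true) {e : Ent} (h : mt1 S a e = true)
    (z : ℂ) : e.U z = a.pot S z + a.mt * Real.log S.N := by
  simp only [mt1, Bool.and_eq_true, decide_eq_true_eq] at h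
  obtain ⟨⟨⟨hf, hg⟩, hm⟩, -⟩ := h
  have hX : (S.X : ℤ) - a.x = -((a.x : ℤ) - S.X) := by ring
  by_cases h0 : a.kd = 0
  · have hm' : e.mir = false := by rw [hm, h0]; rfl
    rw [if_pos h0, hX] at hf hg
    have hy : (a.y : ℤ) ≠ 0 := by
      rcases ok_cases hok with h' | h' | h'
      · exact Int.natCast_ne_zero.2 h'.2.ne'
      · exact absurd (h0 ▸ h'.1) (by norm_num)
      · exact absurd h0 h'.1
    have hU : e.U z = lmax e.f e.g z := by simp [Ent.U, hm']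
    rw [hU, hf, hg, PK.lmax_cau hN hy, cau_u, pot_K hN h0 hok, z_eq, EA.mt,
      if_neg (by rw [h0]; norm_num)]
    ring
  · rw [if_neg h0, hX] at hf
    rw [if_neg h0] at hg
    have hr : (0 : ℤ) < a.r := by
      rcases ok_cases hok with h' | h' | h'
      · exact absurd h'.1 h0
      · exact_mod_cast h'.2.1
      · exact_mod_cast h'.2.2.1
    have hρ : a.ρ S = ((a.r : ℤ) : ℝ) / S.N := by
      rw [EA.ρ]; push_cast; rfl
    by_cases h1 : a.kd = 1
    · have hm' : e.mir = true := by rw [hm, h1]; rfl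
      have hU : e.U z = lmax e.f e.g z + lmax e.f.cj e.g.cj z := by simp [Ent.U, hm']
      rw [hU, hf, hg, cj_circ, PK.lmax_circ hN _ _ hr, PK.lmax_circ hN _ _ hr, circ_u, circ_u,
        pot_C hN h1 hok, z_eq, EA.mt, if_pos h1, PK.conj_pt, hρ]
      ring
    · have hm' : e.mir = false := by rw [hm]; exact decide_eq_false h1
      have hU : e.U z = lmax e.f e.g z := by simp [Ent.U, hm']
      rw [hU, hf, hg, PK.lmax_circ hN _ _ hr, circ_u, pot_Z hN h0 h1 hok, z_eq, EA.mt, if_neg h1,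
        hρ]
      ring

theorem sums_eq (hN : 0 < S.N) (i : Fin 8) (z : ℂ) : ∀ (l : List EA) (l' : List Ent),
    (∀ a ∈ l, a.ok = true) → mtch S l l' = true →
    (l'.map fun e => ((e.q.getD i 0 : ℤ) : ℝ) * e.U z).sum =
      (l.map fun a => a.q S.O i * a.pot S z).sum +
        Real.log S.N * (l.map fun a => a.q S.O i * a.mt).sum
  | [], [], _, _ => by simp
  | [], _ :: _, _, h => by simp [mtch] at h
  | _ :: _, [], _, h => by simp [mtch] at h
  | a :: l, e :: l', hok, h => by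
    rw [mtch, Bool.and_eq_true] at h
    have ih := sums_eq hN i z l l' (fun x hx => hok x (List.mem_cons_of_mem _ hx)) h.2
    simp only [List.map_cons, List.sum_cons]
    rw [ih, q_of h.1 i, U_of hN (hok a (List.mem_cons_self ..)) h.1]
    ring

/-- the constants -/
def gaV (S : SE) (D : Tab) (D0 : ℕ) (b : Fin 8) : ℝ :=
  D0 * Real.log S.N + ((D.G.getD b 0 : ℤ) : ℝ) / D.L

/-- the potentials -/
def muV (S : SE) (l : List EA) (h : okE S l = true) (b : Fin 8) : H905.Pot := (lvM S l h b).pot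

variable {l : List EA} {D : Tab} {D0 : ℕ}

/-- **the weights** -/
theorem W_val (h : okE S l = true) (hm : mtch S l D.ents = true) (hL : 0 < D.L) (h0 : 0 < D0)
    (hS : S.L = D0 * D.L) (b : Fin 8) (z : ℂ) :
    H905.WtP (fun _ => D0) (muV S l h) (gaV S D D0) b z = D.W b z := by
  have hL' : (D.L : ℝ) ≠ 0 := Nat.cast_ne_zero.2 hL.ne'
  have h0' : (D0 : ℝ) ≠ 0 := Nat.cast_ne_zero.2 h0.ne'
  change (D0 : ℝ) * (lvM S l h b).U z + gaV S D D0 b = D.W b z
  rw [lvM_U, Tab.W, sums_eq (okE_N h) b z l D.ents (okE_ok h) hm, sum_charge h, gaV, hS]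
  push_cast
  field_simp
  ring

/-- total masses of the table -/
theorem mass_val (h : okE S l = true) (hm : mtch S l D.ents = true) (hS : S.L = D0 * D.L)
    (b : Fin 8) : D.mass b = D0 * D.L := by
  have key : ∀ (l : List EA) (l' : List Ent), mtch S l l' = true →
      (((l'.map fun e => e.q.getD b 0 * e.mult).sum : ℤ) : ℝ) =
        (l.map fun a => a.q S.O b * a.mt).sum := by
    intro l
    induction l with
    | nil =>
      intro l' h'
      cases l' with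
      | nil => simp
      | cons _ _ => simp [mtch] at h'
    | cons a l ih =>
      intro l' h'
      cases l' with
      | nil => simp [mtch] at h'
      | cons e l' =>
        rw [mtch, Bool.and_eq_true] at h'
        have h2 := ih l' h'.2
        have h3 := q_of h'.1 b
        have h4 : ((e.mult : ℤ) : ℝ) = a.mt := by
          have h5 := h'.1
          simp only [mt1, Bool.and_eq_true, decide_eq_true_eq] at h5
          have h6 := h5.1.2
          rw [Ent.mult, EA.mt, h6]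
          by_cases h1 : a.kd = 1
          · simp [h1]
          · simp [h1]
        simp only [List.map_cons, List.sum_cons]
        push_cast at h2 ⊢
        rw [h2, h3, ← h4]
  have h1 := key l D.ents hm
  rw [sum_charge h, hS] at h1
  have h2 : ((D.mass b : ℤ) : ℝ) = (((D0 * D.L : ℕ) : ℤ) : ℝ) := by
    rw [Tab.mass, h1]
    push_cast
    rfl
  have h3 := Int.cast_injective h2
  rw [h3]
  push_cast
  rfl

/-- sum of the constants of the eight levels -/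
def sG (D : Tab) : ℤ :=
  D.G.getD 0 0 + D.G.getD 1 0 + D.G.getD 2 0 + D.G.getD 3 0 + D.G.getD 4 0 + D.G.getD 5 0 +
    D.G.getD 6 0 + D.G.getD 7 0

/-- the final integer check -/
def enOk (S : SE) (D : Tab) (D0 P Q : ℕ) (e : ℤ) : Bool :=
  decide (4 * e * (D.L : ℤ) ^ 2 ≤ 2 ^ 42 * D0 * sG D * D.L + ((P : ℤ) - Q) +
    16 * (D0 : ℤ) ^ 2 * (qlo S.N : ℤ) * (D.L : ℤ) ^ 2)

/-- **the energy of the certificate** -/
theorem E0_ge (h : okE S l = true) (hL : 0 < D.L) (h0 : 0 < D0) (hS : S.L = D0 * D.L)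
    {P Q n : ℕ} (hs : Seg S l n P Q) (hn : l.length ≤ n) {e : ℤ} (he : enOk S D D0 P Q e = true) :
    (e : ℝ) / 2 ^ 40 ≤ H905.E0P (fun _ => D0) (muV S l h) (gaV S D D0) := by
  have hL' : (0 : ℝ) < D.L := Nat.cast_pos.2 hL
  have h0' : (0 : ℝ) < D0 := Nat.cast_pos.2 h0
  have h1 := sum_En_ge h hs hn
  have h2 := of_decide_eq_true he
  have h3 : (4 : ℝ) * e * (D.L : ℝ) ^ 2 ≤ 2 ^ 42 * D0 * (sG D : ℤ) * D.L + ((P : ℝ) - Q) +
      16 * (D0 : ℝ) ^ 2 * (qlo S.N : ℝ) * (D.L : ℝ) ^ 2 := by exact_mod_cast h2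
  have h4 := qlo_le S.N
  have hE : H905.E0P (fun _ => D0) (muV S l h) (gaV S D D0) =
      (D0 : ℝ) * (8 * (D0 * Real.log S.N)) + D0 * (sG D : ℤ) / D.L +
        (D0 : ℝ) ^ 2 / 2 * ∑ i, (lvM S l h i).En := by
    have : ∀ b : Fin 8, (muV S l h b).En = (lvM S l h b).En := fun _ => rfl
    simp only [H905.E0P, this, gaV, sG, Fin.sum_univ_eight]
    simp only [Fin.val_zero, Fin.val_one, Fin.val_two]
    push_cast
    ring_nf
    rfl
  rw [hE]
  rw [hS] at h1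
  push_cast at h1
  have h5 : (D0 : ℝ) ^ 2 / 2 * (((P : ℝ) - Q) / (2 ^ 41 * ((D0 : ℝ) * D.L) ^ 2) -
      8 * Real.log S.N) ≤ (D0 : ℝ) ^ 2 / 2 * ∑ i, (lvM S l h i).En :=
    mul_le_mul_of_nonneg_left h1 (by positivity)
  have h6 : (D0 : ℝ) ^ 2 / 2 * (((P : ℝ) - Q) / (2 ^ 41 * ((D0 : ℝ) * D.L) ^ 2) -
      8 * Real.log S.N) = ((P : ℝ) - Q) / (2 ^ 42 * (D.L : ℝ) ^ 2) -
        4 * (D0 : ℝ) ^ 2 * Real.log S.N := by
    field_simp
    ring
  rw [h6] at h5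
  have h7 : (e : ℝ) / 2 ^ 40 ≤ D0 * (sG D : ℤ) / D.L + ((P : ℝ) - Q) / (2 ^ 42 * (D.L : ℝ) ^ 2) +
      4 * (D0 : ℝ) ^ 2 * ((qlo S.N : ℝ) / 2 ^ 40) := by
    have e1 : (e : ℝ) / 2 ^ 40 = 4 * e * (D.L : ℝ) ^ 2 / (2 ^ 42 * (D.L : ℝ) ^ 2) := by
      field_simp
      norm_num
    have e2 : (D0 : ℝ) * (sG D : ℤ) / D.L + ((P : ℝ) - Q) / (2 ^ 42 * (D.L : ℝ) ^ 2) +
        4 * (D0 : ℝ) ^ 2 * ((qlo S.N : ℝ) / 2 ^ 40) =
        (2 ^ 42 * D0 * (sG D : ℤ) * D.L + ((P : ℝ) - Q) +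
          16 * (D0 : ℝ) ^ 2 * (qlo S.N : ℝ) * (D.L : ℝ) ^ 2) / (2 ^ 42 * (D.L : ℝ) ^ 2) := by
      field_simp
      norm_num
      ring
    rw [e1, e2]
    exact div_le_div_of_nonneg_right h3 (by positivity)
  have h8 : (qlo S.N : ℝ) / 2 ^ 40 ≤ Real.log S.N := by
    rw [div_le_iff₀ (by positivity)]
    linarith
  have h9 : 4 * (D0 : ℝ) ^ 2 * ((qlo S.N : ℝ) / 2 ^ 40) ≤ 4 * (D0 : ℝ) ^ 2 * Real.log S.N :=
    mul_le_mul_of_nonneg_left h8 (by positivity)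
  have h10 : (D0 : ℝ) * (8 * (D0 * Real.log S.N)) = 8 * (D0 : ℝ) ^ 2 * Real.log S.N := by ring
  rw [h10]
  linarith

end Vale.Agent.P030.H462.LK
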