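import Vale.Agent.P030.H462.Ev
import Vale.Agent.P030.H605.Ser

/-!
# P030: the series of `T/Defs.lean` as holomorphic functions on the unit disc
-/

open PowerSeries Finset

namespace Vale.Agent.P030.H462

open Vale.Agent.P030.T

/-- evaluation of rational series -/
noncomputable abbrev evQ (f : ℚ⟦X⟧) (z : ℂ) : ℂ := ev (algebraMap ℚ ℂ) f z

/-- polynomial growth of rational series -/
abbrev PQ (f : ℚ⟦X⟧) : Prop := PG (algebraMap ℚ ℂ) f

theorem norm_algQ (q : ℚ) : ‖algebraMap ℚ ℂ q‖ = |(q : ℝ)| := by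
  rw [eq_ratCast, ← Complex.ofReal_ratCast, Complex.norm_real, Real.norm_eq_abs]

theorem pq_of_le {f : ℚ⟦X⟧} (C : ℝ) (k : ℕ) (h : ∀ n, |((coeff n f : ℚ) : ℝ)| ≤ C * ((n : ℝ) + 1) ^ k) :
    PQ f := PG.of_le C k fun n => by rw [norm_algQ]; exact h n

theorem pq_of_le_one {f : ℚ⟦X⟧} (h : ∀ n, |coeff n f| ≤ 1) : PQ f := by
  refine pq_of_le 1 0 fun n => ?_
  rw [pow_zero, mul_one, ← Rat.cast_abs]
  exact_mod_cast h n

theorem pq_sc {f : ℚ⟦X⟧} (hf : PQ f) (q : ℚ) : PQ (sc q f) := (PG.const q).mul hf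

theorem pq_th {f : ℚ⟦X⟧} (hf : PQ f) : PQ (th f) := by
  rw [H605.th_eq]; exact PG.varX.mul hf.deriv

theorem pq_dd {f : ℚ⟦X⟧} (hf : PQ f) : PQ (dd f) := by
  rw [H605.dd_eq]; exact hf.deriv

theorem pq_integ {f : ℚ⟦X⟧} (hf : PQ f) : PQ (integ f) := by
  refine PG.of_deriv ?_
  rw [H605.D_integ]; exact hf

theorem pq_tw {f : ℚ⟦X⟧} (hf : PQ f) : PQ (tw f) :=
  pq_sc ((PG.one.add PG.varX).mul (pq_dd ((PG.one.sub PG.varX).mul hf))) _

theorem pq_geo : PQ geo := pq_of_le_one fun n => by simp [geo]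

theorem pq_geoa : PQ geoa := pq_of_le_one fun n => by simp [geoa, abs_pow]

theorem pq_geo2 : PQ geo2 := pq_of_le_one fun n => by
  simp only [geo2, coeff_mk]; split_ifs <;> simp

theorem one_div_le_one' {n : ℕ} (hn : n ≠ 0) : (1 : ℚ) / n ≤ 1 := by
  have h1 : (1 : ℚ) ≤ n := by exact_mod_cast Nat.one_le_iff_ne_zero.2 hn
  rw [div_le_one (by linarith)]
  exact h1

theorem pq_lgm : PQ lgm := pq_of_le_one fun n => by
  simp only [lgm, coeff_mk]
  split_ifs with h
  · simp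
  · rw [abs_of_nonneg (by positivity)]
    exact one_div_le_one' h

theorem pq_lgp : PQ lgp := pq_of_le_one fun n => by
  simp only [lgp, coeff_mk]
  split_ifs with h
  · simp
  · rw [abs_div, abs_pow, abs_neg, abs_one, one_pow, abs_of_nonneg (Nat.cast_nonneg n)]
    exact one_div_le_one' h

theorem pq_li2 : PQ li2 := pq_of_le_one fun n => by
  simp only [li2, coeff_mk]
  split_ifs with h
  · simp
  · rw [abs_of_nonneg (by positivity), one_div, ← inv_pow, ← one_div]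
    exact pow_le_one₀ (by positivity) (one_div_le_one' h)

theorem abs_serK_le (n : ℕ) : |coeff n serK| ≤ 1 := by
  simp only [serK, coeff_mk]
  split_ifs with h
  · obtain ⟨m, rfl⟩ := h
    have e2 : (m + m) / 2 = m := by omega
    rw [e2, abs_of_nonneg (by positivity), div_le_one (by positivity)]
    have h1 : (Nat.centralBinom m : ℚ) ≤ 4 ^ m := by
      have h2 : Nat.centralBinom m ≤ 2 ^ (2 * m) := by
        rw [Nat.centralBinom_eq_two_mul_choose, ← Nat.sum_range_choose (2 * m)]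
        exact Finset.single_le_sum (f := fun i => (2 * m).choose i) (fun _ _ => Nat.zero_le _)
          (Finset.mem_range.2 (by omega))
      have h3 : (2 : ℕ) ^ (2 * m) = 4 ^ m := by rw [pow_mul]; norm_num
      rw [h3] at h2
      exact_mod_cast h2
    calc (Nat.centralBinom m : ℚ) ^ 2 ≤ (4 ^ m) ^ 2 := pow_le_pow_left₀ (by positivity) h1 2
      _ = 4 ^ (m + m) := by rw [← pow_mul]; ring_nf
  · simp

theorem pq_serK : PQ serK := pq_of_le_one abs_serK_le

theorem abs_cB_le : ∀ n, |cB n| ≤ 1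
  | 0 => by simp [cB]
  | 1 => by simp [cB]; norm_num
  | n + 2 => by
    have ih := abs_le.1 (abs_cB_le n)
    have hn : (0 : ℚ) ≤ n := Nat.cast_nonneg n
    rw [cB, abs_le]
    constructor
    · rw [le_div_iff₀ (by positivity)]
      nlinarith [ih.1, ih.2, mul_le_mul_of_nonneg_left ih.1 (by positivity : (0 : ℚ) ≤ (n + 1) ^ 2)]
    · rw [div_le_iff₀ (by positivity)]
      nlinarith [ih.1, ih.2, mul_le_mul_of_nonneg_left ih.2 (by positivity : (0 : ℚ) ≤ (n + 1) ^ 2)]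

theorem abs_cB2_le : ∀ n, |cB2 n| ≤ 1
  | 0 => by simp [cB2]
  | 1 => by simp [cB2]; norm_num
  | n + 2 => by
    have ih := abs_le.1 (abs_cB2_le n)
    have hn : (0 : ℚ) ≤ n := Nat.cast_nonneg n
    rw [cB2, abs_le]
    constructor
    · rw [le_div_iff₀ (by positivity)]
      nlinarith [ih.1, ih.2, mul_le_mul_of_nonneg_left ih.1 (by positivity : (0 : ℚ) ≤ (n + 1) ^ 2)]
    · rw [div_le_iff₀ (by positivity)]
      nlinarith [ih.1, ih.2, mul_le_mul_of_nonneg_left ih.2 (by positivity : (0 : ℚ) ≤ (n + 1) ^ 2)]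

theorem pq_serB : PQ serB := pq_of_le_one fun n => by rw [serB, coeff_mk]; exact abs_cB_le n

theorem pq_serB2 : PQ serB2 := pq_of_le_one fun n => by rw [serB2, coeff_mk]; exact abs_cB2_le n

theorem abs_cMs_le (n : ℕ) : |cMs n| ≤ 2 * ((n : ℚ) + 1) := by
  unfold cMs
  refine (Finset.abs_sum_le_sum_abs _ _).trans ?_
  have h1 : ∀ j ∈ Finset.range (n / 2), |(2 : ℚ) / (2 * (j : ℚ) + 1) - 2 / (2 * (j : ℚ) + 2)| ≤ 2 := by
    intro j _
    have hj : (0 : ℚ) ≤ j := Nat.cast_nonneg j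
    have h2 : (2 : ℚ) / (2 * (j : ℚ) + 1) ≤ 2 := by
      rw [div_le_iff₀ (by positivity)]; nlinarith
    have h3 : (2 : ℚ) / (2 * (j : ℚ) + 2) ≤ 2 := by
      rw [div_le_iff₀ (by positivity)]; nlinarith
    have h4 : (0 : ℚ) ≤ 2 / (2 * (j : ℚ) + 1) := by positivity
    have h5 : (0 : ℚ) ≤ 2 / (2 * (j : ℚ) + 2) := by positivity
    rw [abs_le]
    constructor <;> linarith
  refine (Finset.sum_le_card_nsmul _ _ _ h1).trans ?_
  rw [Finset.card_range, nsmul_eq_mul]
  have h2 : ((n / 2 : ℕ) : ℚ) ≤ n := by exact_mod_cast Nat.div_le_self n 2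
  nlinarith

theorem pq_serM : PQ serM := by
  refine pq_of_le 2 1 fun n => ?_
  rw [serM, coeff_mk]
  have h1 : |coeff n serK * cMs n| ≤ 2 * ((n : ℚ) + 1) := by
    rw [abs_mul]
    calc |coeff n serK| * |cMs n| ≤ 1 * (2 * ((n : ℚ) + 1)) :=
          mul_le_mul (abs_serK_le n) (abs_cMs_le n) (abs_nonneg _) zero_le_one
      _ = 2 * ((n : ℚ) + 1) := one_mul _
  have h2 : ((|coeff n serK * cMs n| : ℚ) : ℝ) ≤ ((2 * ((n : ℚ) + 1) : ℚ) : ℝ) :=
    Rat.cast_le.2 h1
  rw [Rat.cast_abs] at h2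
  refine h2.trans (le_of_eq ?_)
  push_cast
  ring

/-! ### closed forms -/

theorem evQ_lgm {z : ℂ} (hz : ‖z‖ < 1) : evQ lgm z = -Complex.log (1 - z) := by
  rw [← (Complex.hasSum_taylorSeries_neg_log hz).tsum_eq]
  refine tsum_congr fun n => ?_
  simp only [lgm, coeff_mk]
  split_ifs with h
  · subst h; simp
  · simp [div_eq_mul_inv, mul_comm]

theorem evQ_geo {z : ℂ} (hz : ‖z‖ < 1) : evQ geo z = 1 / (1 - z) := by
  have h1 := ev_mul (φ := algebraMap ℚ ℂ) (PG.one.sub PG.varX) pq_geo hz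
  rw [H605.geo_mul, ev_one, ev_sub PG.one PG.varX hz, ev_one, ev_X] at h1
  have h2 : (1 - z) ≠ 0 := by
    intro h
    have : z = 1 := by linear_combination -h
    rw [this, norm_one] at hz
    exact lt_irrefl _ hz
  rw [eq_div_iff h2, mul_comm]
  exact h1.symm

theorem evQ_geoa {z : ℂ} (hz : ‖z‖ < 1) : evQ geoa z = 1 / (1 + z) := by
  have h1 := ev_mul (φ := algebraMap ℚ ℂ) (PG.one.add PG.varX) pq_geoa hz
  rw [H605.geoa_mul, ev_one, ev_add PG.one PG.varX hz, ev_one, ev_X] at h1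
  have h2 : (1 + z) ≠ 0 := by
    intro h
    have : z = -1 := by linear_combination h
    rw [this, norm_neg, norm_one] at hz
    exact lt_irrefl _ hz
  rw [eq_div_iff h2, mul_comm]
  exact h1.symm

theorem evQ_lgp {z : ℂ} (hz : ‖z‖ < 1) : evQ lgp z = Complex.log (1 + z) := by
  have h1 : evQ lgp z = -evQ lgm (-z) := by
    unfold evQ ev
    rw [← tsum_neg]
    refine tsum_congr fun n => ?_
    simp only [lgm, lgp, coeff_mk]
    split_ifs with h
    · simp
    · simp only [eq_ratCast]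
      push_cast
      rw [neg_pow z]
      ring
  rw [h1, evQ_lgm (by rwa [norm_neg]), neg_neg, sub_neg_eq_add]

end Vale.Agent.P030.H462
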