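import Vale.Agent.P030.H462.FhC2

/-!
# P030: the main branch at `c3`

Conditional on the real asymptotic `DblAsym` (proved in H639):
`t = (u-1)/(u+1)`, `-t` in the slit plane, `‖t‖ < 1`, `T = log(-t) - 2 log 2` :
`F̂(u) = ((1-t)/2) (-(1/8) (K T² + 2 M T + R)(t) - (π²/48) K(t))`.
-/

open MeasureTheory Set Metric Filter Topology PowerSeries

namespace Vale.Agent.P030.H462

open Vale.Agent.P030.T

/-- the real asymptotic used at `c3` -/
def DblAsym : Prop :=
  Tendsto (fun a : ℝ => (∫ x, (a + ss x)⁻¹ ∂mu2) - (1 / 2) * (Real.log a - 2 * Real.log 2) ^ 2)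
    (𝓝[>] 0) (𝓝 (Real.pi ^ 2 / 12))

/-- `G(t) = Ft(1/t)/t` at `t = -a` -/
noncomputable def gg (a : ℂ) : ℂ := Ft (-a)⁻¹ / (-a)

theorem mem_cut1_of_re {w : ℂ} (h : w.re ≤ 0) : w ∈ cut1 := by
  intro s hs hcon
  have h1 := congrArg Complex.re hcon
  simp at h1
  nlinarith [hs.1]

theorem exists_sol_gg : ∃ h1 h2 : ℂ → ℂ, Sol (hdisc 1) (fun a => 1 / 4 * a⁻¹) gg h1 h2 := by
  have s3 := (sol_Ft.comp_inv.comp_neg).mono (Ω' := hdisc 1) (by
    intro a ha
    have ha0 : a ≠ 0 := hdisc_ne ha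
    have hre2 : ((-a)⁻¹).re ≤ 0 := by
      rw [Complex.inv_re, Complex.neg_re]
      exact div_nonpos_of_nonpos_of_nonneg (by linarith [ha.2]) (Complex.normSq_nonneg _)
    exact ⟨neg_ne_zero.2 ha0, mem_cut1_of_re hre2⟩)
  refine ⟨_, _, s3.congr_rhs fun a ha => ?_⟩
  have ha0 : a ≠ 0 := hdisc_ne ha
  field_simp

theorem gg_real {a : ℝ} (h0 : 0 < a) :
    gg a = ((1 / 4 * ∫ x, (a + ss x)⁻¹ ∂mu2 : ℝ) : ℂ) := by
  have hac : (a : ℂ) ≠ 0 := by exact_mod_cast h0.ne'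
  have e2 : (-(a : ℂ))⁻¹ = ((-(1 / a) : ℝ) : ℂ) := by
    push_cast
    rw [inv_neg, one_div]
  rw [gg, e2, Ft_real h0]
  simp only [one_mul]
  push_cast
  field_simp

/-- a series vanishing at the origin times a squared logarithm tends to zero -/
theorem tendsto_sub_mul_log_sq {s : ℚ⟦X⟧} (hs : PQ s) :
    Tendsto (fun x : ℝ => (evQ s x - evQ s 0) * (Real.log x : ℂ) ^ 2) (𝓝[>] 0) (𝓝 0) := by
  have hd := hd_e0 hs (z := 0) (by simp)
  have h1 : (fun h : ℂ => evQ s h - evQ s 0) =O[𝓝 0] fun h => h := by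
    have := hd.isBigO_sub
    simpa using this
  have h2 : Tendsto (fun x : ℝ => (x : ℂ)) (𝓝[>] 0) (𝓝 0) := by
    have : Tendsto (fun x : ℝ => (x : ℂ)) (𝓝 0) (𝓝 ((0 : ℝ) : ℂ)) :=
      Complex.continuous_ofReal.tendsto 0
    rw [Complex.ofReal_zero] at this
    exact this.mono_left nhdsWithin_le_nhds
  have h3 := h1.comp_tendsto h2
  have h4 : (fun x : ℝ => (evQ s x - evQ s 0) * (Real.log x : ℂ) ^ 2) =O[𝓝[>] 0]
      fun x : ℝ => (x : ℂ) * (Real.log x : ℂ) ^ 2 := h3.mul (Asymptotics.isBigO_refl _ _)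
  refine h4.trans_tendsto ?_
  have h5 : Tendsto (fun x : ℝ => (Real.log x * x ^ (1 / 2 : ℝ)) ^ 2) (𝓝[>] 0) (𝓝 (0 ^ 2)) :=
    (tendsto_log_mul_rpow_nhdsGT_zero (by norm_num : (0 : ℝ) < 1 / 2)).pow 2
  have h6 := (Complex.continuous_ofReal.tendsto _).comp h5
  norm_num at h6
  refine h6.congr' ?_
  filter_upwards [self_mem_nhdsWithin] with x hx
  have hx0 : (0 : ℝ) < x := hx
  simp only [Function.comp_apply]
  have e : (x ^ (1 / 2 : ℝ)) ^ 2 = x := by
    rw [← Real.rpow_natCast, ← Real.rpow_mul hx0.le]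
    norm_num
  have e' : (Real.log x * x ^ (1 / 2 : ℝ)) ^ 2 = Real.log x ^ 2 * x := by rw [mul_pow, e]
  rw [e']
  push_cast
  ring

theorem gg_eq (H : DblAsym) {a : ℂ} (ha : a ∈ hdisc 1) :
    gg a = 1 / 8 * (evQ serK a * (Complex.log a - 2 * ll) ^ 2
      + 2 * evQ serM a * (Complex.log a - 2 * ll) + evQ serR a)
      + (Real.pi : ℂ) ^ 2 / 48 * evQ serK a := by
  obtain ⟨h1, h2, hs⟩ := exists_sol_gg
  have sR := sol_R (Ω := hdisc 1) (lg := fun a => Complex.log a - 2 * ll) hdisc_sub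
    (fun _ hz => hdisc_ne hz) (fun z hz => by
      have := (Complex.hasDerivAt_log (hdisc_slit hz)).sub_const (2 * ll)
      exact this)
  have s1 := hs.sub ((sR.smul (1 / 8)).add ((sol_K.mono hdisc_sub).smul ((Real.pi : ℂ) ^ 2 / 48)))
  have s2 := s1.congr_rhs (σ := fun _ => 0) (fun z _ => by ring)
  have key := sol_zero s2 ?_ a ha
  · linear_combination key
  · have hK := tendsto_evQ_real pq_serK
    have hM := tendsto_evQ_real pq_serM
    have hR := tendsto_evQ_real pq_serR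
    rw [evQ_serK_zero] at hK
    rw [evQ_serM_zero] at hM
    rw [evQ_serR_zero] at hR
    have k1 := tendsto_sub_mul_log pq_serK
    have k2 := tendsto_sub_mul_log_sq pq_serK
    have m1 := tendsto_sub_mul_log pq_serM
    rw [evQ_serK_zero] at k1 k2
    rw [evQ_serM_zero] at m1
    have hA := (Complex.continuous_ofReal.tendsto _).comp H
    have t := (((((((hA.const_mul (1 / 4 : ℂ)).sub (k2.const_mul (1 / 8 : ℂ))).add
      (k1.const_mul (1 / 2 * ll))).sub ((hK.sub_const 1).const_mul (1 / 2 * ll ^ 2))).sub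
      (m1.const_mul (1 / 4 : ℂ))).add (hM.const_mul (1 / 2 * ll))).sub
      (hR.const_mul (1 / 8 : ℂ))).sub (hK.const_mul ((Real.pi : ℂ) ^ 2 / 48))
    have e0 : (1 / 4 : ℂ) * ((Real.pi ^ 2 / 12 : ℝ) : ℂ) - 1 / 8 * 0 + 1 / 2 * ll * 0
        - 1 / 2 * ll ^ 2 * (1 - 1) - 1 / 4 * 0 + 1 / 2 * ll * 0 - 1 / 8 * 0
        - (Real.pi : ℂ) ^ 2 / 48 * 1 = 0 := by
      push_cast; ring
    rw [e0] at t
    refine t.congr' ?_
    filter_upwards [self_mem_nhdsWithin] with x hx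
    have hx0 : (0 : ℝ) < x := hx
    simp only [Function.comp_apply]
    rw [gg_real hx0, ← Complex.ofReal_log hx0.le]
    have hl : (ll : ℂ) = ((Real.log 2 : ℝ) : ℂ) := rfl
    rw [hl]
    push_cast
    ring

theorem inv_mem_cut1 {t : ℂ} (ht : -t ∈ Complex.slitPlane) : t⁻¹ ∈ cut1 := by
  intro s hs hcon
  have h0 : t ≠ 0 := by
    rintro rfl
    rw [neg_zero] at ht
    exact Complex.slitPlane_ne_zero ht rfl
  have h1 : t = s := by
    field_simp at hcon
    linear_combination hcon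
  rw [h1, Complex.mem_slitPlane_iff] at ht
  rcases ht with h | h
  · rw [Complex.neg_re, Complex.ofReal_re] at h
    linarith [hs.1]
  · apply h
    rw [Complex.neg_im, Complex.ofReal_im, neg_zero]

theorem Gt_eq (H : DblAsym) {t : ℂ} (ht : t ∈ sdisc) :
    Ft t⁻¹ / t = 1 / 8 * (evQ serK t * (Complex.log (-t) - 2 * ll) ^ 2
      + 2 * evQ serM t * (Complex.log (-t) - 2 * ll) + evQ serR t)
      + (Real.pi : ℂ) ^ 2 / 48 * evQ serK t := by
  have dQ : ∀ {s : ℚ⟦X⟧}, PQ s → DifferentiableOn ℂ (evQ s) sdisc := fun hs v hv =>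
    (hasDerivAt_ev hs hv.1).differentiableAt.differentiableWithinAt
  have a1 : AnalyticOnNhd ℂ (fun t : ℂ => Ft t⁻¹ / t) sdisc := by
    refine DifferentiableOn.analyticOnNhd (fun v hv => ?_) isOpen_sdisc
    have h1 := (differentiableOn_Ft.differentiableAt (isOpen_cut1.mem_nhds (inv_mem_cut1 hv.2)))
    exact ((h1.comp v (differentiableAt_inv (sdisc_ne hv))).div differentiableAt_id
      (sdisc_ne hv)).differentiableWithinAt
  have dl : DifferentiableOn ℂ (fun v : ℂ => Complex.log (-v)) sdisc := fun v hv =>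
    (differentiableAt_neg_iff.2 differentiableAt_id |>.clog hv.2).differentiableWithinAt
  have a2 : AnalyticOnNhd ℂ (fun t : ℂ => 1 / 8 * (evQ serK t * (Complex.log (-t) - 2 * ll) ^ 2
      + 2 * evQ serM t * (Complex.log (-t) - 2 * ll) + evQ serR t)
      + (Real.pi : ℂ) ^ 2 / 48 * evQ serK t) sdisc := by
    refine DifferentiableOn.analyticOnNhd ?_ isOpen_sdisc
    exact (((((dQ pq_serK).mul ((dl.sub_const _).pow 2)).add
      (((dQ pq_serM).const_mul 2).mul (dl.sub_const _))).add (dQ pq_serR)).const_mul _).add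
      ((dQ pq_serK).const_mul _)
  have h0 : (-(1 / 2) : ℂ) ∈ sdisc := by
    refine ⟨by norm_num, ?_⟩
    rw [neg_neg]
    left
    norm_num
  refine a1.eqOn_of_preconnected_of_eventuallyEq a2 isPreconnected_sdisc h0 ?_ ht
  have hU : {v : ℂ | -v ∈ hdisc 1} ∈ 𝓝 (-(1 / 2) : ℂ) := by
    refine ((isOpen_hdisc 1).preimage continuous_neg).mem_nhds ?_
    change -(-(1 / 2) : ℂ) ∈ hdisc 1
    rw [neg_neg]
    constructor <;> norm_num
  filter_upwards [hU] with w hw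
  have h1 := gg_eq H hw
  rw [gg, neg_neg, evQ_even serK_odd, evQ_even serM_odd, evQ_even serR_odd] at h1
  exact h1

/-- **the expansion at `c3`** -/
theorem Fh_eq_c3 (H : DblAsym) {t : ℂ} (ht : ‖t‖ < 1) (hs : -t ∈ Complex.slitPlane) :
    Fh ((1 + t) / (1 - t)) = (1 - t) / 2 * (-(1 / 8) * (evQ serK t * (Complex.log (-t) - 2 * ll) ^ 2
      + 2 * evQ serM t * (Complex.log (-t) - 2 * ll) + evQ serR t)
      - (Real.pi : ℂ) ^ 2 / 48 * evQ serK t) := by
  have h0 : t ≠ 0 := sdisc_ne ⟨ht, hs⟩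
  have h1 : (1 - t) ≠ 0 := by
    intro h
    have : t = 1 := by linear_combination -h
    rw [this, norm_one] at ht
    exact lt_irrefl _ ht
  have h2 := Gt_eq H ⟨ht, hs⟩
  rw [Fh]
  have e1 : (1 + t) / (1 - t) - 1 = 2 * t / (1 - t) := by
    field_simp; ring
  have e2 : (1 + t) / (1 - t) + 1 = 2 / (1 - t) := by
    field_simp; ring
  have e3 : ((1 + t) / (1 - t) + 1) / ((1 + t) / (1 - t) - 1) = t⁻¹ := by
    rw [e1, e2]; field_simp
  have e4 : 1 - (1 + t) / (1 - t) = -(2 * t / (1 - t)) := by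
    rw [← e1]; ring
  rw [e3, e4]
  have e5 : Ft t⁻¹ = t * (Ft t⁻¹ / t) := by field_simp
  rw [e5, h2]
  field_simp
  ring

theorem Fh_eq_c3' (H : DblAsym) {u : ℂ} (hu : u ≠ -1) (ht : ‖(u - 1) / (u + 1)‖ < 1)
    (hs : -((u - 1) / (u + 1)) ∈ Complex.slitPlane) :
    Fh u = (1 - (u - 1) / (u + 1)) / 2 * (-(1 / 8) * (evQ serK ((u - 1) / (u + 1))
      * (Complex.log (-((u - 1) / (u + 1))) - 2 * ll) ^ 2
      + 2 * evQ serM ((u - 1) / (u + 1)) * (Complex.log (-((u - 1) / (u + 1))) - 2 * ll)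
      + evQ serR ((u - 1) / (u + 1)))
      - (Real.pi : ℂ) ^ 2 / 48 * evQ serK ((u - 1) / (u + 1))) := by
  have h1 : u + 1 ≠ 0 := fun h => hu (by linear_combination h)
  have e : u = (1 + (u - 1) / (u + 1)) / (1 - (u - 1) / (u + 1)) := by
    have h2 : 1 - (u - 1) / (u + 1) = 2 / (u + 1) := by field_simp; ring
    rw [h2]
    field_simp
    ring
  conv_lhs => rw [e]
  exact Fh_eq_c3 H ht hs

end Vale.Agent.P030.H462
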