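import Vale.Agent.P030.T.Defs

/-!
# P030: evaluation of power series with coefficients of polynomial growth

`R` a commutative ring with a ring homomorphism `φ : R →+* ℂ` (`ℚ → ℂ`, `ℝ → ℂ`, the identity).
For `f ∈ R⟦X⟧` with `PG φ f`, `ev φ f z = Σ φ (f_n) z^n` on `‖z‖ < 1` is a ring homomorphism in
`f`, holomorphic, with the expected derivative.
-/

open PowerSeries Finset

namespace Vale.Agent.P030.H462

section generic

variable {R : Type*} [CommRing R] (φ : R →+* ℂ)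

/-- coefficients of polynomial growth -/
def PG (f : R⟦X⟧) : Prop := ∃ (C : ℝ) (k : ℕ), 0 ≤ C ∧ ∀ n, ‖φ (coeff n f)‖ ≤ C * ((n : ℝ) + 1) ^ k

/-- evaluation -/
noncomputable def ev (f : R⟦X⟧) (z : ℂ) : ℂ := ∑' n, φ (coeff n f) * z ^ n

variable {φ}

theorem PG.of_le {f : R⟦X⟧} (C : ℝ) (k : ℕ) (h : ∀ n, ‖φ (coeff n f)‖ ≤ C * ((n : ℝ) + 1) ^ k) :
    PG φ f := by
  refine ⟨C, k, ?_, h⟩
  have := h 0
  simp only [Nat.cast_zero, zero_add, one_pow, mul_one] at this
  exact (norm_nonneg _).trans this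

theorem PG.add {f g : R⟦X⟧} (hf : PG φ f) (hg : PG φ g) : PG φ (f + g) := by
  obtain ⟨C, k, hC, h⟩ := hf
  obtain ⟨C', k', hC', h'⟩ := hg
  refine PG.of_le (C + C') (k + k') fun n => ?_
  have h1 : (1 : ℝ) ≤ (n : ℝ) + 1 := by
    have : (0 : ℝ) ≤ n := Nat.cast_nonneg n
    linarith
  have h2 : ((n : ℝ) + 1) ^ k ≤ ((n : ℝ) + 1) ^ (k + k') := pow_le_pow_right₀ h1 (by omega)
  have h3 : ((n : ℝ) + 1) ^ k' ≤ ((n : ℝ) + 1) ^ (k + k') := pow_le_pow_right₀ h1 (by omega)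
  rw [map_add, map_add]
  calc ‖φ (coeff n f) + φ (coeff n g)‖ ≤ ‖φ (coeff n f)‖ + ‖φ (coeff n g)‖ := norm_add_le _ _
    _ ≤ C * ((n : ℝ) + 1) ^ k + C' * ((n : ℝ) + 1) ^ k' := add_le_add (h n) (h' n)
    _ ≤ C * ((n : ℝ) + 1) ^ (k + k') + C' * ((n : ℝ) + 1) ^ (k + k') := by gcongr
    _ = (C + C') * ((n : ℝ) + 1) ^ (k + k') := by ring

theorem PG.mul {f g : R⟦X⟧} (hf : PG φ f) (hg : PG φ g) : PG φ (f * g) := by
  obtain ⟨C, k, hC, h⟩ := hf
  obtain ⟨C', k', hC', h'⟩ := hg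
  refine PG.of_le (C * C') (k + k' + 1) fun n => ?_
  rw [coeff_mul, map_sum]
  refine (norm_sum_le _ _).trans ?_
  have h1 : ∀ p ∈ antidiagonal n, ‖φ (coeff p.1 f * coeff p.2 g)‖
      ≤ C * C' * ((n : ℝ) + 1) ^ (k + k') := by
    intro p hp
    have hp' := mem_antidiagonal.1 hp
    have ha : (p.1 : ℝ) ≤ n := by exact_mod_cast (by omega : p.1 ≤ n)
    have hb : (p.2 : ℝ) ≤ n := by exact_mod_cast (by omega : p.2 ≤ n)
    rw [map_mul, norm_mul]
    calc ‖φ (coeff p.1 f)‖ * ‖φ (coeff p.2 g)‖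
        ≤ (C * ((p.1 : ℝ) + 1) ^ k) * (C' * ((p.2 : ℝ) + 1) ^ k') :=
          mul_le_mul (h _) (h' _) (norm_nonneg _) (by positivity)
      _ ≤ (C * ((n : ℝ) + 1) ^ k) * (C' * ((n : ℝ) + 1) ^ k') := by gcongr
      _ = C * C' * ((n : ℝ) + 1) ^ (k + k') := by rw [pow_add]; ring
  refine (Finset.sum_le_sum h1).trans (le_of_eq ?_)
  rw [Finset.sum_const, Finset.Nat.card_antidiagonal, nsmul_eq_mul]
  push_cast
  ring

theorem PG.const (q : R) : PG φ (C q : R⟦X⟧) := by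
  refine PG.of_le ‖φ q‖ 0 fun n => ?_
  rw [coeff_C, pow_zero, mul_one]
  split_ifs
  · exact le_rfl
  · simp

theorem PG.one : PG φ (1 : R⟦X⟧) := by
  have := PG.const (φ := φ) 1
  rwa [map_one] at this

theorem PG.zero : PG φ (0 : R⟦X⟧) := by
  have := PG.const (φ := φ) 0
  rwa [map_zero] at this

theorem PG.varX : PG φ (X : R⟦X⟧) := by
  refine PG.of_le 1 0 fun n => ?_
  rw [coeff_X, pow_zero, mul_one]
  split_ifs <;> simp

theorem PG.neg {f : R⟦X⟧} (hf : PG φ f) : PG φ (-f) := by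
  obtain ⟨C, k, hC, h⟩ := hf
  refine PG.of_le C k fun n => ?_
  rw [map_neg, map_neg, norm_neg]
  exact h n

theorem PG.sub {f g : R⟦X⟧} (hf : PG φ f) (hg : PG φ g) : PG φ (f - g) := by
  rw [sub_eq_add_neg]; exact hf.add hg.neg

theorem PG.pow {f : R⟦X⟧} (hf : PG φ f) (n : ℕ) : PG φ (f ^ n) := by
  induction n with
  | zero => rw [pow_zero]; exact PG.one
  | succ n ih => rw [pow_succ]; exact ih.mul hf

theorem PG.deriv {f : R⟦X⟧} (hf : PG φ f) : PG φ (d⁄dX R f) := by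
  obtain ⟨C, k, hC, h⟩ := hf
  refine PG.of_le (C * 2 ^ k) (k + 1) fun n => ?_
  rw [coeff_derivative, map_mul, norm_mul]
  have h0 : ‖φ ((n : R) + 1)‖ = (n : ℝ) + 1 := by
    rw [map_add, map_natCast, map_one]
    have : ((n : ℂ) + 1) = ((n + 1 : ℕ) : ℂ) := by push_cast; ring
    rw [this, Complex.norm_natCast]
    push_cast
    ring
  rw [h0]
  have h1 := h (n + 1)
  push_cast at h1
  have hn : (0 : ℝ) ≤ n := Nat.cast_nonneg n
  calc ‖φ (coeff (n + 1) f)‖ * ((n : ℝ) + 1) ≤ (C * ((n : ℝ) + 1 + 1) ^ k) * ((n : ℝ) + 1) := by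
        gcongr
    _ ≤ (C * (2 * ((n : ℝ) + 1)) ^ k) * ((n : ℝ) + 1) := by gcongr; linarith
    _ = C * 2 ^ k * ((n : ℝ) + 1) ^ (k + 1) := by rw [mul_pow]; ring

theorem PG.sum {ι : Type*} (s : Finset ι) {f : ι → R⟦X⟧} (h : ∀ i ∈ s, PG φ (f i)) :
    PG φ (∑ i ∈ s, f i) := by
  classical
  induction s using Finset.induction_on with
  | empty => rw [Finset.sum_empty]; exact PG.zero
  | insert a s ha ih =>
    rw [Finset.sum_insert ha]
    exact (h a (Finset.mem_insert_self _ _)).add (ih fun i hi => h i (Finset.mem_insert_of_mem hi))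

/-- a series whose derivative has polynomial growth (characteristic zero, by coefficients) -/
theorem PG.of_deriv {f : R⟦X⟧} (hf : PG φ (d⁄dX R f)) : PG φ f := by
  obtain ⟨C, k, hC, h⟩ := hf
  refine PG.of_le (C + ‖φ (coeff 0 f)‖) k fun n => ?_
  rcases n with _ | n
  · simp only [Nat.cast_zero, zero_add, one_pow, mul_one]
    linarith
  · have h1 := h n
    rw [coeff_derivative, map_mul, norm_mul] at h1
    have h0 : ‖φ ((n : R) + 1)‖ = (n : ℝ) + 1 := by
      rw [map_add, map_natCast, map_one]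
      have : ((n : ℂ) + 1) = ((n + 1 : ℕ) : ℂ) := by push_cast; ring
      rw [this, Complex.norm_natCast]
      push_cast
      ring
    rw [h0] at h1
    have hn : (0 : ℝ) ≤ n := Nat.cast_nonneg n
    push_cast
    calc ‖φ (coeff (n + 1) f)‖ ≤ ‖φ (coeff (n + 1) f)‖ * ((n : ℝ) + 1) :=
          le_mul_of_one_le_right (norm_nonneg _) (by linarith)
      _ ≤ C * ((n : ℝ) + 1) ^ k := h1
      _ ≤ (C + ‖φ (coeff 0 f)‖) * ((n : ℝ) + 1 + 1) ^ k := by
          gcongr
          · exact le_add_of_nonneg_right (norm_nonneg _)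
          · linarith

/-! ### summability -/

theorem summable_pg_aux (k : ℕ) {r : ℝ} (h0 : 0 ≤ r) (h1 : r < 1) :
    Summable fun n : ℕ => ((n : ℝ) + 1) ^ k * r ^ n := by
  obtain ⟨q, hq0, hq1⟩ := exists_between h1
  have hqp : 0 < q := lt_of_le_of_lt h0 hq0
  have h2 : Summable fun n : ℕ => (n : ℝ) ^ k * q ^ n :=
    summable_pow_mul_geometric_of_norm_lt_one k (by rwa [Real.norm_of_nonneg hqp.le])
  have h3 := (summable_nat_add_iff 1).2 h2
  have h4 := h3.mul_left q⁻¹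
  refine Summable.of_nonneg_of_le (fun n => by positivity) (fun n => ?_) h4
  push_cast
  rw [pow_succ]
  have h5 : r ^ n ≤ q ^ n := pow_le_pow_left₀ h0 hq0.le n
  calc ((n : ℝ) + 1) ^ k * r ^ n ≤ ((n : ℝ) + 1) ^ k * q ^ n := by gcongr
    _ = q⁻¹ * (((n : ℝ) + 1) ^ k * (q ^ n * q)) := by field_simp

theorem PG.summable_abs {f : R⟦X⟧} (hf : PG φ f) {r : ℝ} (h0 : 0 ≤ r) (h1 : r < 1) :
    Summable fun n : ℕ => ‖φ (coeff n f)‖ * r ^ n := by
  obtain ⟨C, k, hC, h⟩ := hf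
  refine Summable.of_nonneg_of_le (fun n => by positivity) (fun n => ?_)
    ((summable_pg_aux k h0 h1).mul_left C)
  calc ‖φ (coeff n f)‖ * r ^ n ≤ C * ((n : ℝ) + 1) ^ k * r ^ n := by
        gcongr; exact h n
    _ = C * (((n : ℝ) + 1) ^ k * r ^ n) := by ring

theorem PG.summable_norm {f : R⟦X⟧} (hf : PG φ f) {z : ℂ} (hz : ‖z‖ < 1) :
    Summable fun n : ℕ => ‖φ (coeff n f) * z ^ n‖ := by
  refine (hf.summable_abs (norm_nonneg z) hz).congr fun n => ?_
  rw [norm_mul, norm_pow]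

theorem PG.summable {f : R⟦X⟧} (hf : PG φ f) {z : ℂ} (hz : ‖z‖ < 1) :
    Summable fun n : ℕ => φ (coeff n f) * z ^ n := (hf.summable_norm hz).of_norm

theorem PG.hasSum {f : R⟦X⟧} (hf : PG φ f) {z : ℂ} (hz : ‖z‖ < 1) :
    HasSum (fun n : ℕ => φ (coeff n f) * z ^ n) (ev φ f z) := (hf.summable hz).hasSum

/-! ### algebra -/

theorem ev_add {f g : R⟦X⟧} (hf : PG φ f) (hg : PG φ g) {z : ℂ} (hz : ‖z‖ < 1) :
    ev φ (f + g) z = ev φ f z + ev φ g z := by
  unfold ev
  rw [← (hf.summable hz).tsum_add (hg.summable hz)]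
  refine tsum_congr fun n => ?_
  rw [map_add, map_add]
  ring

theorem ev_neg (f : R⟦X⟧) (z : ℂ) : ev φ (-f) z = -ev φ f z := by
  unfold ev
  rw [← tsum_neg]
  refine tsum_congr fun n => ?_
  rw [map_neg, map_neg]
  ring

theorem ev_sub {f g : R⟦X⟧} (hf : PG φ f) (hg : PG φ g) {z : ℂ} (hz : ‖z‖ < 1) :
    ev φ (f - g) z = ev φ f z - ev φ g z := by
  rw [sub_eq_add_neg, ev_add hf hg.neg hz, ev_neg, ← sub_eq_add_neg]

theorem ev_mul {f g : R⟦X⟧} (hf : PG φ f) (hg : PG φ g) {z : ℂ} (hz : ‖z‖ < 1) :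
    ev φ (f * g) z = ev φ f z * ev φ g z := by
  unfold ev
  rw [tsum_mul_tsum_eq_tsum_sum_antidiagonal_of_summable_norm (hf.summable_norm hz)
    (hg.summable_norm hz)]
  refine tsum_congr fun n => ?_
  rw [coeff_mul, map_sum, Finset.sum_mul]
  refine Finset.sum_congr rfl fun p hp => ?_
  rw [← mem_antidiagonal.1 hp, pow_add, map_mul]
  ring

theorem ev_C (q : R) (z : ℂ) : ev φ (C q : R⟦X⟧) z = φ q := by
  unfold ev
  rw [tsum_eq_single 0]
  · simp
  · intro n hn
    rw [coeff_C, if_neg hn]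
    simp

theorem ev_one (z : ℂ) : ev φ (1 : R⟦X⟧) z = 1 := by
  have := ev_C (φ := φ) 1 z
  rwa [map_one, map_one] at this

theorem ev_zero (z : ℂ) : ev φ (0 : R⟦X⟧) z = 0 := by
  have := ev_C (φ := φ) 0 z
  rwa [map_zero, map_zero] at this

theorem ev_X (z : ℂ) : ev φ (X : R⟦X⟧) z = z := by
  unfold ev
  rw [tsum_eq_single 1]
  · simp
  · intro n hn
    rw [coeff_X, if_neg hn]
    simp

theorem ev_pow {f : R⟦X⟧} (hf : PG φ f) (n : ℕ) {z : ℂ} (hz : ‖z‖ < 1) :
    ev φ (f ^ n) z = ev φ f z ^ n := by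
  induction n with
  | zero => rw [pow_zero, pow_zero, ev_one]
  | succ n ih => rw [pow_succ, pow_succ, ev_mul (hf.pow n) hf hz, ih]

theorem ev_sum {ι : Type*} (s : Finset ι) {f : ι → R⟦X⟧} (h : ∀ i ∈ s, PG φ (f i)) {z : ℂ}
    (hz : ‖z‖ < 1) : ev φ (∑ i ∈ s, f i) z = ∑ i ∈ s, ev φ (f i) z := by
  classical
  induction s using Finset.induction_on with
  | empty => rw [Finset.sum_empty, Finset.sum_empty, ev_zero]
  | insert a s ha ih =>
    have h1 := fun i hi => h i (Finset.mem_insert_of_mem hi)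
    rw [Finset.sum_insert ha, Finset.sum_insert ha,
      ev_add (h a (Finset.mem_insert_self _ _)) (PG.sum s h1) hz, ih h1]

theorem ev_at_zero (f : R⟦X⟧) : ev φ f 0 = φ (coeff 0 f) := by
  unfold ev
  rw [tsum_eq_single 0]
  · simp
  · intro n hn
    rw [zero_pow hn, mul_zero]

/-! ### derivative -/

theorem norm_phi_succ (n : ℕ) : ‖φ ((n : R) + 1)‖ = (n : ℝ) + 1 := by
  rw [map_add, map_natCast, map_one]
  have : ((n : ℂ) + 1) = ((n + 1 : ℕ) : ℂ) := by push_cast; ring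
  rw [this, Complex.norm_natCast]
  push_cast
  ring

theorem hasDerivAt_ev {f : R⟦X⟧} (hf : PG φ f) {z : ℂ} (hz : ‖z‖ < 1) :
    HasDerivAt (ev φ f) (ev φ (d⁄dX R f) z) z := by
  obtain ⟨r, hr0, hr1⟩ := exists_between hz
  have hrp : 0 ≤ r := (norm_nonneg z).trans hr0.le
  have hu : Summable fun n : ℕ => ‖φ (coeff n f)‖ * n * r ^ (n - 1) := by
    rw [← summable_nat_add_iff 1]
    have h1 := hf.deriv.summable_abs hrp hr1
    refine h1.congr fun n => ?_
    rw [coeff_derivative, map_mul, norm_mul, norm_phi_succ, Nat.add_sub_cancel]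
    push_cast
    rfl
  have key := hasDerivAt_tsum_of_isPreconnected (𝕜 := ℂ) (F := ℂ) (α := ℕ)
    (u := fun n : ℕ => ‖φ (coeff n f)‖ * n * r ^ (n - 1)) hu
    (g := fun n z => φ (coeff n f) * z ^ n)
    (g' := fun n z => φ (coeff n f) * (n * z ^ (n - 1)))
    (t := Metric.ball 0 r) (y₀ := 0) (y := z) Metric.isOpen_ball
    (convex_ball (0 : ℂ) r).isPreconnected
    (fun n y _ => (hasDerivAt_pow n y).const_mul _)
    (fun n y hy => by
      rw [norm_mul, norm_mul, norm_pow, Complex.norm_natCast]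
      have hy' : ‖y‖ ≤ r := (mem_ball_zero_iff.1 hy).le
      calc ‖φ (coeff n f)‖ * ((n : ℝ) * ‖y‖ ^ (n - 1))
          ≤ ‖φ (coeff n f)‖ * ((n : ℝ) * r ^ (n - 1)) := by gcongr
        _ = ‖φ (coeff n f)‖ * n * r ^ (n - 1) := by ring)
    (by
      rw [mem_ball_zero_iff, norm_zero]
      exact lt_of_le_of_lt (norm_nonneg z) hr0)
    (hf.summable (by rw [norm_zero]; exact one_pos))
    (by rwa [mem_ball_zero_iff])
  have h2 : ∑' n : ℕ, φ (coeff n f) * (n * z ^ (n - 1)) = ev φ (d⁄dX R f) z := by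
    unfold ev
    have hs : Summable fun n : ℕ => φ (coeff n f) * (n * z ^ (n - 1)) := by
      rw [← summable_nat_add_iff 1]
      refine (hf.deriv.summable hz).congr fun n => ?_
      rw [coeff_derivative, Nat.add_sub_cancel, map_mul, map_add, map_natCast, map_one]
      push_cast
      ring
    rw [hs.tsum_eq_zero_add]
    simp only [Nat.cast_zero, zero_mul, mul_zero, zero_add]
    refine tsum_congr fun n => ?_
    rw [coeff_derivative, Nat.add_sub_cancel, map_mul, map_add, map_natCast, map_one]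
    push_cast
    ring
  rw [h2] at key
  exact key

theorem differentiableOn_ev {f : R⟦X⟧} (hf : PG φ f) :
    DifferentiableOn ℂ (ev φ f) (Metric.ball 0 1) := fun z hz =>
  (hasDerivAt_ev hf (mem_ball_zero_iff.1 hz)).differentiableAt.differentiableWithinAt

theorem analyticAt_ev {f : R⟦X⟧} (hf : PG φ f) {z : ℂ} (hz : ‖z‖ < 1) :
    AnalyticAt ℂ (ev φ f) z :=
  (differentiableOn_ev hf).analyticAt (Metric.isOpen_ball.mem_nhds (mem_ball_zero_iff.2 hz))

/-- splitting off the first coefficients: the form used by Jensen's inequality -/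
theorem ev_eq_pow_mul {f : R⟦X⟧} (n : ℕ) (h : ∀ k < n, φ (coeff k f) = 0) (z : ℂ) :
    ev φ f z = z ^ n * ev φ (mk fun k => coeff (k + n) f) z := by
  unfold ev
  rw [← tsum_mul_left]
  by_cases hz : z = 0
  · subst hz
    rcases n with _ | n
    · refine tsum_congr fun k => ?_
      rw [coeff_mk, add_zero, pow_zero, one_mul]
    · have h1 : ∀ k : ℕ, (0 : ℂ) ^ (n + 1) * (φ (coeff k (mk fun k => coeff (k + (n + 1)) f)) *
          0 ^ k) = 0 := fun k => by rw [zero_pow (Nat.succ_ne_zero n), zero_mul]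
      simp_rw [h1]
      rw [tsum_zero, tsum_eq_single 0]
      · rw [h 0 (Nat.succ_pos n), zero_mul]
      · intro k hk
        rw [zero_pow hk, mul_zero]
  · by_cases hs : Summable fun k => φ (coeff k f) * z ^ k
    · have h2 := hs.sum_add_tsum_nat_add n
      rw [← h2, Finset.sum_eq_zero fun k hk => by rw [h k (Finset.mem_range.1 hk), zero_mul],
        zero_add]
      refine tsum_congr fun k => ?_
      rw [coeff_mk, pow_add]
      ring
    · have hs' : ¬ Summable fun k => z ^ n * (φ (coeff k (mk fun k => coeff (k + n) f)) * z ^ k) := by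
        intro hcon
        apply hs
        rw [← summable_nat_add_iff n]
        refine hcon.congr fun k => ?_
        rw [coeff_mk, pow_add]
        ring
      rw [tsum_eq_zero_of_not_summable hs, tsum_eq_zero_of_not_summable hs']

theorem PG.shift {f : R⟦X⟧} (hf : PG φ f) (m : ℕ) : PG φ (mk fun k => coeff (k + m) f) := by
  obtain ⟨C, k, hC, h⟩ := hf
  refine PG.of_le (C * ((m : ℝ) + 1) ^ k) k fun n => ?_
  rw [coeff_mk]
  refine (h (n + m)).trans ?_
  push_cast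
  rw [mul_assoc, ← mul_pow]
  have hn : (0 : ℝ) ≤ n := Nat.cast_nonneg n
  have hm : (0 : ℝ) ≤ m := Nat.cast_nonneg m
  gcongr
  nlinarith

/-- the power series of `ev φ f` at the origin -/
theorem hasFPowerSeriesAt_ev {f : R⟦X⟧} (hf : PG φ f) : HasFPowerSeriesAt (ev φ f)
    (FormalMultilinearSeries.ofScalars ℂ fun n => φ (coeff n f)) 0 := by
  rw [hasFPowerSeriesAt_iff]
  have : Metric.ball (0 : ℂ) 1 ∈ nhds (0 : ℂ) := Metric.ball_mem_nhds _ one_pos
  filter_upwards [this] with z hz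
  have h2 := hf.hasSum (mem_ball_zero_iff.1 hz)
  rw [zero_add]
  have h3 : (fun n : ℕ => z ^ n • (FormalMultilinearSeries.ofScalars ℂ
      fun n => φ (coeff n f)).coeff n) = fun n => φ (coeff n f) * z ^ n := by
    funext n
    rw [FormalMultilinearSeries.coeff_ofScalars, smul_eq_mul, mul_comm]
  rw [h3]
  exact h2

/-- the evaluation determines the series -/
theorem coeff_eq_of_ev {f g : R⟦X⟧} (hf : PG φ f) (hg : PG φ g)
    (h : ∀ᶠ z in nhds (0 : ℂ), ev φ f z = ev φ g z) (n : ℕ) : φ (coeff n f) = φ (coeff n g) := by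
  have h1 := (hasFPowerSeriesAt_ev hf).congr h
  have h2 := h1.eq_formalMultilinearSeries (hasFPowerSeriesAt_ev hg)
  have h3 := congrArg (fun p => FormalMultilinearSeries.coeff p n) h2
  simpa only [FormalMultilinearSeries.coeff_ofScalars] using h3

end generic

end Vale.Agent.P030.H462
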