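import Vale.Agent.P030.H462.FhC3
import Vale.Agent.P030.H639.Asym

/-!
# P030: the main branch at `c3`, unconditional

`dbl_asym` (H639) plugged into `Fh_eq_c3`.
-/

open MeasureTheory Set Metric Filter Topology PowerSeries

namespace Vale.Agent.P030.H462

open Vale.Agent.P030.T

theorem dblAsym : DblAsym := Vale.Agent.P030.H639.dbl_asym

/-- **the expansion at `c3`** -/
theorem Fh_at_c3 {t : ℂ} (ht : ‖t‖ < 1) (hs : -t ∈ Complex.slitPlane) :
    Fh ((1 + t) / (1 - t)) = (1 - t) / 2 * (-(1 / 8) * (evQ serK t * (Complex.log (-t) - 2 * ll) ^ 2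
      + 2 * evQ serM t * (Complex.log (-t) - 2 * ll) + evQ serR t)
      - (Real.pi : ℂ) ^ 2 / 48 * evQ serK t) :=
  Fh_eq_c3 dblAsym ht hs

theorem Fh_at_c3' {u : ℂ} (hu : u ≠ -1) (ht : ‖(u - 1) / (u + 1)‖ < 1)
    (hs : -((u - 1) / (u + 1)) ∈ Complex.slitPlane) :
    Fh u = (1 - (u - 1) / (u + 1)) / 2 * (-(1 / 8) * (evQ serK ((u - 1) / (u + 1))
      * (Complex.log (-((u - 1) / (u + 1))) - 2 * ll) ^ 2
      + 2 * evQ serM ((u - 1) / (u + 1)) * (Complex.log (-((u - 1) / (u + 1))) - 2 * ll)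
      + evQ serR ((u - 1) / (u + 1)))
      - (Real.pi : ℂ) ^ 2 / 48 * evQ serK ((u - 1) / (u + 1))) :=
  Fh_eq_c3' dblAsym hu ht hs

end Vale.Agent.P030.H462
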