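import Mathlib

/-!
# P030: `∫ 2 dx / √((1-a)² sin² x + 4 a) + log a → 2 log 2` as `a → 0+`
-/

open MeasureTheory Set Filter Topology intervalIntegral

namespace Vale.Agent.P030.H462

open Real

/-- `∫ tan (x/2) = log 2` on `[0, π/2]` -/
theorem int_tan_half : ∫ x in (0 : ℝ)..(π / 2), tan (x / 2) = log 2 := by
  have hpos : ∀ x ∈ Icc 0 (π / 2), 0 < cos (x / 2) := fun x hx =>
    cos_pos_of_mem_Ioo ⟨by linarith [hx.1, pi_pos], by linarith [hx.2, pi_pos]⟩
  have hd : ∀ x ∈ uIcc 0 (π / 2), HasDerivAt (fun x => -2 * log (cos (x / 2))) (tan (x / 2)) x := by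
    intro x hx
    rw [uIcc_of_le (by positivity)] at hx
    have h0 : HasDerivAt (fun x : ℝ => x / 2) (1 / 2) x := (hasDerivAt_id x).div_const 2
    have h1 : HasDerivAt (fun x : ℝ => cos (x / 2)) (-sin (x / 2) * (1 / 2)) x := h0.cos
    have h2 := (h1.log (hpos x hx).ne').const_mul (-2)
    refine h2.congr_deriv ?_
    rw [tan_eq_sin_div_cos]
    ring
  have hi : IntervalIntegrable (fun x => tan (x / 2)) volume 0 (π / 2) := by
    refine ContinuousOn.intervalIntegrable ?_
    rw [uIcc_of_le (by positivity)]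
    have : ∀ x, tan (x / 2) = sin (x / 2) / cos (x / 2) := fun x => tan_eq_sin_div_cos _
    simp_rw [this]
    exact ContinuousOn.div (by fun_prop) (by fun_prop) fun x hx => (hpos x hx).ne'
  rw [integral_eq_sub_of_hasDerivAt hd hi]
  have e1 : π / 2 / 2 = π / 4 := by ring
  rw [e1, cos_pi_div_four, zero_div, cos_zero, log_one, mul_zero, sub_zero,
    Real.log_div (by positivity) (by norm_num), Real.log_sqrt (by norm_num)]
  ring

theorem int_one_sub_cos_div_sin :
    ∫ x in (0 : ℝ)..(π / 2), 2 * (1 - cos x) / sin x = 2 * log 2 := by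
  rw [← int_tan_half, ← intervalIntegral.integral_const_mul]
  refine intervalIntegral.integral_congr_ae (Eventually.of_forall fun x hx => ?_)
  rw [uIoc_of_le (by positivity)] at hx
  have h1 : 0 < sin (x / 2) := sin_pos_of_pos_of_lt_pi (by linarith [hx.1]) (by linarith [hx.2, pi_pos])
  have h2 : 0 < cos (x / 2) :=
    cos_pos_of_mem_Ioo ⟨by linarith [hx.1, pi_pos], by linarith [hx.2, pi_pos]⟩
  have h3 : sin x = 2 * sin (x / 2) * cos (x / 2) := by
    rw [← sin_two_mul]; congr 1; ring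
  have h4 : 1 - cos x = 2 * sin (x / 2) ^ 2 := by
    have : cos x = 1 - 2 * sin (x / 2) ^ 2 := by
      have h5 : x = 2 * (x / 2) := by ring
      conv_lhs => rw [h5, cos_two_mul']
      have := sin_sq_add_cos_sq (x / 2)
      linarith
    linarith
  rw [h3, h4, tan_eq_sin_div_cos]
  field_simp

/-- the elementary part -/
theorem int_main {a : ℝ} (h0 : 0 < a) (h1 : a < 1) :
    ∫ x in (0 : ℝ)..(π / 2), 2 * cos x / √((1 - a) ^ 2 * sin x ^ 2 + 4 * a)
      = -log a / (1 - a) := by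
  have hp : ∀ x, 0 < (1 - a) ^ 2 * sin x ^ 2 + 4 * a := fun x => by positivity
  have h1a : 0 < 1 - a := by linarith
  have hsa : 0 < √a := Real.sqrt_pos.2 h0
  have hsa2 : √a ^ 2 = a := Real.sq_sqrt h0.le
  have hd : ∀ x ∈ uIcc 0 (π / 2), HasDerivAt
      (fun x => 2 / (1 - a) * arsinh ((1 - a) * sin x / (2 * √a)))
      (2 * cos x / √((1 - a) ^ 2 * sin x ^ 2 + 4 * a)) x := by
    intro x _
    have e1 : HasDerivAt (fun x => (1 - a) * sin x / (2 * √a)) ((1 - a) * cos x / (2 * √a)) x :=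
      ((hasDerivAt_sin x).const_mul _).div_const _
    have e2 := ((hasDerivAt_arsinh _).comp x e1).const_mul (2 / (1 - a))
    refine e2.congr_deriv ?_
    have e3 : 1 + ((1 - a) * sin x / (2 * √a)) ^ 2
        = ((1 - a) ^ 2 * sin x ^ 2 + 4 * a) / (2 * √a) ^ 2 := by
      field_simp
      rw [hsa2]
      ring
    rw [e3, Real.sqrt_div (hp x).le, Real.sqrt_sq (by positivity)]
    have e4 : 0 < √((1 - a) ^ 2 * sin x ^ 2 + 4 * a) := Real.sqrt_pos.2 (hp x)
    field_simp
  have hi : IntervalIntegrable (fun x => 2 * cos x / √((1 - a) ^ 2 * sin x ^ 2 + 4 * a))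
      volume 0 (π / 2) := by
    refine Continuous.intervalIntegrable ?_ _ _
    refine Continuous.div (by fun_prop) (by fun_prop) fun x => (Real.sqrt_pos.2 (hp x)).ne'
  rw [integral_eq_sub_of_hasDerivAt hd hi, sin_pi_div_two, sin_zero, mul_one, mul_zero, zero_div,
    arsinh_zero, mul_zero, sub_zero]
  have e5 : arsinh ((1 - a) / (2 * √a)) = -(1 / 2) * log a := by
    unfold arsinh
    have e6 : 1 + ((1 - a) / (2 * √a)) ^ 2 = ((1 + a) / (2 * √a)) ^ 2 := by
      field_simp
      rw [hsa2]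
      ring
    rw [e6, Real.sqrt_sq (by positivity)]
    have e7 : (1 - a) / (2 * √a) + (1 + a) / (2 * √a) = (√a)⁻¹ := by
      field_simp
      ring
    rw [e7, Real.log_inv, Real.log_sqrt h0.le]
    ring
  rw [e5]
  field_simp

theorem tendsto_rest :
    Tendsto (fun a : ℝ => ∫ x in (0 : ℝ)..(π / 2),
      2 * (1 - cos x) / √((1 - a) ^ 2 * sin x ^ 2 + 4 * a)) (𝓝[>] 0) (𝓝 (2 * log 2)) := by
  rw [← int_one_sub_cos_div_sin]
  have hev : ∀ᶠ a : ℝ in 𝓝[>] 0, 0 < a ∧ a < 1 / 2 := by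
    have h1 : ∀ᶠ a : ℝ in 𝓝[>] 0, a < 1 / 2 :=
      (gt_mem_nhds (by norm_num : (0 : ℝ) < 1 / 2)).filter_mono nhdsWithin_le_nhds
    filter_upwards [self_mem_nhdsWithin, h1] with a h2 h3 using ⟨h2, h3⟩
  refine intervalIntegral.tendsto_integral_filter_of_dominated_convergence (fun _ => 4) ?_ ?_ ?_ ?_
  · filter_upwards [hev] with a ha
    have hp : ∀ x, 0 < (1 - a) ^ 2 * sin x ^ 2 + 4 * a := fun x => by
      have := ha.1; positivity
    have : Continuous fun x => 2 * (1 - cos x) / √((1 - a) ^ 2 * sin x ^ 2 + 4 * a) :=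
      Continuous.div (by fun_prop) (by fun_prop) fun x => (Real.sqrt_pos.2 (hp x)).ne'
    exact this.aestronglyMeasurable
  · filter_upwards [hev] with a ha
    refine Eventually.of_forall fun x hx => ?_
    rw [uIoc_of_le (by positivity)] at hx
    have hs : 0 < sin x := sin_pos_of_pos_of_lt_pi hx.1 (by linarith [hx.2, pi_pos])
    have hc : 0 ≤ cos x := cos_nonneg_of_mem_Icc ⟨by linarith [hx.1, pi_pos], hx.2⟩
    have hc1 : 0 ≤ 1 - cos x := by linarith [cos_le_one x]
    have h1 : (1 - a) * sin x ≤ √((1 - a) ^ 2 * sin x ^ 2 + 4 * a) := by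
      refine Real.le_sqrt_of_sq_le ?_
      have := ha.1
      nlinarith
    have h2 : sin x / 2 ≤ √((1 - a) ^ 2 * sin x ^ 2 + 4 * a) := by
      refine le_trans ?_ h1
      nlinarith [ha.2]
    have h3 : 0 < √((1 - a) ^ 2 * sin x ^ 2 + 4 * a) := lt_of_lt_of_le (by positivity) h2
    rw [norm_div, norm_mul, Real.norm_of_nonneg hc1, Real.norm_of_nonneg h3.le,
      Real.norm_of_nonneg (by norm_num : (0 : ℝ) ≤ 2), div_le_iff₀ h3]
    have h4 : 1 - cos x ≤ sin x := by
      have h5 := sin_sq_add_cos_sq x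
      have h6 := sin_le_one x
      have h7 := cos_le_one x
      nlinarith
    linarith
  · exact intervalIntegrable_const
  · refine Eventually.of_forall fun x hx => ?_
    rw [uIoc_of_le (by positivity)] at hx
    have hs : 0 < sin x := sin_pos_of_pos_of_lt_pi hx.1 (by linarith [hx.2, pi_pos])
    have h1 : ContinuousAt (fun a : ℝ => 2 * (1 - cos x) / √((1 - a) ^ 2 * sin x ^ 2 + 4 * a)) 0 := by
      refine ContinuousAt.div (by fun_prop) (by fun_prop) ?_
      refine (Real.sqrt_pos.2 ?_).ne'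
      simp only [sub_zero, one_pow, one_mul, mul_zero, add_zero]
      positivity
    have h2 := h1.tendsto.mono_left (nhdsWithin_le_nhds (s := Ioi 0))
    simp only [sub_zero, one_pow, one_mul, mul_zero, add_zero] at h2
    rw [Real.sqrt_sq hs.le] at h2
    exact h2

/-- `K'(a) + log a → 2 log 2` -/
theorem tendsto_Kp :
    Tendsto (fun a : ℝ => (∫ x in (0 : ℝ)..(π / 2), 2 / √((1 - a) ^ 2 * sin x ^ 2 + 4 * a)) + log a)
      (𝓝[>] 0) (𝓝 (2 * log 2)) := by
  have h1 : Tendsto (fun a : ℝ => -log a / (1 - a) + log a) (𝓝[>] 0) (𝓝 0) := by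
    have h2 : Tendsto (fun a : ℝ => log a * a) (𝓝[>] 0) (𝓝 0) := by
      simpa only [rpow_one] using tendsto_log_mul_rpow_nhdsGT_zero zero_lt_one
    have h3 : Tendsto (fun a : ℝ => -(1 - a)⁻¹) (𝓝[>] 0) (𝓝 (-(1 - 0)⁻¹)) := by
      have : ContinuousAt (fun a : ℝ => -(1 - a)⁻¹) 0 :=
        (ContinuousAt.inv₀ (by fun_prop) (by norm_num)).neg
      exact this.tendsto.mono_left nhdsWithin_le_nhds
    have h4 := h2.mul h3
    rw [zero_mul] at h4
    refine h4.congr' ?_
    have h5 : ∀ᶠ a : ℝ in 𝓝[>] 0, a < 1 :=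
      (gt_mem_nhds one_pos).filter_mono nhdsWithin_le_nhds
    filter_upwards [h5] with a ha
    have : 1 - a ≠ 0 := by linarith
    field_simp
    ring
  have h2 := h1.add tendsto_rest
  rw [zero_add] at h2
  refine h2.congr' ?_
  have h5 : ∀ᶠ a : ℝ in 𝓝[>] 0, a < 1 :=
    (gt_mem_nhds one_pos).filter_mono nhdsWithin_le_nhds
  filter_upwards [self_mem_nhdsWithin, h5] with a h0 h1
  have h0' : 0 < a := h0
  rw [← int_main h0' h1]
  have hp : ∀ x, 0 < (1 - a) ^ 2 * sin x ^ 2 + 4 * a := fun x => by positivity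
  have e : ∫ x in (0 : ℝ)..(π / 2), 2 / √((1 - a) ^ 2 * sin x ^ 2 + 4 * a)
      = (∫ x in (0 : ℝ)..(π / 2), 2 * cos x / √((1 - a) ^ 2 * sin x ^ 2 + 4 * a))
        + ∫ x in (0 : ℝ)..(π / 2), 2 * (1 - cos x) / √((1 - a) ^ 2 * sin x ^ 2 + 4 * a) := by
    rw [← intervalIntegral.integral_add]
    · refine intervalIntegral.integral_congr fun x _ => ?_
      ring
    · exact (Continuous.div (by fun_prop) (by fun_prop)
        fun x => (Real.sqrt_pos.2 (hp x)).ne').intervalIntegrable _ _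
    · exact (Continuous.div (by fun_prop) (by fun_prop)
        fun x => (Real.sqrt_pos.2 (hp x)).ne').intervalIntegrable _ _
  rw [e]
  ring

end Vale.Agent.P030.H462
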