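import Vale.Agent.P030.H462.FhVal
import Vale.Agent.P030.H462.RAsym

/-!
# P030: the main branch at `c2`

For `-v` in the slit plane, `‖v‖ < 1` :
`F̂(1/v) = v (B(v) - (G/2) K(v) - (π/8) (K(v) (log(-v) - 2 log 2) + M(v)))`.
-/

open MeasureTheory Set Metric Filter Topology PowerSeries

namespace Vale.Agent.P030.H462

open Vale.Agent.P030.T

theorem mem_dmain_of_re {u : ℂ} (h : u.re < 1) : u ∈ dmain := by
  rw [mem_dmain]
  refine ⟨fun h1 => ?_, fun s hs hcon => ?_⟩
  · rw [h1, Complex.one_re] at h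
    exact lt_irrefl _ h
  · have h1 := congrArg Complex.re hcon
    simp at h1
    have h2 := hs.1
    have h3 := hs.2
    rcases eq_or_lt_of_le h2 with h4 | h4
    · rw [← h4] at h1
      linarith
    · nlinarith

theorem mem_dmain_of_im {u : ℂ} (h : u.im ≠ 0) : u ∈ dmain := by
  rw [mem_dmain]
  refine ⟨fun h1 => h (by rw [h1]; simp), fun s hs hcon => ?_⟩
  have h1 := congrArg Complex.im hcon
  have h2 := congrArg Complex.re hcon
  simp at h1 h2
  have h3 : u.im * (s - 1) = 0 := by linear_combination h1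
  rcases mul_eq_zero.1 h3 with h4 | h4
  · exact h h4
  · have h5 : s = 1 := by linarith
    rw [h5] at h2
    linarith

/-- `log 2` -/
noncomputable def ll : ℂ := ((Real.log 2 : ℝ) : ℂ)

/-- the difference function at `c2`, in `a = -v` -/
noncomputable def hh (a : ℂ) : ℂ := Fh (-a)⁻¹ / (-a) - Fh (-a)

theorem exists_sol_hh : ∃ h1 h2 : ℂ → ℂ, Sol (hdisc 1) (fun _ => 0) hh h1 h2 := by
  have s1 := sol_Fh.comp_inv
  have s2 := (s1.mono (Ω' := {v | v ≠ 0 ∧ v⁻¹ ∈ dmain ∧ v ∈ dmain}) fun v hv => ⟨hv.1, hv.2.1⟩).sub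
    (sol_Fh.mono fun v (hv : v ≠ 0 ∧ v⁻¹ ∈ dmain ∧ v ∈ dmain) => hv.2.2)
  have s3 := (s2.comp_neg).mono (Ω' := hdisc 1) (by
    intro a ha
    have ha0 : a ≠ 0 := hdisc_ne ha
    have hre : (-a).re < 1 := by
      rw [Complex.neg_re]; linarith [ha.2]
    have hre2 : ((-a)⁻¹).re < 1 := by
      rw [Complex.inv_re, Complex.neg_re]
      have h1 : -a.re / Complex.normSq (-a) ≤ 0 :=
        div_nonpos_of_nonpos_of_nonneg (by linarith [ha.2]) (Complex.normSq_nonneg _)
      linarith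
    exact ⟨neg_ne_zero.2 ha0, mem_dmain_of_re hre2, mem_dmain_of_re hre⟩)
  refine ⟨_, _, s3.congr_rhs fun a ha => ?_⟩
  have ha0 : a ≠ 0 := hdisc_ne ha
  have h1 : (1 + a) ≠ 0 := by
    intro hcon
    have := congrArg Complex.re hcon
    simp at this
    linarith [ha.2]
  have h3 : (1 : ℂ) - (-a)⁻¹ = (1 + a) / a := by
    rw [inv_neg]
    field_simp
    ring
  have h4 : (1 : ℂ) - -a = 1 + a := by ring
  rw [h3, h4]
  field_simp
  ring

theorem hh_real {a : ℝ} (h0 : 0 < a) (h1 : a < 1) :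
    hh a = ((Real.pi / 8 * ∫ x in (0 : ℝ)..(Real.pi / 2),
      2 / √((1 - a) ^ 2 * Real.sin x ^ 2 + 4 * a) : ℝ) : ℂ) := by
  have hp : 0 < 1 + a := by linarith
  have hpc : (1 + (a : ℂ)) ≠ 0 := by exact_mod_cast hp.ne'
  have hac : (a : ℂ) ≠ 0 := by exact_mod_cast h0.ne'
  have e1 : Fh (-(a : ℂ))⁻¹ / (-(a : ℂ))
      = ((1 / 4 * ∫ x, ((1 + a) + (-(1 - a)) * ss x)⁻¹ ∂mu2 : ℝ) : ℂ) := by
    rw [Fh]
    have e2 : ((-(a : ℂ))⁻¹ + 1) / ((-(a : ℂ))⁻¹ - 1) = ((-(-(1 - a) / (1 + a)) : ℝ) : ℂ) := by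
      push_cast
      have h3 : (-(a : ℂ))⁻¹ - 1 = -((1 + a) / a) := by
        rw [inv_neg]; field_simp; ring
      rw [h3, inv_neg]
      field_simp
      ring
    rw [e2, Ft_real hp]
    have h4 : (1 : ℂ) - (-(a : ℂ))⁻¹ = (1 + a) / a := by
      rw [inv_neg]; field_simp; ring
    rw [h4]
    push_cast
    field_simp
  have e3 : Fh (-(a : ℂ)) = ((-(1 / 4) * ∫ x, ((1 + a) + (1 - a) * ss x)⁻¹ ∂mu2 : ℝ) : ℂ) := by
    rw [Fh]
    have e2 : (-(a : ℂ) + 1) / (-(a : ℂ) - 1) = ((-((1 - a) / (1 + a)) : ℝ) : ℂ) := by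
      push_cast
      have h3 : -(a : ℂ) - 1 = -(1 + a) := by ring
      rw [h3]
      field_simp
      ring
    rw [e2, Ft_real hp]
    have h4 : (1 : ℂ) - -(a : ℂ) = 1 + a := by ring
    rw [h4]
    push_cast
    field_simp
  have hab : |1 - a| ≤ 1 + a := by rw [abs_of_pos (by linarith)]; linarith
  rw [hh, e1, e3, ← Complex.ofReal_sub]
  congr 1
  rw [dbl_int hp (by linarith) (by rw [abs_neg]; exact hab), dbl_int hp (by linarith) hab]
  have hpos : ∀ x : ℝ, 0 < (1 + a) ^ 2 - ((1 - a) * Real.sin x) ^ 2 := by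
    intro x
    have := Real.sin_sq_le_one x
    nlinarith [sq_nonneg (1 - a), sq_nonneg (Real.sin x)]
  have c1 : Continuous fun x : ℝ => (Real.pi / 2 - Real.arcsin (-(1 - a) * Real.sin x / (1 + a)))
      / √((1 + a) ^ 2 - (-(1 - a) * Real.sin x) ^ 2) := by
    refine Continuous.div (by fun_prop) (by fun_prop) fun x => (Real.sqrt_pos.2 ?_).ne'
    have := hpos x
    have e : (-(1 - a) * Real.sin x) ^ 2 = ((1 - a) * Real.sin x) ^ 2 := by ring
    rw [e]; exact this
  have c2 : Continuous fun x : ℝ => (Real.pi / 2 - Real.arcsin ((1 - a) * Real.sin x / (1 + a)))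
      / √((1 + a) ^ 2 - ((1 - a) * Real.sin x) ^ 2) :=
    Continuous.div (by fun_prop) (by fun_prop) fun x => (Real.sqrt_pos.2 (hpos x)).ne'
  have e5 : (1 / 4 * ∫ x in (0 : ℝ)..(Real.pi / 2),
        (Real.pi / 2 - Real.arcsin (-(1 - a) * Real.sin x / (1 + a)))
          / √((1 + a) ^ 2 - (-(1 - a) * Real.sin x) ^ 2))
      - -(1 / 4) * ∫ x in (0 : ℝ)..(Real.pi / 2),
        (Real.pi / 2 - Real.arcsin ((1 - a) * Real.sin x / (1 + a)))
          / √((1 + a) ^ 2 - ((1 - a) * Real.sin x) ^ 2)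
      = 1 / 4 * ((∫ x in (0 : ℝ)..(Real.pi / 2),
        (Real.pi / 2 - Real.arcsin (-(1 - a) * Real.sin x / (1 + a)))
          / √((1 + a) ^ 2 - (-(1 - a) * Real.sin x) ^ 2)) + ∫ x in (0 : ℝ)..(Real.pi / 2),
        (Real.pi / 2 - Real.arcsin ((1 - a) * Real.sin x / (1 + a)))
          / √((1 + a) ^ 2 - ((1 - a) * Real.sin x) ^ 2)) := by ring
  rw [e5, ← intervalIntegral.integral_add (c1.intervalIntegrable _ _) (c2.intervalIntegrable _ _)]
  have e6 : ∫ x in (0 : ℝ)..(Real.pi / 2), ((Real.pi / 2 - Real.arcsin (-(1 - a) * Real.sin x / (1 + a)))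
          / √((1 + a) ^ 2 - (-(1 - a) * Real.sin x) ^ 2)
        + (Real.pi / 2 - Real.arcsin ((1 - a) * Real.sin x / (1 + a)))
          / √((1 + a) ^ 2 - ((1 - a) * Real.sin x) ^ 2))
      = ∫ x in (0 : ℝ)..(Real.pi / 2), Real.pi / √((1 + a) ^ 2 - ((1 - a) * Real.sin x) ^ 2) := by
    refine intervalIntegral.integral_congr fun x _ => ?_
    have e : (-(1 - a) * Real.sin x) ^ 2 = ((1 - a) * Real.sin x) ^ 2 := by ring
    have e' : -(1 - a) * Real.sin x / (1 + a) = -((1 - a) * Real.sin x / (1 + a)) := by ring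
    rw [e, e', Real.arcsin_neg, ← add_div]
    congr 1
    ring
  rw [e6]
  have e7 : ∫ x in (0 : ℝ)..(Real.pi / 2), Real.pi / √((1 + a) ^ 2 - ((1 - a) * Real.sin x) ^ 2)
      = ∫ x in (0 : ℝ)..(Real.pi / 2), Real.pi / √((1 - a) ^ 2 * Real.sin x ^ 2 + 4 * a) := by
    have h5 := intervalIntegral.integral_comp_sub_left (a := 0) (b := Real.pi / 2)
      (fun x => Real.pi / √((1 + a) ^ 2 - ((1 - a) * Real.sin x) ^ 2)) (Real.pi / 2)
    rw [sub_zero, sub_self] at h5
    rw [← h5]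
    refine intervalIntegral.integral_congr fun x _ => ?_
    rw [Real.sin_pi_div_two_sub]
    congr 2
    have := Real.sin_sq_add_cos_sq x
    linear_combination (-(1 - a) ^ 2) * this
  rw [e7]
  have e8 : ∀ x : ℝ, Real.pi / √((1 - a) ^ 2 * Real.sin x ^ 2 + 4 * a)
      = Real.pi / 2 * (2 / √((1 - a) ^ 2 * Real.sin x ^ 2 + 4 * a)) := fun x => by ring
  simp_rw [e8]
  rw [intervalIntegral.integral_const_mul]
  ring

/-- a series vanishing at the origin times a logarithm tends to zero -/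
theorem tendsto_sub_mul_log {s : ℚ⟦X⟧} (hs : PQ s) :
    Tendsto (fun x : ℝ => (evQ s x - evQ s 0) * (Real.log x : ℂ)) (𝓝[>] 0) (𝓝 0) := by
  have hd := hd_e0 hs (z := 0) (by simp)
  have h1 : (fun h : ℂ => evQ s h - evQ s 0) =O[𝓝 0] fun h => h := by
    have := hd.isBigO_sub
    simpa using this
  have h2 : Tendsto (fun x : ℝ => (x : ℂ)) (𝓝[>] 0) (𝓝 0) := by
    have : Tendsto (fun x : ℝ => (x : ℂ)) (𝓝 0) (𝓝 ((0 : ℝ) : ℂ)) :=
      Complex.continuous_ofReal.tendsto 0
    rw [Complex.ofReal_zero] at this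
    exact this.mono_left nhdsWithin_le_nhds
  have h3 := h1.comp_tendsto h2
  have h4 : (fun x : ℝ => (evQ s x - evQ s 0) * (Real.log x : ℂ)) =O[𝓝[>] 0]
      fun x : ℝ => (x : ℂ) * (Real.log x : ℂ) := h3.mul (Asymptotics.isBigO_refl _ _)
  refine h4.trans_tendsto ?_
  have h5 : Tendsto (fun x : ℝ => Real.log x * x) (𝓝[>] 0) (𝓝 0) := by
    simpa only [Real.rpow_one] using tendsto_log_mul_rpow_nhdsGT_zero zero_lt_one
  have h6 := (Complex.continuous_ofReal.tendsto 0).comp h5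
  rw [Complex.ofReal_zero] at h6
  refine h6.congr fun x => ?_
  simp only [Function.comp_apply]
  push_cast
  ring

theorem hh_eq {a : ℂ} (ha : a ∈ hdisc 1) :
    hh a = -((Real.pi : ℂ) / 8) * (evQ serK a * (Complex.log a - 2 * ll) + evQ serM a) := by
  obtain ⟨h1, h2, hs⟩ := exists_sol_hh
  have s1 := hs.add ((sol_mm.smul ((Real.pi : ℂ) / 8)).sub
    ((sol_K.mono hdisc_sub).smul ((Real.pi : ℂ) / 4 * ll)))
  have s2 := s1.congr_rhs (σ := fun _ => 0) (fun z _ => by ring)
  have key := sol_zero s2 ?_ a ha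
  · simp only [mm] at key
    linear_combination key
  · have hev : ∀ᶠ x : ℝ in 𝓝[>] 0, 0 < x ∧ x < 1 := by
      have h1 : ∀ᶠ x : ℝ in 𝓝[>] 0, x < 1 := (gt_mem_nhds one_pos).filter_mono nhdsWithin_le_nhds
      filter_upwards [self_mem_nhdsWithin, h1] with x h2 h3 using ⟨h2, h3⟩
    have t1 := ((Complex.continuous_ofReal.tendsto _).comp tendsto_Kp).const_mul ((Real.pi : ℂ) / 8)
    have t2 := (tendsto_sub_mul_log pq_serK).const_mul ((Real.pi : ℂ) / 8)
    have t3 := (tendsto_evQ_real pq_serM).const_mul ((Real.pi : ℂ) / 8)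
    have t4 := (tendsto_evQ_real pq_serK).const_mul ((Real.pi : ℂ) / 4 * ll)
    have t5 := ((t1.add t2).add t3).sub t4
    rw [evQ_serM_zero, evQ_serK_zero] at t5
    have e0 : (Real.pi : ℂ) / 8 * ((2 * Real.log 2 : ℝ) : ℂ) + (Real.pi : ℂ) / 8 * 0
        + (Real.pi : ℂ) / 8 * 0 - (Real.pi : ℂ) / 4 * ll * 1 = 0 := by
      rw [ll]; push_cast; ring
    rw [e0] at t5
    refine t5.congr' ?_
    filter_upwards [hev] with x hx
    simp only [Function.comp_apply, mm]
    rw [hh_real hx.1 hx.2, ← Complex.ofReal_log hx.1.le]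
    push_cast
    ring

theorem evQ_even {s : ℚ⟦X⟧} (h : ∀ n, Odd n → coeff n s = 0) (z : ℂ) : evQ s (-z) = evQ s z := by
  unfold evQ ev
  refine tsum_congr fun n => ?_
  rcases Nat.even_or_odd n with hn | hn
  · rw [hn.neg_pow]
  · rw [h n hn, map_zero, zero_mul, zero_mul]

theorem serK_odd (n : ℕ) (hn : Odd n) : coeff n serK = 0 := by
  rw [serK, coeff_mk, if_neg (Nat.not_even_iff_odd.2 hn)]

theorem serM_odd (n : ℕ) (hn : Odd n) : coeff n serM = 0 := by
  rw [serM, coeff_mk, serK_odd n hn, zero_mul]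

theorem serR_odd : ∀ n : ℕ, Odd n → coeff n serR = 0 := by
  have key : ∀ n : ℕ, Odd n → cR n = 0 := by
    intro n
    induction n using Nat.strong_induction_on with
    | _ n ih =>
      intro hn
      rcases n with _ | _ | n
      · simp [cR, cRf]
      · simp [cR, cRf]
      · have hn' : Odd n := by
          rcases hn with ⟨k, hk⟩
          exact ⟨k - 1, by omega⟩
        have h1 := ih n (by omega) hn'
        have h2 := serK_odd (n + 2) hn
        have h3 := serK_odd n hn'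
        have h4 := serM_odd (n + 2) hn
        have h5 := serM_odd n hn'
        simp only [cR] at h1 ⊢
        rw [cRf]
        simp only [h1, h2, h3, h4, h5]
        ring
  intro n hn
  rw [serR, coeff_mk]
  exact key n hn

/-- the slit disc around a cusp -/
def sdisc : Set ℂ := {v | ‖v‖ < 1 ∧ -v ∈ Complex.slitPlane}

theorem isOpen_sdisc : IsOpen sdisc :=
  (isOpen_lt continuous_norm continuous_const).inter
    (Complex.isOpen_slitPlane.preimage continuous_neg)

theorem starConvex_sdisc : StarConvex ℝ (-(1 / 2) : ℂ) sdisc := by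
  intro v hv a b ha hb hab
  refine ⟨?_, ?_⟩
  · have h1 : ‖a • (-(1 / 2) : ℂ) + b • v‖ ≤ a * (1 / 2) + b * ‖v‖ := by
      refine (norm_add_le _ _).trans ?_
      rw [norm_smul, norm_smul, Real.norm_of_nonneg ha, Real.norm_of_nonneg hb]
      norm_num
    rcases eq_or_lt_of_le hb with h | h
    · rw [← h] at hab h1
      have ha1 : a = 1 := by linarith
      rw [ha1] at h1
      refine lt_of_le_of_lt ?_ (by norm_num : (1 / 2 : ℝ) < 1)
      rw [← h, ha1]
      linarith
    · have h2 : b * ‖v‖ < b := by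
        have := mul_lt_mul_of_pos_left hv.1 h
        linarith
      linarith
  · have h3 := hv.2
    rw [Complex.mem_slitPlane_iff] at h3 ⊢
    simp only [Complex.neg_re, Complex.neg_im, Complex.add_re, Complex.add_im, Complex.real_smul,
      Complex.mul_re, Complex.mul_im, Complex.ofReal_re, Complex.ofReal_im, zero_mul, sub_zero,
      add_zero] at h3 ⊢
    norm_num
    rcases eq_or_lt_of_le hb with h | h
    · left
      rw [← h] at hab ⊢
      linarith
    · rcases h3 with h3 | h3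
      · left
        nlinarith
      · right
        refine ⟨h.ne', fun h4 => h3 (by rw [h4, neg_zero])⟩

theorem isPreconnected_sdisc : IsPreconnected sdisc := by
  have h0 : (-(1 / 2) : ℂ) ∈ sdisc := by
    refine ⟨by norm_num, ?_⟩
    rw [neg_neg]
    left
    norm_num
  exact (StarConvex.isPathConnected starConvex_sdisc h0).isConnected.isPreconnected

theorem sdisc_ne {v : ℂ} (hv : v ∈ sdisc) : v ≠ 0 := by
  rintro rfl
  have := hv.2
  rw [neg_zero] at this
  exact Complex.slitPlane_ne_zero this rfl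

theorem inv_mem_dmain {v : ℂ} (hv : -v ∈ Complex.slitPlane) : v⁻¹ ∈ dmain := by
  rw [Complex.mem_slitPlane_iff] at hv
  rcases hv with h | h
  · apply mem_dmain_of_re
    rw [Complex.inv_re]
    rw [Complex.neg_re] at h
    have : v.re / Complex.normSq v ≤ 0 :=
      div_nonpos_of_nonpos_of_nonneg (by linarith) (Complex.normSq_nonneg _)
    linarith
  · apply mem_dmain_of_im
    rw [Complex.neg_im] at h
    rw [Complex.inv_im]
    have h0 : v ≠ 0 := by
      rintro rfl
      simp at h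
    have h1 : Complex.normSq v ≠ 0 := Complex.normSq_eq_zero.not.2 h0
    exact div_ne_zero h h1

theorem isOpen_dmain : IsOpen dmain := by
  have h : dmain = {u : ℂ | u ≠ 1} ∩ (fun u : ℂ => (u + 1) / (u - 1)) ⁻¹' cut1 := rfl
  rw [h]
  refine ContinuousOn.isOpen_inter_preimage ?_ isOpen_ne isOpen_cut1
  exact ContinuousOn.div (by fun_prop) (by fun_prop) fun u hu => sub_ne_zero.2 hu

theorem differentiableOn_Fh : DifferentiableOn ℂ Fh dmain := fun u hu =>
  (sol_Fh.d0 u hu).differentiableAt.differentiableWithinAt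

/-- **the expansion at `c2`** -/
theorem Fh_eq_c2 {v : ℂ} (hv : ‖v‖ < 1) (hs : -v ∈ Complex.slitPlane) :
    Fh v⁻¹ = v * (evQ serB v - ((Gc / 2 : ℝ) : ℂ) * evQ serK v
      - (Real.pi : ℂ) / 8 * (evQ serK v * (Complex.log (-v) - 2 * ll) + evQ serM v)) := by
  have a1 : AnalyticOnNhd ℂ (fun v : ℂ => Fh v⁻¹) sdisc := by
    refine DifferentiableOn.analyticOnNhd (fun v hv => ?_) isOpen_sdisc
    have h1 := (differentiableOn_Fh.differentiableAt (isOpen_dmain.mem_nhds (inv_mem_dmain hv.2)))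
    exact (h1.comp v (differentiableAt_inv (sdisc_ne hv))).differentiableWithinAt
  have dQ : ∀ {s : ℚ⟦X⟧}, PQ s → DifferentiableOn ℂ (evQ s) sdisc := fun hs v hv =>
    (hasDerivAt_ev hs hv.1).differentiableAt.differentiableWithinAt
  have a2 : AnalyticOnNhd ℂ (fun v : ℂ => v * (evQ serB v - ((Gc / 2 : ℝ) : ℂ) * evQ serK v
      - (Real.pi : ℂ) / 8 * (evQ serK v * (Complex.log (-v) - 2 * ll) + evQ serM v))) sdisc := by
    refine DifferentiableOn.analyticOnNhd ?_ isOpen_sdisc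
    have dl : DifferentiableOn ℂ (fun v : ℂ => Complex.log (-v)) sdisc := fun v hv =>
      (differentiableAt_neg_iff.2 differentiableAt_id |>.clog hv.2).differentiableWithinAt
    exact differentiableOn_id.mul (((dQ pq_serB).sub ((dQ pq_serK).const_mul _)).sub
      ((((dQ pq_serK).mul (dl.sub_const _)).add (dQ pq_serM)).const_mul _))
  have h0 : (-(1 / 2) : ℂ) ∈ sdisc := by
    refine ⟨by norm_num, ?_⟩
    rw [neg_neg]
    left
    norm_num
  refine a1.eqOn_of_preconnected_of_eventuallyEq a2 isPreconnected_sdisc h0 ?_ ⟨hv, hs⟩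
  have hU : {v : ℂ | -v ∈ hdisc 1} ∈ 𝓝 (-(1 / 2) : ℂ) := by
    refine ((isOpen_hdisc 1).preimage continuous_neg).mem_nhds ?_
    change -(-(1 / 2) : ℂ) ∈ hdisc 1
    rw [neg_neg]
    constructor <;> norm_num
  filter_upwards [hU] with w hw
  have hw0 : w ≠ 0 := by
    rintro rfl
    have := hdisc_ne hw
    simp at this
  have hw1 : ‖w‖ < 1 := by
    have := hw.1
    rwa [norm_neg] at this
  have h1 := hh_eq hw
  rw [hh, neg_neg] at h1
  have h2 := Fh_eq_c0 hw1
  have eK : evQ serK (-w) = evQ serK w := evQ_even serK_odd w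
  have eM : evQ serM (-w) = evQ serM w := evQ_even serM_odd w
  rw [eK, eM] at h1
  have h3 : Fh w⁻¹ = w * (Fh w⁻¹ / w) := by field_simp
  rw [h3]
  congr 1
  linear_combination h1 + h2

end Vale.Agent.P030.H462
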