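import Mathlib

/-!
# P030: real integrals for the constants at the cusps
-/

open MeasureTheory Set Filter Topology intervalIntegral

namespace Vale.Agent.P030.H462

open Real

/-- `∫ dβ / (p + q sin β)` -/
theorem int_inv_sin {p q : ℝ} (h : |q| < p) :
    IntervalIntegrable (fun x => (p + q * sin x)⁻¹) volume 0 (π / 2) ∧
    ∫ x in (0 : ℝ)..(π / 2), (p + q * sin x)⁻¹ = (π / 2 - arcsin (q / p)) / √(p ^ 2 - q ^ 2) := by
  obtain ⟨hq1, hq2⟩ := abs_lt.1 h
  have hp : 0 < p := (abs_nonneg q).trans_lt h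
  have hpos : ∀ x, 0 < p + q * sin x := by
    intro x
    have h1 := sin_le_one x
    have h2 := neg_one_le_sin x
    have h3 : |q * sin x| ≤ |q| := by
      rw [abs_mul]
      exact mul_le_of_le_one_right (abs_nonneg _) (abs_sin_le_one x)
    have h4 := neg_abs_le (q * sin x)
    linarith
  have hd : 0 < p ^ 2 - q ^ 2 := by nlinarith
  have hcont : Continuous fun x => (p + q * sin x)⁻¹ :=
    (continuous_const.add (continuous_const.mul continuous_sin)).inv₀ fun x => (hpos x).ne'
  refine ⟨hcont.intervalIntegrable _ _, ?_⟩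
  set r := √(p ^ 2 - q ^ 2) with hr
  have hr0 : 0 < r := Real.sqrt_pos.2 hd
  have hr2 : r ^ 2 = p ^ 2 - q ^ 2 := Real.sq_sqrt hd.le
  have key : ∫ x in (0 : ℝ)..(π / 2), (p + q * sin x)⁻¹
      = arcsin ((q + p * sin (π / 2)) / (p + q * sin (π / 2))) / r
        - arcsin ((q + p * sin 0) / (p + q * sin 0)) / r := by
    refine integral_eq_sub_of_hasDerivAt_of_le (a := 0) (b := π / 2)
      (f := fun x => arcsin ((q + p * sin x) / (p + q * sin x)) / r) (by positivity) ?_ ?_
      (hcont.intervalIntegrable _ _)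
    · refine (Continuous.div_const (continuous_arcsin.comp ?_) r).continuousOn
      exact (continuous_const.add (continuous_const.mul continuous_sin)).div
        (continuous_const.add (continuous_const.mul continuous_sin)) fun x => (hpos x).ne'
    · intro x hx
      have hcos : 0 < cos x := cos_pos_of_mem_Ioo ⟨by linarith [hx.1, pi_pos], hx.2⟩
      have h0 := hpos x
      have h1 : HasDerivAt (fun x => (q + p * sin x) / (p + q * sin x))
          (((p * cos x) * (p + q * sin x) - (q + p * sin x) * (q * cos x)) / (p + q * sin x) ^ 2) x :=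
        (((hasDerivAt_sin x).const_mul p).const_add q).div
          (((hasDerivAt_sin x).const_mul q).const_add p) h0.ne'
      have hs : sin x ^ 2 + cos x ^ 2 = 1 := sin_sq_add_cos_sq x
      have h2 : 1 - ((q + p * sin x) / (p + q * sin x)) ^ 2 = (r * cos x / (p + q * sin x)) ^ 2 := by
        rw [div_pow, div_pow, mul_pow, hr2]
        field_simp
        linear_combination (p ^ 2 - q ^ 2) * (-hs)
      have h3 : (r * cos x / (p + q * sin x)) ^ 2 > 0 := by positivity
      have hne1 : (q + p * sin x) / (p + q * sin x) ≠ -1 := by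
        intro hcon
        rw [hcon] at h2
        norm_num at h2
        rw [← h2] at h3
        exact lt_irrefl _ h3
      have hne2 : (q + p * sin x) / (p + q * sin x) ≠ 1 := by
        intro hcon
        rw [hcon] at h2
        norm_num at h2
        rw [← h2] at h3
        exact lt_irrefl _ h3
      have h4 := ((hasDerivAt_arcsin hne1 hne2).comp x h1).div_const r
      refine h4.congr_deriv ?_
      rw [h2, Real.sqrt_sq (by positivity)]
      field_simp
      linear_combination (-1) * hr2
  rw [key, sin_pi_div_two, sin_zero, mul_one, mul_one, mul_zero, mul_zero, add_zero, add_zero,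
    add_comm q p, div_self (by linarith : p + q ≠ 0), arcsin_one]
  ring

/-- `∫ arctan t / t = G` -/
theorem int_arctan_div : ∫ t in (0 : ℝ)..1, arctan t / t
    = ∑' j : ℕ, (-1 : ℝ) ^ j / (2 * (j : ℝ) + 1) ^ 2 := by
  rw [intervalIntegral.integral_of_le zero_le_one]
  set ν : Measure ℝ := volume.restrict (Ioc (0 : ℝ) 1) with hν
  have hint : ∀ n : ℕ, Integrable (fun t : ℝ => (-1 : ℝ) ^ n * t ^ (2 * n) / (2 * (n : ℝ) + 1)) ν := by
    intro n
    have : Continuous fun t : ℝ => (-1 : ℝ) ^ n * t ^ (2 * n) / (2 * (n : ℝ) + 1) := by fun_prop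
    exact (this.integrableOn_Icc (a := 0) (b := 1)).mono_set Ioc_subset_Icc_self
  have hpow : ∀ n : ℕ, ∫ t, t ^ (2 * n) ∂ν = 1 / (2 * (n : ℝ) + 1) := by
    intro n
    rw [hν, ← intervalIntegral.integral_of_le zero_le_one, integral_pow]
    simp
  have hval : ∀ n : ℕ, ∫ t, (-1 : ℝ) ^ n * t ^ (2 * n) / (2 * (n : ℝ) + 1) ∂ν
      = (-1 : ℝ) ^ n / (2 * (n : ℝ) + 1) ^ 2 := by
    intro n
    rw [MeasureTheory.integral_div, MeasureTheory.integral_const_mul, hpow]
    field_simp
  have hnorm : ∀ n : ℕ, ∫ t, ‖(-1 : ℝ) ^ n * t ^ (2 * n) / (2 * (n : ℝ) + 1)‖ ∂ν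
      = 1 / (2 * (n : ℝ) + 1) ^ 2 := by
    intro n
    have h1 : ∀ t : ℝ, ‖(-1 : ℝ) ^ n * t ^ (2 * n) / (2 * (n : ℝ) + 1)‖
        = t ^ (2 * n) / (2 * (n : ℝ) + 1) := by
      intro t
      have h2 : (0 : ℝ) ≤ t ^ (2 * n) := by rw [pow_mul]; positivity
      rw [norm_div, norm_mul, norm_pow, norm_neg, norm_one, one_pow, one_mul,
        Real.norm_of_nonneg h2, Real.norm_of_nonneg (by positivity)]
    simp_rw [h1]
    rw [MeasureTheory.integral_div, hpow]
    field_simp
  have hsum : Summable fun n : ℕ => ∫ t, ‖(-1 : ℝ) ^ n * t ^ (2 * n) / (2 * (n : ℝ) + 1)‖ ∂ν := by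
    simp_rw [hnorm]
    have h1 : Summable fun n : ℕ => 1 / ((n : ℝ) + 1) ^ 2 := by
      have := (summable_nat_add_iff 1).2 (Real.summable_one_div_nat_pow.2 (by norm_num : 1 < 2))
      simpa using this
    refine Summable.of_nonneg_of_le (fun n => by positivity) (fun n => ?_) h1
    refine one_div_le_one_div_of_le (by positivity) ?_
    have hn : (0 : ℝ) ≤ n := Nat.cast_nonneg n
    nlinarith
  have key := MeasureTheory.hasSum_integral_of_summable_integral_norm hint hsum
  simp_rw [hval] at key
  have h2 : ∫ t, arctan t / t ∂ν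
      = ∫ t, ∑' n : ℕ, (-1 : ℝ) ^ n * t ^ (2 * n) / (2 * (n : ℝ) + 1) ∂ν := by
    refine MeasureTheory.integral_congr_ae ?_
    have h3 : ∀ᵐ t ∂ν, t ∈ Ioc (0 : ℝ) 1 := ae_restrict_mem measurableSet_Ioc
    have h4 : ∀ᵐ t ∂ν, t ≠ 1 := by
      have : ∀ᵐ t : ℝ, t ≠ 1 := by
        rw [ae_iff]; simp
      exact ae_restrict_of_ae this
    filter_upwards [h3, h4] with t ht ht1
    have h5 : ‖t‖ < 1 := by
      rw [Real.norm_of_nonneg ht.1.le]
      exact lt_of_le_of_ne ht.2 ht1
    have h6 := (Real.hasSum_arctan h5).div_const t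
    rw [← h6.tsum_eq]
    refine tsum_congr fun n => ?_
    have h7 : t ≠ 0 := ht.1.ne'
    push_cast
    rw [pow_succ]
    field_simp
  rw [h2, key.tsum_eq]

/-- `∫ (π/2 - α) / cos α = 2 G` -/
theorem int_two_G : ∫ x in (0 : ℝ)..(π / 2), (π / 2 - x) / cos x
    = 2 * ∑' j : ℕ, (-1 : ℝ) ^ j / (2 * (j : ℝ) + 1) ^ 2 := by
  rw [← int_arctan_div]
  set f : ℝ → ℝ := fun t => π / 2 - 2 * arctan t with hf
  set f' : ℝ → ℝ := fun t => -2 / (1 + t ^ 2) with hf'
  set g : ℝ → ℝ := fun x => (π / 2 - x) / cos x with hg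
  have hfd : ∀ t, HasDerivAt f (f' t) t := by
    intro t
    have := ((hasDerivAt_arctan t).const_mul 2).const_sub (π / 2)
    refine this.congr_deriv ?_
    simp only [hf']
    ring
  have hfc : Continuous f := continuous_iff_continuousAt.2 fun t => (hfd t).continuousAt
  have hmem : ∀ t ∈ Icc (0 : ℝ) 1, f t ∈ Icc 0 (π / 2) := by
    intro t ht
    have h1 : 0 ≤ arctan t := arctan_nonneg.2 ht.1
    have h2 : arctan t ≤ π / 4 := by
      rw [← arctan_one]; exact arctan_strictMono.monotone ht.2
    constructor <;> simp only [hf] <;> linarith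
  have hbd : ∀ x ∈ Icc 0 (π / 2), |g x| ≤ π / 2 := by
    intro x hx
    have h0 : 0 ≤ π / 2 - x := by linarith [hx.2]
    have h1 : 2 / π * (π / 2 - x) ≤ sin (π / 2 - x) := mul_le_sin h0 (by linarith [hx.1])
    rw [sin_pi_div_two_sub] at h1
    have hpi := pi_pos
    rcases eq_or_lt_of_le h0 with h | h
    · simp only [hg, ← h, zero_div, abs_zero]; positivity
    · have h2 : 0 < cos x := lt_of_lt_of_le (by positivity) h1
      simp only [hg]
      rw [abs_div, abs_of_pos h, abs_of_pos h2, div_le_iff₀ h2]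
      have h3 := mul_le_mul_of_nonneg_left h1 (by positivity : (0 : ℝ) ≤ π / 2)
      calc π / 2 - x = π / 2 * (2 / π * (π / 2 - x)) := by field_simp
        _ ≤ π / 2 * cos x := h3
  have hgm : Measurable g := by
    simp only [hg]; fun_prop
  have hgi : IntegrableOn g (Icc 0 (π / 2)) := by
    refine Measure.integrableOn_of_bounded (M := π / 2) (by simp) hgm.aestronglyMeasurable ?_
    filter_upwards [ae_restrict_mem measurableSet_Icc] with x hx
    rw [Real.norm_eq_abs]; exact hbd x hx
  have key := intervalIntegral.integral_comp_mul_deriv''' (a := 0) (b := 1) (f := f) (f' := f')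
    (g := g) hfc.continuousOn (fun x _ => (hfd x).hasDerivWithinAt) ?_ ?_ ?_
  · have h1 : f 0 = π / 2 := by simp [hf]
    have h2 : f 1 = 0 := by simp only [hf, arctan_one]; ring
    rw [h1, h2, intervalIntegral.integral_symm 0 (π / 2)] at key
    have h3 : ∫ x in (0 : ℝ)..1, (g ∘ f) x * f' x = ∫ x in (0 : ℝ)..1, -2 * (arctan x / x) := by
      refine intervalIntegral.integral_congr_ae (Eventually.of_forall fun x hx => ?_)
      rw [uIoc_of_le zero_le_one] at hx
      have hx0 : x ≠ 0 := hx.1.ne'
      simp only [Function.comp_apply, hg, hf, hf']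
      have h4 : cos (π / 2 - 2 * arctan x) = 2 * x / (1 + x ^ 2) := by
        rw [cos_pi_div_two_sub, sin_two_mul, sin_arctan, cos_arctan]
        have h5 : √(1 + x ^ 2) ^ 2 = 1 + x ^ 2 := Real.sq_sqrt (by positivity)
        have h6 : √(1 + x ^ 2) ≠ 0 := by positivity
        field_simp
        rw [h5]
      rw [h4]
      have h7 : (1 + x ^ 2) ≠ 0 := by positivity
      field_simp
      ring
    rw [h3, intervalIntegral.integral_const_mul] at key
    linarith
  · refine ContinuousOn.div (by fun_prop) (by fun_prop) ?_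
    rintro _ ⟨t, ht, rfl⟩
    rw [min_eq_left zero_le_one, max_eq_right zero_le_one] at ht
    have h1 : 0 < arctan t := arctan_pos.2 ht.1
    have h2 : arctan t < π / 4 := by rw [← arctan_one]; exact arctan_strictMono ht.2
    have h3 : 0 < cos (f t) := cos_pos_of_mem_Ioo ⟨by simp only [hf]; linarith, by simp only [hf]; linarith⟩
    exact h3.ne'
  · refine hgi.mono_set ?_
    rintro _ ⟨t, ht, rfl⟩
    rw [uIcc_of_le zero_le_one] at ht
    exact hmem t ht
  · rw [uIcc_of_le zero_le_one]
    refine Measure.integrableOn_of_bounded (M := π / 2 * 2) (by simp) ?_ ?_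
    · refine Measurable.aestronglyMeasurable ?_
      refine (hgm.comp hfc.measurable).mul ?_
      simp only [hf']; fun_prop
    · filter_upwards [ae_restrict_mem measurableSet_Icc] with x hx
      rw [norm_mul]
      have h1 := hbd (f x) (hmem x hx)
      refine mul_le_mul h1 ?_ (norm_nonneg _) (by positivity)
      simp only [hf', norm_div, norm_neg, Real.norm_eq_abs]
      rw [abs_of_pos (by positivity : (0 : ℝ) < 1 + x ^ 2), div_le_iff₀ (by positivity)]
      norm_num
      nlinarith [sq_nonneg x]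

end Vale.Agent.P030.H462
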