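import Vale.Agent.P030.H462.FhDef
import Vale.Agent.P030.H462.RInt

/-!
# P030: the value `F̂(0) = -G/2` and the double integrals with real parameters
-/

open MeasureTheory Set Metric Filter Topology

namespace Vale.Agent.P030.H462

open Vale.Agent.P030.T Real

theorem kernel_pos {p q : ℝ} {s : ℝ} (hs : s ∈ Icc (0 : ℝ) 1) :
    min p (p + q) ≤ p + q * s := by
  rcases le_total 0 q with h | h
  · refine (min_le_left _ _).trans ?_
    have := mul_nonneg h hs.1
    linarith
  · refine (min_le_right _ _).trans ?_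
    have h1 := mul_le_mul_of_nonpos_left hs.2 h
    linarith

theorem integrable_pq {p q : ℝ} (hp : 0 < p) (hq : 0 < p + q) :
    Integrable (fun x => (p + q * ss x)⁻¹) mu2 := by
  have hm : 0 < min p (p + q) := lt_min hp hq
  refine Integrable.mono' (integrable_const (min p (p + q))⁻¹) ?_ ?_
  · have := meas_ss
    exact (by fun_prop : Measurable fun x => (p + q * ss x)⁻¹).aestronglyMeasurable
  · filter_upwards [ae_ss] with x hx
    have h1 := kernel_pos (p := p) (q := q) hx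
    rw [norm_inv, Real.norm_of_nonneg (hm.le.trans h1)]
    exact inv_anti₀ hm h1

/-- the inner integral done -/
theorem dbl_int {p q : ℝ} (hp : 0 < p) (hq : 0 < p + q) (hq' : |q| ≤ p) :
    ∫ x, (p + q * ss x)⁻¹ ∂mu2
      = ∫ x in (0 : ℝ)..(π / 2), (π / 2 - arcsin (q * sin x / p)) / √(p ^ 2 - (q * sin x) ^ 2) := by
  have hi := integrable_pq hp hq
  rw [mu2] at hi ⊢
  rw [integral_prod _ hi, intervalIntegral.integral_of_le (by positivity), mu1]
  refine integral_congr_ae ?_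
  have h1 : ∀ᵐ x ∂(volume.restrict (Ioc 0 (π / 2))), x ∈ Ioc 0 (π / 2) :=
    ae_restrict_mem measurableSet_Ioc
  have h2 : ∀ᵐ x ∂(volume.restrict (Ioc 0 (π / 2))), x ≠ π / 2 := by
    have : ∀ᵐ t : ℝ, t ≠ π / 2 := by
      rw [ae_iff]; simp
    exact ae_restrict_of_ae this
  filter_upwards [h1, h2] with x hx hx2
  have hx3 : x < π / 2 := lt_of_le_of_ne hx.2 hx2
  have hs1 : |sin x| < 1 := by
    have h3 : 0 < sin x := sin_pos_of_pos_of_lt_pi hx.1 (by linarith [pi_pos])
    rw [abs_of_pos h3]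
    have h4 : sin x < sin (π / 2) :=
      sin_lt_sin_of_lt_of_le_pi_div_two (by linarith [hx.1, pi_pos]) le_rfl hx3
    rwa [sin_pi_div_two] at h4
  have h5 : |q * sin x| < p := by
    rw [abs_mul]
    rcases eq_or_lt_of_le (abs_nonneg q) with h | h
    · rw [← h, zero_mul]; exact hp
    · calc |q| * |sin x| < |q| * 1 := mul_lt_mul_of_pos_left hs1 h
        _ ≤ p := by rw [mul_one]; exact hq'
  have h6 := (int_inv_sin h5).2
  rw [← h6, intervalIntegral.integral_of_le (by positivity)]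
  refine integral_congr_ae (Eventually.of_forall fun y => ?_)
  simp only [ss]
  rw [mul_assoc]

/-- the transform at a real point -/
theorem stiel_real {p q : ℝ} (hp : 0 < p) :
    stiel mu2 ss ((-(q / p) : ℝ) : ℂ) = ((p * ∫ x, (p + q * ss x)⁻¹ ∂mu2 : ℝ) : ℂ) := by
  unfold stiel
  have hpc : (p : ℂ) ≠ 0 := by exact_mod_cast hp.ne'
  rw [Complex.ofReal_mul, ← integral_complex_ofReal, ← integral_const_mul]
  refine integral_congr_ae (Eventually.of_forall fun x => ?_)
  simp only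
  push_cast
  have h1 : 1 - -((q : ℂ) / p) * (ss x : ℂ) = (p + q * ss x) / p := by
    field_simp
    ring
  rw [h1, inv_div, div_eq_mul_inv]

theorem Ft_real {p q : ℝ} (hp : 0 < p) :
    Ft ((-(q / p) : ℝ) : ℂ) = ((-(1 / 4) * p * ∫ x, (p + q * ss x)⁻¹ ∂mu2 : ℝ) : ℂ) := by
  rw [Ft, stiel_real hp]
  push_cast
  ring

theorem Fh_zero : Fh 0 = -((Gc / 2 : ℝ) : ℂ) := by
  have h1 : Fh 0 = Ft ((-((1 : ℝ) / 1) : ℝ) : ℂ) := by
    rw [Fh]
    norm_num
  rw [h1, Ft_real one_pos, dbl_int one_pos (by norm_num) (by norm_num)]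
  have h2 : ∫ x in (0 : ℝ)..(π / 2), (π / 2 - arcsin (1 * sin x / 1)) / √(1 ^ 2 - (1 * sin x) ^ 2)
      = 2 * Gc := by
    rw [Gc, ← int_two_G]
    refine intervalIntegral.integral_congr fun x hx => ?_
    rw [uIcc_of_le (by positivity)] at hx
    simp only [one_mul, div_one, one_pow]
    have h3 : 0 ≤ cos x := cos_nonneg_of_mem_Icc ⟨by linarith [hx.1, pi_pos], hx.2⟩
    have h4 : 1 - sin x ^ 2 = cos x ^ 2 := by
      have := sin_sq_add_cos_sq x
      linarith
    rw [h4, Real.sqrt_sq h3, arcsin_sin (by linarith [hx.1, pi_pos]) hx.2]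
  rw [h2]
  push_cast
  ring

/-- **the expansion at `c0`** -/
theorem Fh_eq_c0 {u : ℂ} (hu : ‖u‖ < 1) :
    Fh u = evQ serB u - ((Gc / 2 : ℝ) : ℂ) * evQ serK u := by
  rw [Fh_eq_aux hu, Fh_zero]
  ring

end Vale.Agent.P030.H462
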