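import Vale.Agent.P030.H462.Ode

/-!
# P030, row CONT: continuation of solutions to a disc with one or two filled singular points

`exists_glue`: a linear equation on `ball 0 R` with singular points `0` and `ζ ≤ 0` only (`ζ = 0`
allowed), and a solution which is holomorphic on a tube round the segment `[ζ, 0]`, has a
holomorphic continuation to the whole disc.
-/

open Set Filter Topology Metric

noncomputable section

namespace Vale.Agent.P030.H462

variable {E : Type*} [NormedAddCommGroup E] [NormedSpace ℂ E]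

/-- gluing of compatible functions -/
theorem exists_glue_fun {ι α β : Type*} [Nonempty β] (U : ι → Set α) (g : ι → α → β)
    (hg : ∀ i j, ∀ z ∈ U i, z ∈ U j → g i z = g j z) :
    ∃ f : α → β, ∀ i, ∀ z ∈ U i, f z = g i z := by
  classical
  refine ⟨fun z => if h : ∃ i, z ∈ U i then g h.choose z else Classical.arbitrary β,
    fun i z hz => ?_⟩
  have h : ∃ i, z ∈ U i := ⟨i, hz⟩
  simp only [dif_pos h]
  exact hg _ _ z h.choose_spec hz

/-- the tube round the segment `[ζ, 0]` -/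
def tube (R ζ ε : ℝ) : Set ℂ :=
  ball 0 R ∩ ({z | ζ - ε < z.re} ∩ ({z | z.re < ε} ∩ ({z | -ε < z.im} ∩ {z | z.im < ε})))

theorem isOpen_tube {R ζ ε : ℝ} : IsOpen (tube R ζ ε) := by
  refine isOpen_ball.inter (((isOpen_lt continuous_const Complex.continuous_re)).inter
    ((isOpen_lt Complex.continuous_re continuous_const).inter
    ((isOpen_lt continuous_const Complex.continuous_im).inter
    (isOpen_lt Complex.continuous_im continuous_const))))

theorem convex_re_gt (a : ℝ) : Convex ℝ {z : ℂ | a < z.re} :=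
  convex_halfSpace_gt Complex.reLm.isLinear a
theorem convex_re_lt (a : ℝ) : Convex ℝ {z : ℂ | z.re < a} :=
  convex_halfSpace_lt Complex.reLm.isLinear a
theorem convex_im_gt (a : ℝ) : Convex ℝ {z : ℂ | a < z.im} :=
  convex_halfSpace_gt Complex.imLm.isLinear a
theorem convex_im_lt (a : ℝ) : Convex ℝ {z : ℂ | z.im < a} :=
  convex_halfSpace_lt Complex.imLm.isLinear a

theorem convex_tube {R ζ ε : ℝ} : Convex ℝ (tube R ζ ε) :=
  (convex_ball _ _).inter ((convex_re_gt _).inter ((convex_re_lt _).inter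
    ((convex_im_gt _).inter (convex_im_lt _))))

/-- the four convex pieces -/
def piece (R ζ : ℝ) : Fin 4 → Set ℂ
  | 0 => ball 0 R ∩ {z | 0 < z.re}
  | 1 => ball 0 R ∩ {z | z.re < ζ}
  | 2 => ball 0 R ∩ {z | 0 < z.im}
  | 3 => ball 0 R ∩ {z | z.im < 0}

theorem isOpen_piece {R ζ : ℝ} (i : Fin 4) : IsOpen (piece R ζ i) := by
  fin_cases i
  · exact isOpen_ball.inter (isOpen_lt continuous_const Complex.continuous_re)
  · exact isOpen_ball.inter (isOpen_lt Complex.continuous_re continuous_const)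
  · exact isOpen_ball.inter (isOpen_lt continuous_const Complex.continuous_im)
  · exact isOpen_ball.inter (isOpen_lt Complex.continuous_im continuous_const)

theorem convex_piece {R ζ : ℝ} (i : Fin 4) : Convex ℝ (piece R ζ i) := by
  fin_cases i
  · exact (convex_ball _ _).inter (convex_re_gt _)
  · exact (convex_ball _ _).inter (convex_re_lt _)
  · exact (convex_ball _ _).inter (convex_im_gt _)
  · exact (convex_ball _ _).inter (convex_im_lt _)

theorem piece_subset_ball {R ζ : ℝ} (i : Fin 4) : piece R ζ i ⊆ ball 0 R := by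
  fin_cases i <;> exact inter_subset_left

theorem piece_sub {R ζ : ℝ} (hζ0 : ζ ≤ 0) (i : Fin 4) :
    piece R ζ i ⊆ ball 0 R \ {0, (ζ : ℂ)} := by
  intro z hz
  refine ⟨piece_subset_ball i hz, ?_⟩
  rintro (rfl | h)
  · fin_cases i
    · have h2 : (0:ℝ) < (0:ℂ).re := hz.2
      simp at h2
    · have h2 : (0:ℂ).re < ζ := hz.2
      simp only [Complex.zero_re] at h2
      linarith
    · have h2 : (0:ℝ) < (0:ℂ).im := hz.2
      simp at h2
    · have h2 : (0:ℂ).im < 0 := hz.2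
      simp at h2
  · rw [mem_singleton_iff] at h
    subst h
    fin_cases i
    · have h2 : (0:ℝ) < (ζ:ℂ).re := hz.2
      simp only [Complex.ofReal_re] at h2
      linarith
    · have h2 : (ζ:ℂ).re < ζ := hz.2
      simp at h2
    · have h2 : (0:ℝ) < (ζ:ℂ).im := hz.2
      simp at h2
    · have h2 : (ζ:ℂ).im < 0 := hz.2
      simp at h2

/-- points near the origin or near `ζ` -/
theorem mem_ball_of_bd {R : ℝ} {z : ℂ} (h : |z.re| + |z.im| < R) : z ∈ ball (0:ℂ) R := by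
  rw [mem_ball_zero_iff]
  exact (Complex.norm_le_abs_re_add_abs_im z).trans_lt h

/-- two pieces with a common point have a common point in the tube -/
theorem piece_inter {R ζ ε : ℝ} (hζ : -R < ζ) (hζ0 : ζ ≤ 0) (hε : 0 < ε) (i j : Fin 4)
    {z : ℂ} (hi : z ∈ piece R ζ i) (hj : z ∈ piece R ζ j) :
    ∃ p, p ∈ piece R ζ i ∧ p ∈ piece R ζ j ∧ p ∈ tube R ζ ε := by
  set δ : ℝ := min ε (R + ζ) / 4 with hδ
  have hδ0 : 0 < δ := by
    have : 0 < min ε (R + ζ) := lt_min hε (by linarith)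
    positivity
  have hδε : δ < ε := by
    have : min ε (R + ζ) ≤ ε := min_le_left _ _
    linarith
  have hδR : 3 * δ < R + ζ := by
    have : min ε (R + ζ) ≤ R + ζ := min_le_right _ _
    have h2 : 0 < min ε (R + ζ) := lt_min hε (by linarith)
    linarith
  -- candidate points
  have cand : ∀ x y : ℝ, (x = δ ∨ x = ζ - δ) → (y = δ ∨ y = -δ) →
      (⟨x, y⟩ : ℂ) ∈ ball (0:ℂ) R ∧ (⟨x, y⟩ : ℂ) ∈ tube R ζ ε := by
    intro x y hx hy
    have hb : (⟨x, y⟩ : ℂ) ∈ ball (0:ℂ) R := by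
      apply mem_ball_of_bd
      have hy' : |y| = δ := by
        rcases hy with rfl | rfl
        · exact abs_of_pos hδ0
        · rw [abs_neg, abs_of_pos hδ0]
      show |x| + |y| < R
      rw [hy']
      rcases hx with rfl | rfl
      · rw [abs_of_pos hδ0]
        linarith
      · rw [abs_of_neg (by linarith)]
        linarith
    refine ⟨hb, hb, ?_, ?_, ?_, ?_⟩
    · show ζ - ε < x
      rcases hx with rfl | rfl <;> linarith
    · show x < ε
      rcases hx with rfl | rfl <;> linarith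
    · show -ε < y
      rcases hy with rfl | rfl <;> linarith
    · show y < ε
      rcases hy with rfl | rfl <;> linarith
  have c1 := cand δ δ (Or.inl rfl) (Or.inl rfl)
  have c2 := cand δ (-δ) (Or.inl rfl) (Or.inr rfl)
  have c3 := cand (ζ - δ) δ (Or.inr rfl) (Or.inl rfl)
  have c4 := cand (ζ - δ) (-δ) (Or.inr rfl) (Or.inr rfl)
  have q1 : (⟨δ, δ⟩ : ℂ) ∈ piece R ζ 0 ∧ (⟨δ, δ⟩ : ℂ) ∈ piece R ζ 2 := ⟨⟨c1.1, hδ0⟩, ⟨c1.1, hδ0⟩⟩
  have q2 : (⟨δ, -δ⟩ : ℂ) ∈ piece R ζ 0 ∧ (⟨δ, -δ⟩ : ℂ) ∈ piece R ζ 3 :=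
    ⟨⟨c2.1, hδ0⟩, ⟨c2.1, by show -δ < 0; linarith⟩⟩
  have q3 : (⟨ζ - δ, δ⟩ : ℂ) ∈ piece R ζ 1 ∧ (⟨ζ - δ, δ⟩ : ℂ) ∈ piece R ζ 2 :=
    ⟨⟨c3.1, by show ζ - δ < ζ; linarith⟩, ⟨c3.1, hδ0⟩⟩
  have q4 : (⟨ζ - δ, -δ⟩ : ℂ) ∈ piece R ζ 1 ∧ (⟨ζ - δ, -δ⟩ : ℂ) ∈ piece R ζ 3 :=
    ⟨⟨c4.1, by show ζ - δ < ζ; linarith⟩, ⟨c4.1, by show -δ < 0; linarith⟩⟩
  fin_cases i <;> fin_cases j
  · exact ⟨_, q1.1, q1.1, c1.2⟩
  · exfalso
    have h1 : 0 < z.re := hi.2
    have h2 : z.re < ζ := hj.2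
    linarith
  · exact ⟨_, q1.1, q1.2, c1.2⟩
  · exact ⟨_, q2.1, q2.2, c2.2⟩
  · exfalso
    have h1 : 0 < z.re := hj.2
    have h2 : z.re < ζ := hi.2
    linarith
  · exact ⟨_, q3.1, q3.1, c3.2⟩
  · exact ⟨_, q3.1, q3.2, c3.2⟩
  · exact ⟨_, q4.1, q4.2, c4.2⟩
  · exact ⟨_, q1.2, q1.1, c1.2⟩
  · exact ⟨_, q3.2, q3.1, c3.2⟩
  · exact ⟨_, q1.2, q1.2, c1.2⟩
  · exfalso
    have h1 : 0 < z.im := hi.2
    have h2 : z.im < 0 := hj.2
    linarith
  · exact ⟨_, q2.2, q2.1, c2.2⟩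
  · exact ⟨_, q4.2, q4.1, c4.2⟩
  · exfalso
    have h1 : 0 < z.im := hj.2
    have h2 : z.im < 0 := hi.2
    linarith
  · exact ⟨_, q2.2, q2.2, c2.2⟩

/-- every piece is non empty -/
theorem piece_nonempty {R ζ : ℝ} (hR : 0 < R) (hζ : -R < ζ) (hζ0 : ζ ≤ 0) (i : Fin 4) :
    ∃ z, z ∈ piece R ζ i := by
  fin_cases i
  · refine ⟨⟨R / 2, 0⟩, mem_ball_of_bd ?_, ?_⟩
    · show |R / 2| + |(0:ℝ)| < R
      rw [abs_zero, abs_of_pos (by positivity)]
      linarith
    · show 0 < R / 2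
      positivity
  · refine ⟨⟨(ζ - R) / 2, 0⟩, mem_ball_of_bd ?_, ?_⟩
    · show |(ζ - R) / 2| + |(0:ℝ)| < R
      rw [abs_zero, abs_of_neg (by linarith)]
      linarith
    · show (ζ - R) / 2 < ζ
      linarith
  · refine ⟨⟨0, R / 2⟩, mem_ball_of_bd ?_, ?_⟩
    · show |(0:ℝ)| + |R / 2| < R
      rw [abs_zero, abs_of_pos (by positivity)]
      linarith
    · show 0 < R / 2
      positivity
  · refine ⟨⟨0, -(R / 2)⟩, mem_ball_of_bd ?_, ?_⟩
    · show |(0:ℝ)| + |-(R / 2)| < R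
      rw [abs_zero, abs_neg, abs_of_pos (by positivity)]
      linarith
    · show -(R / 2) < 0
      have : 0 < R / 2 := by positivity
      linarith

theorem ball_cover {R ζ ε : ℝ} (hε : 0 < ε) {z : ℂ} (hz : z ∈ ball (0:ℂ) R) :
    z ∈ tube R ζ ε ∨ ∃ i, z ∈ piece R ζ i := by
  by_cases h1 : 0 < z.re
  · exact Or.inr ⟨0, hz, h1⟩
  by_cases h2 : z.re < ζ
  · exact Or.inr ⟨1, hz, h2⟩
  by_cases h3 : 0 < z.im
  · exact Or.inr ⟨2, hz, h3⟩
  by_cases h4 : z.im < 0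
  · exact Or.inr ⟨3, hz, h4⟩
  left
  refine ⟨hz, ?_, ?_, ?_, ?_⟩
  · show ζ - ε < z.re
    linarith
  · show z.re < ε
    linarith
  · show -ε < z.im
    linarith
  · show z.im < ε
    linarith

/-- **Continuation to the disc.** -/
theorem exists_glue [CompleteSpace E] {R ζ ε : ℝ} (hR : 0 < R) (hζ : -R < ζ) (hζ0 : ζ ≤ 0)
    (hε : 0 < ε) {A : ℂ → (E →L[ℂ] E)} {b : ℂ → E}
    (hA : DifferentiableOn ℂ A (ball 0 R \ {0, (ζ : ℂ)}))
    (hb : DifferentiableOn ℂ b (ball 0 R \ {0, (ζ : ℂ)})) {y : ℂ → E}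
    (hy : DifferentiableOn ℂ y (tube R ζ ε))
    (hode : ∀ z ∈ tube R ζ ε, z ≠ 0 → z ≠ (ζ : ℂ) → HasDerivAt y (A z (y z) + b z) z) :
    ∃ Y : ℂ → E, DifferentiableOn ℂ Y (ball 0 R) ∧ EqOn Y y (tube R ζ ε) ∧
      ∀ z ∈ ball (0:ℂ) R, z ≠ 0 → z ≠ (ζ : ℂ) → HasDerivAt Y (A z (Y z) + b z) z := by
  -- solutions on the pieces
  have hsol : ∀ i : Fin 4, ∃ Y : ℂ → E,
      (∀ z ∈ piece R ζ i, HasDerivAt Y (A z (Y z) + b z) z) ∧
      ∀ z ∈ piece R ζ i, z ∈ tube R ζ ε → Y z = y z := by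
    intro i
    obtain ⟨z₁, hz₁⟩ := piece_nonempty hR hζ hζ0 i
    obtain ⟨p, hp, -, hpt⟩ := piece_inter hζ hζ0 hε i i hz₁ hz₁
    have hsub := piece_sub (R := R) hζ0 i
    obtain ⟨Y, hY, hYp⟩ := exists_linear_ode (isOpen_piece i) (convex_piece i) (hA.mono hsub)
      (hb.mono hsub) hp (y p)
    refine ⟨Y, hY, fun z hz hzt => ?_⟩
    refine linear_ode_unique (Ω := piece R ζ i ∩ tube R ζ ε) ((convex_piece i).inter convex_tube)
      (A := A) (b := b) ((hA.continuousOn).mono (inter_subset_left.trans hsub)) ⟨hp, hpt⟩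
      (fun w hw => hY w hw.1) (fun w hw => ?_) hYp z ⟨hz, hzt⟩
    have hw' := (hsub hw.1).2
    exact hode w hw.2 (fun h => hw' (Or.inl h)) (fun h => hw' (Or.inr h))
  choose Y hY hYt using hsol
  -- glue
  let U : Option (Fin 4) → Set ℂ := fun o => o.elim (tube R ζ ε) (piece R ζ)
  let g : Option (Fin 4) → ℂ → E := fun o => o.elim y Y
  have hcomp : ∀ o o', ∀ z ∈ U o, z ∈ U o' → g o z = g o' z := by
    rintro (_ | i) (_ | j) z hz hz'
    · rfl
    · exact (hYt j z hz' hz).symm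
    · exact hYt i z hz hz'
    · obtain ⟨p, hpi, hpj, hpt⟩ := piece_inter hζ hζ0 hε i j hz hz'
      refine linear_ode_unique (Ω := piece R ζ i ∩ piece R ζ j)
        ((convex_piece i).inter (convex_piece j)) (A := A) (b := b)
        ((hA.continuousOn).mono (inter_subset_left.trans (piece_sub hζ0 i))) ⟨hpi, hpj⟩
        (fun w hw => hY i w hw.1) (fun w hw => hY j w hw.2) ?_ z ⟨hz, hz'⟩
      rw [hYt i p hpi hpt, hYt j p hpj hpt]
  obtain ⟨F, hF⟩ := exists_glue_fun U g hcomp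
  have hFt : ∀ z ∈ tube R ζ ε, F z = y z := fun z hz => hF none z hz
  have hFp : ∀ i, ∀ z ∈ piece R ζ i, F z = Y i z := fun i z hz => hF (some i) z hz
  have hderp : ∀ i, ∀ z ∈ piece R ζ i, HasDerivAt F (A z (F z) + b z) z := by
    intro i z hz
    rw [hFp i z hz]
    refine (hY i z hz).congr_of_eventuallyEq ?_
    filter_upwards [(isOpen_piece i).mem_nhds hz] with w hw using hFp i w hw
  refine ⟨F, fun z hz => ?_, hFt, fun z hz h0 h1 => ?_⟩
  · rcases ball_cover (ζ := ζ) hε hz with h | ⟨i, hi⟩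
    · have h1 : DifferentiableAt ℂ y z := (hy z h).differentiableAt (isOpen_tube.mem_nhds h)
      refine (h1.congr_of_eventuallyEq ?_).differentiableWithinAt
      filter_upwards [isOpen_tube.mem_nhds h] with w hw using hFt w hw
    · exact (hderp i z hi).differentiableAt.differentiableWithinAt
  · rcases ball_cover (ζ := ζ) hε hz with h | ⟨i, hi⟩
    · rw [hFt z h]
      refine (hode z h h0 h1).congr_of_eventuallyEq ?_
      filter_upwards [isOpen_tube.mem_nhds h] with w hw using hFt w hw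
    · exact hderp i z hi

end Vale.Agent.P030.H462
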