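import Vale.Agent.P030.H208.Mob
import Vale.Agent.P030.H462.TabA

/-!
# P030, route N: mutual energies of Moebius atoms

For `P = mob A B C D` and an atom `Q` whose potential is `log ‖a x - b‖ - κ` on the wall of `P`
the mutual energy is `log max (‖C b - A a‖, ‖D b - B a‖) - log max (‖C‖, ‖D‖) - κ`.
-/

open MeasureTheory Filter Topology

noncomputable section

namespace Vale.Agent.P030.H462.TA

open Vale.Agent.P030.H208

/-! ### general atoms -/

theorem cr_ge_one (P Q : Atom) {w : ℂ} {k : ℝ}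
    (h : ∀ x, x ≠ w → Real.log ‖w - x‖ + k ≤ Q.u x) : P.u w + k ≤ P.cr Q := by
  have h1 : ∀ᵐ x ∂P.ν, x ≠ w := by
    rw [ae_iff]
    simpa using P.noat w
  have h2 : ∫ x, (Real.log ‖w - x‖ + k) ∂P.ν = P.u w + k := by
    rw [integral_add (P.hint w) (integrable_const k), P.hu w]
    simp
  rw [← h2, Atom.cr]
  exact integral_mono_ae ((P.hint w).add (integrable_const k)) (Atom.integrable_u P Q)
    (h1.mono fun x hx => h x hx)

theorem cr_eq_one (P Q : Atom) {w : ℂ} {k : ℝ}
    (h : ∀ᵐ x ∂P.ν, Q.u x = Real.log ‖w - x‖ + k) : P.cr Q = P.u w + k := by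
  rw [Atom.cr, integral_congr_ae h, integral_add (P.hint w) (integrable_const k), P.hu w]
  simp

theorem cr_ge_const (P Q : Atom) {k : ℝ} (h : ∀ x, k ≤ Q.u x) : k ≤ P.cr Q := by
  have h2 : ∫ _x, k ∂P.ν = k := by simp
  rw [← h2, Atom.cr]
  exact integral_mono (integrable_const k) (Atom.integrable_u P Q) h

theorem cr_eq_const (P Q : Atom) {k : ℝ} (h : ∀ᵐ x ∂P.ν, Q.u x = k) : P.cr Q = k := by
  rw [Atom.cr, integral_congr_ae h]
  simp

theorem cr_le_const (P Q : Atom) {k : ℝ} (h : ∀ᵐ x ∂P.ν, Q.u x ≤ k) : P.cr Q ≤ k := by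
  have h2 : ∫ _x, k ∂P.ν = k := by simp
  rw [← h2, Atom.cr]
  exact integral_mono_ae (Atom.integrable_u P Q) (integrable_const k) h

/-! ### Moebius atoms -/

variable {A B C D : ℂ}

/-- the wall of a Moebius atom -/
theorem mob_supp (h : A * D - B * C ≠ 0) :
    ∀ᵐ x ∂(mob A B C D h).ν, ‖C * x - A‖ = ‖D * x - B‖ := by
  have hm : MeasurableSet {x : ℂ | ‖C * x - A‖ = ‖D * x - B‖} :=
    (isClosed_eq (by fun_prop) (by fun_prop)).measurableSet
  change ∀ᵐ x ∂(tau.map (mobX A B C D)), _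
  rw [ae_map_iff measurable_mobX.aemeasurable hm]
  filter_upwards [ae_lin_ne (CD_ne h)] with θ h1
  have e1 : C * mobX A B C D θ - A = -(A * D - B * C) * zt θ / (C + D * zt θ) := by
    rw [mobX, eq_div_iff h1, sub_mul, mul_assoc, div_mul_cancel₀ _ h1]
    ring
  have e2 : D * mobX A B C D θ - B = (A * D - B * C) / (C + D * zt θ) := by
    rw [mobX, eq_div_iff h1, sub_mul, mul_assoc, div_mul_cancel₀ _ h1]
    ring
  rw [e1, e2, norm_div, norm_div, norm_mul, norm_neg, norm_zt, mul_one]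

theorem mob_u (h : A * D - B * C ≠ 0) (z : ℂ) : (mob A B C D h).u z =
    Real.log (max ‖C * z - A‖ ‖D * z - B‖) - Real.log (max ‖C‖ ‖D‖) := rfl

/-- the value of a potential at the zero of a linear form -/
theorem u_zero (h : A * D - B * C ≠ 0) {a b : ℂ} (ha : a ≠ 0) :
    (mob A B C D h).u (b / a) + Real.log ‖a‖ =
      Real.log (max ‖C * b - A * a‖ ‖D * b - B * a‖) - Real.log (max ‖C‖ ‖D‖) := by
  have hn : 0 < ‖a‖ := norm_pos_iff.2 ha
  have e1 : C * b - A * a = (C * (b / a) - A) * a := by field_simp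
  have e2 : D * b - B * a = (D * (b / a) - B) * a := by field_simp
  have hp : 0 < max ‖C * (b / a) - A‖ ‖D * (b / a) - B‖ := (mobM_pos h).trans_le (mobM_le h _)
  rw [mob_u, e1, e2, norm_mul, norm_mul, ← max_mul_of_nonneg _ _ hn.le,
    Real.log_mul hp.ne' hn.ne']
  ring

theorem max_bracket_pos (h : A * D - B * C ≠ 0) {a b : ℂ} (hab : a ≠ 0 ∨ b ≠ 0) :
    0 < max ‖C * b - A * a‖ ‖D * b - B * a‖ := by
  by_contra hc
  rw [not_lt, max_le_iff] at hc
  have e1 : C * b - A * a = 0 := norm_le_zero_iff.1 hc.1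
  have e2 : D * b - B * a = 0 := norm_le_zero_iff.1 hc.2
  have e3 : (A * D - B * C) * a = 0 := by linear_combination (-D) * e1 + C * e2
  have e4 : (A * D - B * C) * b = 0 := by linear_combination A * e2 - B * e1
  rcases hab with ha | hb
  · exact ha ((mul_eq_zero.1 e3).resolve_left h)
  · exact hb ((mul_eq_zero.1 e4).resolve_left h)

/-- lower bound through one linear form -/
theorem cr_ge_form (h : A * D - B * C ≠ 0) (Q : Atom) {a b : ℂ} {κ : ℝ}
    (hab : a ≠ 0 ∨ b ≠ 0) (hQ : ∀ x, a * x - b ≠ 0 → Real.log ‖a * x - b‖ - κ ≤ Q.u x) :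
    Real.log (max ‖C * b - A * a‖ ‖D * b - B * a‖) - Real.log (max ‖C‖ ‖D‖) - κ ≤
      (mob A B C D h).cr Q := by
  by_cases ha : a = 0
  · subst ha
    have hb : b ≠ 0 := by simpa using hab
    have hn : 0 < ‖b‖ := norm_pos_iff.2 hb
    have e1 : Real.log (max ‖C * b - A * 0‖ ‖D * b - B * 0‖) - Real.log (max ‖C‖ ‖D‖) =
        Real.log ‖b‖ := by
      rw [mul_zero, mul_zero, sub_zero, sub_zero, norm_mul, norm_mul,
        ← max_mul_of_nonneg _ _ hn.le, Real.log_mul (CD_pos h).ne' hn.ne']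
      ring
    rw [e1]
    refine cr_ge_const _ _ fun x => ?_
    have := hQ x (by simpa using hb)
    simpa using this
  · have hn : 0 < ‖a‖ := norm_pos_iff.2 ha
    rw [← u_zero h ha]
    have := cr_ge_one (mob A B C D h) Q (w := b / a) (k := Real.log ‖a‖ - κ) fun x hx => by
      have hx' : b / a - x ≠ 0 := sub_ne_zero.2 (Ne.symm hx)
      have e : a * x - b = -(a * (b / a - x)) := by field_simp; ring
      have h1 := hQ x (by rw [e]; exact neg_ne_zero.2 (mul_ne_zero ha hx'))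
      rw [e, norm_neg, norm_mul, Real.log_mul hn.ne' (norm_pos_iff.2 hx').ne'] at h1
      linarith
    linarith

/-- equality if one linear form gives the potential on the wall -/
theorem cr_eq_form (h : A * D - B * C ≠ 0) (Q : Atom) {a b : ℂ} {κ : ℝ}
    (hab : a ≠ 0 ∨ b ≠ 0)
    (hQ : ∀ᵐ x ∂(mob A B C D h).ν, Q.u x = Real.log ‖a * x - b‖ - κ) :
    (mob A B C D h).cr Q =
      Real.log (max ‖C * b - A * a‖ ‖D * b - B * a‖) - Real.log (max ‖C‖ ‖D‖) - κ := by
  by_cases ha : a = 0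
  · subst ha
    have hb : b ≠ 0 := by simpa using hab
    have hn : 0 < ‖b‖ := norm_pos_iff.2 hb
    have e1 : Real.log (max ‖C * b - A * 0‖ ‖D * b - B * 0‖) - Real.log (max ‖C‖ ‖D‖) =
        Real.log ‖b‖ := by
      rw [mul_zero, mul_zero, sub_zero, sub_zero, norm_mul, norm_mul,
        ← max_mul_of_nonneg _ _ hn.le, Real.log_mul (CD_pos h).ne' hn.ne']
      ring
    rw [e1]
    refine cr_eq_const _ _ (hQ.mono fun x hx => ?_)
    rw [hx]
    simp
  · have hn : 0 < ‖a‖ := norm_pos_iff.2 ha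
    rw [← u_zero h ha]
    have hw : ∀ᵐ x ∂(mob A B C D h).ν, x ≠ b / a := by
      rw [ae_iff]
      simpa using (mob A B C D h).noat (b / a)
    have := cr_eq_one (mob A B C D h) Q (w := b / a) (k := Real.log ‖a‖ - κ) (by
      filter_upwards [hQ, hw] with x hx hxw
      have hx' : b / a - x ≠ 0 := sub_ne_zero.2 (Ne.symm hxw)
      have e : a * x - b = -(a * (b / a - x)) := by field_simp; ring
      rw [hx, e, norm_neg, norm_mul, Real.log_mul hn.ne' (norm_pos_iff.2 hx').ne']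
      ring)
    rw [this]
    ring

variable {A' B' C' D' : ℂ}

/-- two Moebius atoms: lower bound with the second form of the second atom -/
theorem cr_mob_ge (h : A * D - B * C ≠ 0) (h' : A' * D' - B' * C' ≠ 0) :
    Real.log (max ‖C * B' - A * D'‖ ‖D * B' - B * D'‖) - Real.log (max ‖C‖ ‖D‖)
      - Real.log (max ‖C'‖ ‖D'‖) ≤ (mob A B C D h).cr (mob A' B' C' D' h') := by
  refine cr_ge_form h _ (a := D') (b := B') ?_ fun x hx => ?_
  · by_contra hc
    push Not at hc
    apply h'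
    rw [hc.1, hc.2]; ring
  · rw [mob_u]
    have := Real.log_le_log (norm_pos_iff.2 hx) (le_max_right ‖C' * x - A'‖ ‖D' * x - B'‖)
    linarith

/-- lower bound with the first form of the second atom -/
theorem cr_mob_ge' (h : A * D - B * C ≠ 0) (h' : A' * D' - B' * C' ≠ 0) :
    Real.log (max ‖C * A' - A * C'‖ ‖D * A' - B * C'‖) - Real.log (max ‖C‖ ‖D‖)
      - Real.log (max ‖C'‖ ‖D'‖) ≤ (mob A B C D h).cr (mob A' B' C' D' h') := by
  refine cr_ge_form h _ (a := C') (b := A') ?_ fun x hx => ?_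
  · by_contra hc
    push Not at hc
    apply h'
    rw [hc.1, hc.2]; ring
  · rw [mob_u]
    have := Real.log_le_log (norm_pos_iff.2 hx) (le_max_left ‖C' * x - A'‖ ‖D' * x - B'‖)
    linarith

/-- equality if the second form dominates on the wall of the first atom -/
theorem cr_mob_eq (h : A * D - B * C ≠ 0) (h' : A' * D' - B' * C' ≠ 0)
    (hd : ∀ x, ‖C * x - A‖ = ‖D * x - B‖ → ‖C' * x - A'‖ ≤ ‖D' * x - B'‖) :
    (mob A B C D h).cr (mob A' B' C' D' h') =
      Real.log (max ‖C * B' - A * D'‖ ‖D * B' - B * D'‖) - Real.log (max ‖C‖ ‖D‖)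
      - Real.log (max ‖C'‖ ‖D'‖) := by
  refine cr_eq_form h _ (a := D') (b := B') ?_ ?_
  · by_contra hc
    push Not at hc
    apply h'
    rw [hc.1, hc.2]; ring
  · filter_upwards [mob_supp h] with x hx
    rw [mob_u, max_eq_right (hd x hx)]

/-- equality if the first form dominates on the wall of the first atom -/
theorem cr_mob_eq' (h : A * D - B * C ≠ 0) (h' : A' * D' - B' * C' ≠ 0)
    (hd : ∀ x, ‖C * x - A‖ = ‖D * x - B‖ → ‖D' * x - B'‖ ≤ ‖C' * x - A'‖) :
    (mob A B C D h).cr (mob A' B' C' D' h') =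
      Real.log (max ‖C * A' - A * C'‖ ‖D * A' - B * C'‖) - Real.log (max ‖C‖ ‖D‖)
      - Real.log (max ‖C'‖ ‖D'‖) := by
  refine cr_eq_form h _ (a := C') (b := A') ?_ ?_
  · by_contra hc
    push Not at hc
    apply h'
    rw [hc.1, hc.2]; ring
  · filter_upwards [mob_supp h] with x hx
    rw [mob_u, max_eq_left (hd x hx)]

end Vale.Agent.P030.H462.TA
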