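import Vale.Agent.P030.H462.MobE

/-!
# P030, route N: mutual energies of the atoms of a table

Bounds for the mutual energy of two atoms given by integer linear forms, in terms of the integer
brackets `m m' |a b' - b a'|²`.
-/

open MeasureTheory Filter Topology

noncomputable section

namespace Vale.Agent.P030.H462.TA

open Vale.Agent.P030.H208

/-! ### integer data -/

/-- the Hermitian data of a linear form: `m |a|²`, `m |b|²`, `m a conj b` -/
structure LH where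
  al : ℕ
  ga : ℕ
  kx : ℤ
  ky : ℤ
deriving DecidableEq

/-- conjugate data -/
def LH.cj (l : LH) : LH := ⟨l.al, l.ga, l.kx, -l.ky⟩

/-- the Hermitian data -/
def Lin.h (l : Lin) : LH :=
  ⟨l.m * (l.ax * l.ax + l.ay * l.ay).toNat, l.m * (l.bx * l.bx + l.bY * l.bY).toNat,
    l.m * (l.ax * l.bx + l.ay * l.bY), l.m * (l.ay * l.bx - l.ax * l.bY)⟩

theorem Lin.cj_h (l : Lin) : l.cj.h = l.h.cj := by
  simp only [Lin.h, Lin.cj, LH.cj, LH.mk.injEq]
  refine ⟨?_, ?_, ?_, ?_⟩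
  · congr 2; ring
  · congr 2; ring
  · ring
  · ring

/-- the bracket -/
def brs (l l' : LH) : ℕ :=
  (((l.al * l'.ga + l.ga * l'.al : ℕ) : ℤ) - 2 * (l.kx * l'.kx + l.ky * l'.ky)).toNat

/-- the bracket with the conjugate of the second form -/
def brc (l l' : LH) : ℕ :=
  (((l.al * l'.ga + l.ga * l'.al : ℕ) : ℤ) - 2 * (l.kx * l'.kx - l.ky * l'.ky)).toNat

theorem brc_eq (l l' : LH) : brc l l' = brs l l'.cj := by
  simp only [brc, brs, LH.cj]
  congr 1
  ring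

theorem brs_comm (l l' : LH) : brs l l' = brs l' l := by
  simp only [brs]
  congr 1
  push_cast
  ring

/-! ### the forms with real scaling -/

/-- `√m a` -/
def Lin.sa (l : Lin) : ℂ := (Real.sqrt l.m : ℂ) * l.a

/-- `√m b` -/
def Lin.sb (l : Lin) : ℂ := (Real.sqrt l.m : ℂ) * l.b

theorem sqrt_sq_m (l : Lin) : Real.sqrt l.m ^ 2 = l.m := Real.sq_sqrt (Nat.cast_nonneg _)

theorem norm_sa_sq (l : Lin) : ‖l.sa‖ ^ 2 = l.h.al := by
  have h0 : 0 ≤ l.ax * l.ax + l.ay * l.ay := add_nonneg (mul_self_nonneg _) (mul_self_nonneg _)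
  have h1 : (((l.ax * l.ax + l.ay * l.ay).toNat : ℕ) : ℝ) = (l.ax : ℝ) * l.ax + l.ay * l.ay := by
    have : (((l.ax * l.ax + l.ay * l.ay).toNat : ℤ) : ℝ) =
        ((l.ax * l.ax + l.ay * l.ay : ℤ) : ℝ) := by rw [Int.toNat_of_nonneg h0]
    push_cast at this
    exact this
  have h2 : ‖l.a‖ ^ 2 = (l.ax : ℝ) ^ 2 + (l.ay : ℝ) ^ 2 := by
    have := norm_sq_mk (l.ax : ℝ) (l.ay : ℝ)
    simpa [Lin.a] using this
  rw [Lin.sa, norm_mul, mul_pow, Complex.norm_real, Real.norm_eq_abs, sq_abs, sqrt_sq_m, h2]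
  simp only [Lin.h]
  push_cast
  rw [h1]
  ring

theorem norm_sb_sq (l : Lin) : ‖l.sb‖ ^ 2 = l.h.ga := by
  have h0 : 0 ≤ l.bx * l.bx + l.bY * l.bY := add_nonneg (mul_self_nonneg _) (mul_self_nonneg _)
  have h1 : (((l.bx * l.bx + l.bY * l.bY).toNat : ℕ) : ℝ) = (l.bx : ℝ) * l.bx + l.bY * l.bY := by
    have : (((l.bx * l.bx + l.bY * l.bY).toNat : ℤ) : ℝ) =
        ((l.bx * l.bx + l.bY * l.bY : ℤ) : ℝ) := by rw [Int.toNat_of_nonneg h0]
    push_cast at this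
    exact this
  have h2 : ‖l.b‖ ^ 2 = (l.bx : ℝ) ^ 2 + (l.bY : ℝ) ^ 2 := by
    have := norm_sq_mk (l.bx : ℝ) (l.bY : ℝ)
    simpa [Lin.b] using this
  rw [Lin.sb, norm_mul, mul_pow, Complex.norm_real, Real.norm_eq_abs, sq_abs, sqrt_sq_m, h2]
  simp only [Lin.h]
  push_cast
  rw [h1]
  ring

/-- `√m a conj (√m b) = kx + i ky` -/
theorem sa_conj_sb (l : Lin) : l.sa * (starRingEnd ℂ) l.sb =
    (l.h.kx : ℂ) + (l.h.ky : ℂ) * Complex.I := by
  have h1 : (Real.sqrt l.m : ℂ) * (Real.sqrt l.m : ℂ) = (l.m : ℂ) := by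
    rw [← Complex.ofReal_mul, Real.mul_self_sqrt (Nat.cast_nonneg _)]
    simp
  simp only [Lin.sa, Lin.sb, Lin.a, Lin.b, Lin.h, map_mul, map_add, Complex.conj_ofReal,
    Complex.conj_I, map_intCast]
  push_cast
  linear_combination ((l.ax : ℂ) + l.ay * Complex.I) * (l.bx + l.bY * -Complex.I) * h1
    - (l.m : ℂ) * l.ay * l.bY * Complex.I_sq

/-- the square of the form -/
theorem norm_form_sq (l : Lin) (z : ℂ) : ‖l.sa * z + l.sb‖ ^ 2 = l.ev z := by
  have : l.sa * z + l.sb = (Real.sqrt l.m : ℂ) * (l.a * z + l.b) := by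
    rw [Lin.sa, Lin.sb]; ring
  rw [this, norm_mul, mul_pow, Complex.norm_real, Real.norm_eq_abs, sq_abs, sqrt_sq_m, Lin.ev]

/-- expansion of a bracket of complex numbers -/
theorem norm_bracket (a b a' b' : ℂ) : ‖a * b' - b * a'‖ ^ 2 =
    ‖a‖ ^ 2 * ‖b'‖ ^ 2 + ‖b‖ ^ 2 * ‖a'‖ ^ 2
      - 2 * ((a * (starRingEnd ℂ) b).re * (a' * (starRingEnd ℂ) b').re
        + (a * (starRingEnd ℂ) b).im * (a' * (starRingEnd ℂ) b').im) := by
  simp only [← Complex.normSq_eq_norm_sq, Complex.normSq_apply, Complex.sub_re, Complex.sub_im,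
    Complex.mul_re, Complex.mul_im, Complex.conj_re, Complex.conj_im]
  ring

theorem brs_cast (l l' : Lin) : (brs l.h l'.h : ℝ) = ‖l.sa * l'.sb - l.sb * l'.sa‖ ^ 2 := by
  have e1 := sa_conj_sb l
  have e2 := sa_conj_sb l'
  have key : ‖l.sa * l'.sb - l.sb * l'.sa‖ ^ 2 =
      ((((l.h.al * l'.h.ga + l.h.ga * l'.h.al : ℕ) : ℤ) -
        2 * (l.h.kx * l'.h.kx + l.h.ky * l'.h.ky) : ℤ) : ℝ) := by
    rw [norm_bracket, e1, e2, norm_sa_sq, norm_sa_sq, norm_sb_sq, norm_sb_sq]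
    simp
  have h0 : 0 ≤ (((l.h.al * l'.h.ga + l.h.ga * l'.h.al : ℕ) : ℤ) -
        2 * (l.h.kx * l'.h.kx + l.h.ky * l'.h.ky) : ℤ) := by
    have : (0 : ℝ) ≤ ((((l.h.al * l'.h.ga + l.h.ga * l'.h.al : ℕ) : ℤ) -
        2 * (l.h.kx * l'.h.kx + l.h.ky * l'.h.ky) : ℤ) : ℝ) := by
      rw [← key]; positivity
    exact_mod_cast this
  rw [key, brs]
  have : ((((((l.h.al * l'.h.ga + l.h.ga * l'.h.al : ℕ) : ℤ) -
        2 * (l.h.kx * l'.h.kx + l.h.ky * l'.h.ky)).toNat : ℕ) : ℤ) : ℝ) =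
      ((((l.h.al * l'.h.ga + l.h.ga * l'.h.al : ℕ) : ℤ) -
        2 * (l.h.kx * l'.h.kx + l.h.ky * l'.h.ky) : ℤ) : ℝ) := by
    rw [Int.toNat_of_nonneg h0]
  rw [← this]
  push_cast
  rfl

/-! ### atoms -/

/-- the determinant of a pair of forms -/
def dt (f g : Lin) : ℂ := f.sa * g.sb - f.sb * g.sa

/-- the atom of a pair of forms (with a default value in the degenerate case) -/
def atm (f g : Lin) : Atom :=
  if h : (-f.sb) * g.sa - (-g.sb) * f.sa ≠ 0 then mob (-f.sb) (-g.sb) f.sa g.sa h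
  else mob 0 1 1 0 (by simp)

theorem dt_ne_iff (f g : Lin) : dt f g ≠ 0 ↔ 0 < brs f.h g.h := by
  have h := brs_cast f g
  rw [← dt] at h
  constructor
  · intro h0
    have h1 : 0 < ‖dt f g‖ ^ 2 := pow_pos (norm_pos_iff.2 h0) 2
    rw [← h] at h1
    exact_mod_cast h1
  · intro h0 h1
    rw [h1, norm_zero] at h
    have : (0 : ℝ) < brs f.h g.h := by exact_mod_cast h0
    rw [h] at this
    norm_num at this

theorem det_of (f g : Lin) (h : 0 < brs f.h g.h) : (-f.sb) * g.sa - (-g.sb) * f.sa ≠ 0 := by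
  have := (dt_ne_iff f g).2 h
  intro h0
  apply this
  rw [dt]
  linear_combination h0

theorem atm_eq (f g : Lin) (h : 0 < brs f.h g.h) :
    atm f g = mob (-f.sb) (-g.sb) f.sa g.sa (det_of f g h) := by
  rw [atm, dif_pos (det_of f g h)]

theorem log_max_sq {x y : ℝ} (hx : 0 ≤ x) (hy : 0 ≤ y) :
    Real.log (max x y) = (1 / 2) * Real.log (max (x ^ 2) (y ^ 2)) := by
  have : (max x y) ^ 2 = max (x ^ 2) (y ^ 2) := by
    rcases le_total x y with h | h
    · rw [max_eq_right h, max_eq_right (pow_le_pow_left₀ hx h 2)]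
    · rw [max_eq_left h, max_eq_left (pow_le_pow_left₀ hy h 2)]
  rw [← this, Real.log_pow]
  push_cast
  ring

/-- the normalisation -/
def nrm (f g : Lin) : ℕ := max f.h.al g.h.al

theorem log_nrm (f g : Lin) :
    Real.log (max ‖f.sa‖ ‖g.sa‖) = (1 / 2) * Real.log (nrm f g) := by
  rw [log_max_sq (norm_nonneg _) (norm_nonneg _), norm_sa_sq, norm_sa_sq, nrm]
  push_cast
  rfl

/-- **the potential of an atom** -/
theorem atm_u (f g : Lin) (h : 0 < brs f.h g.h) (z : ℂ) :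
    (atm f g).u z = lmax f g z - (1 / 2) * Real.log (nrm f g) := by
  rw [atm_eq f g h, mob_u, log_nrm]
  congr 1
  rw [lmax, log_max_sq (norm_nonneg _) (norm_nonneg _)]
  rw [show f.sa * z - -f.sb = f.sa * z + f.sb by ring,
    show g.sa * z - -g.sb = g.sa * z + g.sb by ring, norm_form_sq, norm_form_sq]

theorem bracket_form (f l : Lin) : f.sa * -l.sb - -f.sb * l.sa = -(f.sa * l.sb - f.sb * l.sa) := by
  ring

theorem log_bracket (f g l : Lin) :
    Real.log (max ‖f.sa * -l.sb - -f.sb * l.sa‖ ‖g.sa * -l.sb - -g.sb * l.sa‖) =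
      (1 / 2) * Real.log ((max (brs f.h l.h) (brs g.h l.h) : ℕ) : ℝ) := by
  rw [log_max_sq (norm_nonneg _) (norm_nonneg _), bracket_form, bracket_form, norm_neg, norm_neg,
    ← brs_cast, ← brs_cast]
  push_cast
  rfl

variable {f g f' g' : Lin}

/-- the maximum of the four brackets -/
def X4 (f g f' g' : LH) : ℕ :=
  max (max (brs f g') (brs g g')) (max (brs f f') (brs g f'))

theorem max_br_pos (h : 0 < brs f.h g.h) (h' : 0 < brs f'.h g'.h) :
    0 < max (brs f.h g'.h) (brs g.h g'.h) ∧ 0 < max (brs f.h f'.h) (brs g.h f'.h) := by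
  have key : ∀ l : Lin, (l.sa ≠ 0 ∨ l.sb ≠ 0) → 0 < max (brs f.h l.h) (brs g.h l.h) := by
    intro l hl
    have h1 := max_bracket_pos (det_of f g h) (a := l.sa) (b := -l.sb) (by simpa using hl)
    rcases lt_max_iff.1 h1 with h2 | h2
    · apply lt_max_of_lt_left
      rw [bracket_form, norm_neg] at h2
      have : (0 : ℝ) < brs f.h l.h := by rw [brs_cast]; positivity
      exact_mod_cast this
    · apply lt_max_of_lt_right
      rw [bracket_form, norm_neg] at h2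
      have : (0 : ℝ) < brs g.h l.h := by rw [brs_cast]; positivity
      exact_mod_cast this
  have hd := (dt_ne_iff f' g').2 h'
  rw [dt] at hd
  constructor
  · apply key
    by_contra hc
    push Not at hc
    apply hd
    rw [hc.1, hc.2]; ring
  · apply key
    by_contra hc
    push Not at hc
    apply hd
    rw [hc.1, hc.2]; ring

/-- **lower bound of a mutual energy** -/
theorem cr_atm_ge (h : 0 < brs f.h g.h) (h' : 0 < brs f'.h g'.h) :
    (1 / 2) * (Real.log (X4 f.h g.h f'.h g'.h) - Real.log (nrm f g) - Real.log (nrm f' g')) ≤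
      (atm f g).cr (atm f' g') := by
  rw [atm_eq f g h, atm_eq f' g' h']
  have h1 := cr_mob_ge (det_of f g h) (det_of f' g' h')
  have h2 := cr_mob_ge' (det_of f g h) (det_of f' g' h')
  rw [log_bracket, log_nrm, log_nrm] at h1 h2
  rw [X4]
  rcases le_total (max (brs f.h g'.h) (brs g.h g'.h)) (max (brs f.h f'.h) (brs g.h f'.h)) with hc | hc
  · rw [max_eq_right hc]; linarith
  · rw [max_eq_left hc]; linarith

/-! ### circles which do not cross -/

theorem semidef {α γ k l : ℝ} (h : k ^ 2 + l ^ 2 ≤ α * γ) :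
    (∀ x y : ℝ, 0 ≤ α * (x ^ 2 + y ^ 2) + 2 * (k * x - l * y) + γ) ∨
    (∀ x y : ℝ, α * (x ^ 2 + y ^ 2) + 2 * (k * x - l * y) + γ ≤ 0) := by
  have key : ∀ x y : ℝ, α * (α * (x ^ 2 + y ^ 2) + 2 * (k * x - l * y) + γ) =
      (α * x + k) ^ 2 + (α * y - l) ^ 2 + (α * γ - (k ^ 2 + l ^ 2)) := by
    intro x y; ring
  rcases lt_trichotomy α 0 with hα | hα | hα
  · right
    intro x y
    have h1 := key x y
    have h2 : 0 ≤ α * (α * (x ^ 2 + y ^ 2) + 2 * (k * x - l * y) + γ) := by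
      rw [h1]; nlinarith [sq_nonneg (α * x + k), sq_nonneg (α * y - l)]
    exact nonpos_of_mul_nonneg_right h2 hα
  · subst hα
    have hk : k = 0 := by nlinarith [sq_nonneg k, sq_nonneg l]
    have hl : l = 0 := by nlinarith [sq_nonneg k, sq_nonneg l]
    subst hk; subst hl
    rcases le_total 0 γ with hγ | hγ
    · left; intro x y; simpa using hγ
    · right; intro x y; simpa using hγ
  · left
    intro x y
    have h1 := key x y
    have h2 : 0 ≤ α * (α * (x ^ 2 + y ^ 2) + 2 * (k * x - l * y) + γ) := by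
      rw [h1]; nlinarith [sq_nonneg (α * x + k), sq_nonneg (α * y - l)]
    exact nonneg_of_mul_nonneg_right h2 hα

theorem sign_on {α γ k l α' γ' k' l' : ℝ} (hΔ : α * γ - (k ^ 2 + l ^ 2) < 0)
    (hI : 4 * (α * γ - (k ^ 2 + l ^ 2)) * (α' * γ' - (k' ^ 2 + l' ^ 2)) ≤
      (α * γ' + γ * α' - 2 * (k * k' + l * l')) ^ 2) :
    (∀ x y : ℝ, α * (x ^ 2 + y ^ 2) + 2 * (k * x - l * y) + γ = 0 →
      0 ≤ α' * (x ^ 2 + y ^ 2) + 2 * (k' * x - l' * y) + γ') ∨
    (∀ x y : ℝ, α * (x ^ 2 + y ^ 2) + 2 * (k * x - l * y) + γ = 0 →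
      α' * (x ^ 2 + y ^ 2) + 2 * (k' * x - l' * y) + γ' ≤ 0) := by
  obtain ⟨Δ, hΔe⟩ : ∃ Δ, Δ = α * γ - (k ^ 2 + l ^ 2) := ⟨_, rfl⟩
  obtain ⟨I, hIe⟩ : ∃ I, I = α * γ' + γ * α' - 2 * (k * k' + l * l') := ⟨_, rfl⟩
  rw [← hΔe] at hΔ hI
  rw [← hIe] at hI
  have hs := semidef (α := 2 * Δ * α' - I * α) (γ := 2 * Δ * γ' - I * γ)
    (k := 2 * Δ * k' - I * k) (l := 2 * Δ * l' - I * l) (by
      have e : (2 * Δ * α' - I * α) * (2 * Δ * γ' - I * γ) -
          ((2 * Δ * k' - I * k) ^ 2 + (2 * Δ * l' - I * l) ^ 2) =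
          Δ * (4 * Δ * (α' * γ' - (k' ^ 2 + l' ^ 2)) - I ^ 2) := by
        rw [hIe, hΔe]; ring
      have h2 : 0 ≤ Δ * (4 * Δ * (α' * γ' - (k' ^ 2 + l' ^ 2)) - I ^ 2) :=
        mul_nonneg_of_nonpos_of_nonpos hΔ.le (by linarith)
      linarith)
  have key : ∀ x y : ℝ, α * (x ^ 2 + y ^ 2) + 2 * (k * x - l * y) + γ = 0 →
      (2 * Δ * α' - I * α) * (x ^ 2 + y ^ 2) +
        2 * ((2 * Δ * k' - I * k) * x - (2 * Δ * l' - I * l) * y) + (2 * Δ * γ' - I * γ) =
      (2 * Δ) * (α' * (x ^ 2 + y ^ 2) + 2 * (k' * x - l' * y) + γ') := by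
    intro x y h0
    linear_combination (-I) * h0
  rcases hs with hs | hs
  · right
    intro x y h0
    have h1 := hs x y
    rw [key x y h0] at h1
    exact nonpos_of_mul_nonneg_right h1 (by linarith)
  · left
    intro x y h0
    have h1 := hs x y
    rw [key x y h0] at h1
    by_contra hc
    rw [not_le] at hc
    have := mul_pos_of_neg_of_neg (show 2 * Δ < 0 by linarith) hc
    linarith

/-- the form as a Hermitian polynomial -/
theorem ev_eq (l : Lin) (z : ℂ) : l.ev z =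
    l.h.al * (z.re ^ 2 + z.im ^ 2) + 2 * (l.h.kx * z.re - l.h.ky * z.im) + l.h.ga := by
  have h1 : ‖l.sa * z + l.sb‖ ^ 2 = ‖l.sa‖ ^ 2 * (z.re ^ 2 + z.im ^ 2) +
      2 * ((l.sa * (starRingEnd ℂ) l.sb).re * z.re - (l.sa * (starRingEnd ℂ) l.sb).im * z.im)
      + ‖l.sb‖ ^ 2 := by
    simp only [← Complex.normSq_eq_norm_sq, Complex.normSq_apply, Complex.add_re,
      Complex.add_im, Complex.mul_re, Complex.mul_im, Complex.conj_re, Complex.conj_im]
    ring
  rw [← norm_form_sq, h1, norm_sa_sq, norm_sb_sq, sa_conj_sb]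
  simp

/-- the walls of two atoms do not cross -/
def nocross (f g f' g' : LH) : Bool :=
  decide (4 * ((brs f g : ℕ) : ℤ) * (brs f' g' : ℕ) ≤
    ((brs f f' : ℤ) + brs g g' - brs f g' - brs g f') ^ 2)

theorem al_ga (l : Lin) : (l.h.al : ℝ) * l.h.ga = (l.h.kx : ℝ) ^ 2 + (l.h.ky : ℝ) ^ 2 := by
  have h1 := sa_conj_sb l
  have h2 : ‖l.sa * (starRingEnd ℂ) l.sb‖ ^ 2 = ‖l.sa‖ ^ 2 * ‖l.sb‖ ^ 2 := by
    rw [norm_mul, Complex.norm_conj, mul_pow]
  rw [h1, norm_sa_sq, norm_sb_sq] at h2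
  have h3 := norm_sq_mk (l.h.kx : ℝ) (l.h.ky : ℝ)
  rw [← h2, ← h3]
  simp

theorem brs_real (l l' : Lin) : (brs l.h l'.h : ℝ) =
    l.h.al * l'.h.ga + l.h.ga * l'.h.al - 2 * (l.h.kx * l'.h.kx + l.h.ky * l'.h.ky) := by
  rw [brs_cast, norm_bracket, sa_conj_sb, sa_conj_sb, norm_sa_sq, norm_sa_sq, norm_sb_sq,
    norm_sb_sq]
  simp

theorem nocross_sound (h : 0 < brs f.h g.h) (hn : nocross f.h g.h f'.h g'.h = true) :
    (∀ x : ℂ, f.ev x = g.ev x → f'.ev x ≤ g'.ev x) ∨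
    (∀ x : ℂ, f.ev x = g.ev x → g'.ev x ≤ f'.ev x) := by
  rw [nocross, decide_eq_true_eq] at hn
  have hn' : 4 * (brs f.h g.h : ℝ) * (brs f'.h g'.h : ℝ) ≤
      ((brs f.h f'.h : ℝ) + brs g.h g'.h - brs f.h g'.h - brs g.h f'.h) ^ 2 := by
    exact_mod_cast hn
  have hp : (0 : ℝ) < brs f.h g.h := by exact_mod_cast h
  rw [brs_real] at hp
  simp only [brs_real] at hn'
  have a1 := al_ga f
  have a2 := al_ga g
  have a3 := al_ga f'
  have a4 := al_ga g'
  have hs := sign_on (α := (g.h.al : ℝ) - f.h.al) (γ := (g.h.ga : ℝ) - f.h.ga)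
    (k := (g.h.kx : ℝ) - f.h.kx) (l := (g.h.ky : ℝ) - f.h.ky)
    (α' := (g'.h.al : ℝ) - f'.h.al) (γ' := (g'.h.ga : ℝ) - f'.h.ga)
    (k' := (g'.h.kx : ℝ) - f'.h.kx) (l' := (g'.h.ky : ℝ) - f'.h.ky)
    (by nlinarith) (by
      have e1 : ((g.h.al : ℝ) - f.h.al) * ((g.h.ga : ℝ) - f.h.ga) -
          (((g.h.kx : ℝ) - f.h.kx) ^ 2 + ((g.h.ky : ℝ) - f.h.ky) ^ 2) =
          -(f.h.al * g.h.ga + f.h.ga * g.h.al - 2 * (f.h.kx * g.h.kx + f.h.ky * g.h.ky)) := by
        linear_combination a1 + a2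
      have e2 : ((g'.h.al : ℝ) - f'.h.al) * ((g'.h.ga : ℝ) - f'.h.ga) -
          (((g'.h.kx : ℝ) - f'.h.kx) ^ 2 + ((g'.h.ky : ℝ) - f'.h.ky) ^ 2) =
          -(f'.h.al * g'.h.ga + f'.h.ga * g'.h.al
            - 2 * (f'.h.kx * g'.h.kx + f'.h.ky * g'.h.ky)) := by
        linear_combination a3 + a4
      rw [e1, e2]
      refine le_trans (le_of_eq ?_) (hn'.trans (le_of_eq ?_))
      · ring
      · ring)
  rcases hs with hs | hs
  · left
    intro x hx
    have h1 := hs x.re x.im (by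
      rw [ev_eq, ev_eq] at hx
      linarith)
    rw [ev_eq, ev_eq]
    linarith
  · right
    intro x hx
    have h1 := hs x.re x.im (by
      rw [ev_eq, ev_eq] at hx
      linarith)
    rw [ev_eq, ev_eq]
    linarith

theorem norm_le_of_ev {l l' : Lin} {x : ℂ} (h : l.ev x ≤ l'.ev x) :
    ‖l.sa * x - -l.sb‖ ≤ ‖l'.sa * x - -l'.sb‖ := by
  rw [show l.sa * x - -l.sb = l.sa * x + l.sb by ring,
    show l'.sa * x - -l'.sb = l'.sa * x + l'.sb by ring]
  rw [← norm_form_sq, ← norm_form_sq] at h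
  exact le_of_sq_le_sq h (norm_nonneg _)

theorem ev_of_norm {l l' : Lin} {x : ℂ} (h : ‖l.sa * x - -l.sb‖ = ‖l'.sa * x - -l'.sb‖) :
    l.ev x = l'.ev x := by
  rw [show l.sa * x - -l.sb = l.sa * x + l.sb by ring,
    show l'.sa * x - -l'.sb = l'.sa * x + l'.sb by ring] at h
  rw [← norm_form_sq, ← norm_form_sq, h]

/-- **the mutual energy of two atoms whose walls do not cross** -/
theorem cr_atm_eq (h : 0 < brs f.h g.h) (h' : 0 < brs f'.h g'.h)
    (hn : nocross f.h g.h f'.h g'.h = true) :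
    (atm f g).cr (atm f' g') =
      (1 / 2) * (Real.log (X4 f.h g.h f'.h g'.h) - Real.log (nrm f g) - Real.log (nrm f' g')) := by
  have hp := max_br_pos h h'
  have h1 := cr_mob_ge (det_of f g h) (det_of f' g' h')
  have h2 := cr_mob_ge' (det_of f g h) (det_of f' g' h')
  rw [log_bracket, log_nrm, log_nrm] at h1 h2
  rw [atm_eq f g h, atm_eq f' g' h']
  have hp1 : (0 : ℝ) < ((max (brs f.h g'.h) (brs g.h g'.h) : ℕ) : ℝ) := by exact_mod_cast hp.1
  have hp2 : (0 : ℝ) < ((max (brs f.h f'.h) (brs g.h f'.h) : ℕ) : ℝ) := by exact_mod_cast hp.2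
  rcases nocross_sound h hn with hd | hd
  · have e := cr_mob_eq (det_of f g h) (det_of f' g' h')
      (fun x hx => norm_le_of_ev (hd x (ev_of_norm hx)))
    rw [log_bracket, log_nrm, log_nrm] at e
    rw [e] at h2
    have hc : (max (brs f.h f'.h) (brs g.h f'.h)) ≤ (max (brs f.h g'.h) (brs g.h g'.h)) := by
      have h3 : Real.log ((max (brs f.h f'.h) (brs g.h f'.h) : ℕ) : ℝ) ≤
          Real.log ((max (brs f.h g'.h) (brs g.h g'.h) : ℕ) : ℝ) := by linarith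
      have := (Real.log_le_log_iff hp2 hp1).1 h3
      exact_mod_cast this
    rw [e, X4, max_eq_left hc]
    ring
  · have e := cr_mob_eq' (det_of f g h) (det_of f' g' h')
      (fun x hx => norm_le_of_ev (hd x (ev_of_norm hx)))
    rw [log_bracket, log_nrm, log_nrm] at e
    rw [e] at h1
    have hc : (max (brs f.h g'.h) (brs g.h g'.h)) ≤ (max (brs f.h f'.h) (brs g.h f'.h)) := by
      have h3 : Real.log ((max (brs f.h g'.h) (brs g.h g'.h) : ℕ) : ℝ) ≤
          Real.log ((max (brs f.h f'.h) (brs g.h f'.h) : ℕ) : ℝ) := by linarith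
      have := (Real.log_le_log_iff hp1 hp2).1 h3
      exact_mod_cast this
    rw [e, X4, max_eq_right hc]
    ring

end Vale.Agent.P030.H462.TA
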