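import Mathlib

/-!
# P030, row CONT: linear differential equations on convex open sets of the complex plane

`exists_linear_ode` : `Y' = A Y + b` with holomorphic coefficients on a convex open set has a
holomorphic solution with a prescribed value; `linear_ode_unique` : uniqueness.
-/

open Set Filter Topology Metric

noncomputable section

namespace Vale.Agent.P030.H462

variable {E : Type*} [NormedAddCommGroup E] [NormedSpace ℂ E]

/-! ### Uniqueness -/

/-- Uniqueness for linear equations on convex sets (homogeneous form). -/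
theorem linear_ode_zero {Ω : Set ℂ} (hc : Convex ℝ Ω) {A : ℂ → (E →L[ℂ] E)}
    (hA : ContinuousOn A Ω) {z₀ : ℂ} (hz₀ : z₀ ∈ Ω) {D : ℂ → E}
    (hD : ∀ z ∈ Ω, HasDerivAt D (A z (D z)) z) (h0 : D z₀ = 0) : ∀ z ∈ Ω, D z = 0 := by
  intro z hz
  have hseg : ∀ t ∈ Icc (0:ℝ) 1, z₀ + (t:ℂ) * (z - z₀) ∈ Ω := by
    intro t ht
    have := hc hz₀ hz (sub_nonneg.2 ht.2) ht.1 (by ring)
    have e : (1 - t) • z₀ + t • z = z₀ + (t:ℂ) * (z - z₀) := by
      simp only [Complex.real_smul]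
      push_cast
      ring
    rwa [e] at this
  have hγ : ∀ t : ℝ, HasDerivAt (fun t : ℝ => z₀ + (t:ℂ) * (z - z₀)) (z - z₀) t := by
    intro t
    have h1 : HasDerivAt (fun t : ℝ => (t:ℂ)) 1 t := Complex.ofRealCLM.hasDerivAt
    simpa using (h1.mul_const (z - z₀)).const_add z₀
  have hcont : ContinuousOn (fun t : ℝ => A (z₀ + (t:ℂ) * (z - z₀))) (Icc 0 1) := by
    refine hA.comp ?_ hseg
    exact fun t _ => (hγ t).continuousAt.continuousWithinAt
  obtain ⟨M, hM⟩ := isCompact_Icc.exists_bound_of_continuousOn hcont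
  set K : ℝ := ‖z - z₀‖ * M with hK
  have hφ : ∀ t ∈ Icc (0:ℝ) 1, HasDerivAt (fun t : ℝ => D (z₀ + (t:ℂ) * (z - z₀)))
      ((z - z₀) • A (z₀ + (t:ℂ) * (z - z₀)) (D (z₀ + (t:ℂ) * (z - z₀)))) t := by
    intro t ht
    exact (hD _ (hseg t ht)).scomp t (hγ t)
  have key := norm_le_gronwallBound_of_norm_deriv_right_le (f := fun t : ℝ => D (z₀ + (t:ℂ) * (z - z₀)))
    (f' := fun t : ℝ => (z - z₀) • A (z₀ + (t:ℂ) * (z - z₀)) (D (z₀ + (t:ℂ) * (z - z₀))))
    (δ := 0) (K := K) (ε := 0) (a := 0) (b := 1)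
    (fun t ht => (hφ t ht).continuousAt.continuousWithinAt)
    (fun t ht => (hφ t (Ico_subset_Icc_self ht)).hasDerivWithinAt)
    (by simp [h0])
    (fun t ht => by
      rw [add_zero, norm_smul, hK, mul_assoc]
      refine mul_le_mul_of_nonneg_left ?_ (norm_nonneg _)
      refine (ContinuousLinearMap.le_opNorm _ _).trans ?_
      exact mul_le_mul_of_nonneg_right (hM t (Ico_subset_Icc_self ht)) (norm_nonneg _))
  have h1 := key 1 (right_mem_Icc.2 zero_le_one)
  have h2 : gronwallBound 0 K 0 (1 - 0) = 0 := by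
    simp [gronwallBound]
  rw [h2] at h1
  have h3 := norm_le_zero_iff.1 h1
  simpa using h3

/-- **Uniqueness** for linear equations on convex sets. -/
theorem linear_ode_unique {Ω : Set ℂ} (hc : Convex ℝ Ω) {A : ℂ → (E →L[ℂ] E)} {b : ℂ → E}
    (hA : ContinuousOn A Ω) {z₀ : ℂ} (hz₀ : z₀ ∈ Ω) {Y₁ Y₂ : ℂ → E}
    (h₁ : ∀ z ∈ Ω, HasDerivAt Y₁ (A z (Y₁ z) + b z) z)
    (h₂ : ∀ z ∈ Ω, HasDerivAt Y₂ (A z (Y₂ z) + b z) z) (h0 : Y₁ z₀ = Y₂ z₀) :
    ∀ z ∈ Ω, Y₁ z = Y₂ z := by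
  intro z hz
  have h := linear_ode_zero hc hA hz₀ (D := fun z => Y₁ z - Y₂ z)
    (fun z hz => by
      have h := (h₁ z hz).sub (h₂ z hz)
      have e : A z (Y₁ z) + b z - (A z (Y₂ z) + b z) = A z (Y₁ z - Y₂ z) := by
        rw [map_sub]
        abel
      rwa [e] at h) (by simp [h0]) z hz
  exact sub_eq_zero.1 h

/-! ### Existence -/


/-- a primitive with a prescribed value -/
theorem exists_prim [CompleteSpace E] {Ω : Set ℂ} (ho : IsOpen Ω) (hc : Convex ℝ Ω) {f : ℂ → E}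
    (hf : DifferentiableOn ℂ f Ω) (z₀ : ℂ) (y₀ : E) :
    ∃ g : ℂ → E, (∀ z ∈ Ω, HasDerivAt g (f z) z) ∧ g z₀ = y₀ := by
  obtain ⟨g, hg⟩ := hc.exists_forall_hasDerivWithinAt hf
  refine ⟨fun z => y₀ + (g z - g z₀), fun z hz => ?_, by simp⟩
  exact (((hg z hz).hasDerivAt (ho.mem_nhds hz)).sub_const _).const_add _

/-- the Picard iteration -/
theorem exists_iter [CompleteSpace E] {Ω : Set ℂ} (ho : IsOpen Ω) (hc : Convex ℝ Ω) {A : ℂ → (E →L[ℂ] E)}
    {b : ℂ → E} (hA : DifferentiableOn ℂ A Ω) (hb : DifferentiableOn ℂ b Ω) (z₀ : ℂ) (y₀ : E) :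
    ∃ Y : ℕ → ℂ → E, (∀ n, DifferentiableOn ℂ (Y n) Ω) ∧ (∀ n, Y n z₀ = y₀) ∧
      ∀ n, ∀ z ∈ Ω, HasDerivAt (Y (n+1)) (A z (Y n z) + b z) z := by
  classical
  let S := {f : ℂ → E // DifferentiableOn ℂ f Ω ∧ f z₀ = y₀}
  have step : ∀ f : S, ∃ g : S, ∀ z ∈ Ω, HasDerivAt g.1 (A z (f.1 z) + b z) z := by
    rintro ⟨f, hf, hf0⟩
    have h1 : DifferentiableOn ℂ (fun z => A z (f z) + b z) Ω :=
      (hA.clm_apply hf).add hb
    obtain ⟨g, hg, hg0⟩ := exists_prim ho hc h1 z₀ y₀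
    exact ⟨⟨g, fun z hz => (hg z hz).differentiableAt.differentiableWithinAt, hg0⟩, hg⟩
  choose G hG using step
  let Y : ℕ → S := fun n => Nat.rec ⟨fun _ => y₀, differentiableOn_const _, rfl⟩ (fun _ f => G f) n
  refine ⟨fun n => (Y n).1, fun n => (Y n).2.1, fun n => (Y n).2.2, fun n z hz => ?_⟩
  exact hG (Y n) z hz

/-- the factorial estimate along a segment -/
theorem iter_bound {Ω : Set ℂ} {A : ℂ → (E →L[ℂ] E)} {b : ℂ → E} {z₀ : ℂ} {Y : ℕ → ℂ → E}
    (h0 : ∀ n, Y n z₀ = Y 0 z₀)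
    (hY : ∀ n, ∀ z ∈ Ω, HasDerivAt (Y (n+1)) (A z (Y n z) + b z) z)
    {K : Set ℂ} (hKΩ : K ⊆ Ω) (hst : StarConvex ℝ z₀ K) (hz₀ : z₀ ∈ K) {M C R : ℝ} (hM : 0 ≤ M)
    (hAM : ∀ z ∈ K, ‖A z‖ ≤ M) (hC : ∀ z ∈ K, ‖Y 1 z - Y 0 z‖ ≤ C) (hR : ∀ z ∈ K, ‖z - z₀‖ ≤ R)
    (n : ℕ) : ∀ z ∈ K, ‖Y (n+1) z - Y n z‖ ≤ C * (M * R) ^ n / (Nat.factorial n : ℝ) := by
  have hR0 : 0 ≤ R := le_trans (norm_nonneg _) (hR z₀ hz₀)
  have hC0 : 0 ≤ C := le_trans (norm_nonneg _) (hC z₀ hz₀)
  -- refined statement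
  have key : ∀ n : ℕ, ∀ z ∈ K, ‖Y (n+1) z - Y n z‖ ≤
      C * (M * ‖z - z₀‖) ^ n / (Nat.factorial n : ℝ) := by
    intro n
    induction n with
    | zero =>
      intro z hz
      simpa using hC z hz
    | succ n ih =>
      intro z hz
      have hseg : ∀ t ∈ Icc (0:ℝ) 1, z₀ + (t:ℂ) * (z - z₀) ∈ K := by
        intro t ht
        have := hst hz (sub_nonneg.2 ht.2) ht.1 (by ring)
        have e : (1 - t) • z₀ + t • z = z₀ + (t:ℂ) * (z - z₀) := by
          simp only [Complex.real_smul]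
          push_cast
          ring
        rwa [e] at this
      have hγ : ∀ t : ℝ, HasDerivAt (fun t : ℝ => z₀ + (t:ℂ) * (z - z₀)) (z - z₀) t := by
        intro t
        have h1 : HasDerivAt (fun t : ℝ => (t:ℂ)) 1 t := Complex.ofRealCLM.hasDerivAt
        simpa using (h1.mul_const (z - z₀)).const_add z₀
      have hd : ∀ t ∈ Icc (0:ℝ) 1, HasDerivAt
          (fun t : ℝ => Y (n+2) (z₀ + (t:ℂ) * (z - z₀)) - Y (n+1) (z₀ + (t:ℂ) * (z - z₀)))
          ((z - z₀) • A (z₀ + (t:ℂ) * (z - z₀))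
            (Y (n+1) (z₀ + (t:ℂ) * (z - z₀)) - Y n (z₀ + (t:ℂ) * (z - z₀)))) t := by
        intro t ht
        have hw := hKΩ (hseg t ht)
        have h1 := ((hY (n+1) _ hw).sub (hY n _ hw)).scomp t (hγ t)
        have e : A (z₀ + (t:ℂ) * (z - z₀)) (Y (n+1) (z₀ + (t:ℂ) * (z - z₀)))
            + b (z₀ + (t:ℂ) * (z - z₀)) - (A (z₀ + (t:ℂ) * (z - z₀))
              (Y n (z₀ + (t:ℂ) * (z - z₀))) + b (z₀ + (t:ℂ) * (z - z₀))) =
            A (z₀ + (t:ℂ) * (z - z₀))
            (Y (n+1) (z₀ + (t:ℂ) * (z - z₀)) - Y n (z₀ + (t:ℂ) * (z - z₀))) := by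
          rw [map_sub]
          abel
        rw [e] at h1
        exact h1
      set r : ℝ := ‖z - z₀‖ with hr
      have hr0 : 0 ≤ r := norm_nonneg _
      have key2 := image_norm_le_of_norm_deriv_right_le_deriv_boundary
        (f := fun t : ℝ => Y (n+2) (z₀ + (t:ℂ) * (z - z₀)) - Y (n+1) (z₀ + (t:ℂ) * (z - z₀)))
        (f' := fun t : ℝ => (z - z₀) • A (z₀ + (t:ℂ) * (z - z₀))
            (Y (n+1) (z₀ + (t:ℂ) * (z - z₀)) - Y n (z₀ + (t:ℂ) * (z - z₀))))
        (a := 0) (b := 1)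
        (fun t ht => (hd t ht).continuousAt.continuousWithinAt)
        (fun t ht => (hd t (Ico_subset_Icc_self ht)).hasDerivWithinAt)
        (B := fun t : ℝ => C * (M * r * t) ^ (n+1) / (Nat.factorial (n+1) : ℝ))
        (B' := fun t : ℝ => (M * r) * (C * (M * r * t) ^ n / (Nat.factorial n : ℝ)))
        (by simp [h0 (n+2), h0 (n+1)])
        (fun t => by
          have h1 : HasDerivAt (fun t : ℝ => M * r * t) (M * r) t := by
            simpa using (hasDerivAt_id t).const_mul (M * r)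
          have h2 := ((h1.pow (n+1)).const_mul C).div_const (Nat.factorial (n+1) : ℝ)
          refine h2.congr_deriv ?_
          have hf : (Nat.factorial n : ℝ) ≠ 0 := by positivity
          rw [Nat.factorial_succ]
          push_cast
          field_simp)
        (fun t ht => by
          have htI := Ico_subset_Icc_self ht
          rw [norm_smul]
          have h3 : ‖(A (z₀ + (t:ℂ) * (z - z₀)))
              (Y (n+1) (z₀ + (t:ℂ) * (z - z₀)) - Y n (z₀ + (t:ℂ) * (z - z₀)))‖ ≤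
              M * (C * (M * r * t) ^ n / (Nat.factorial n : ℝ)) := by
            refine (ContinuousLinearMap.le_opNorm _ _).trans ?_
            refine mul_le_mul (hAM _ (hseg t htI)) ?_ (norm_nonneg _) hM
            refine (ih _ (hseg t htI)).trans_eq ?_
            have e2 : ‖z₀ + (t:ℂ) * (z - z₀) - z₀‖ = r * t := by
              rw [add_sub_cancel_left, norm_mul, Complex.norm_real, Real.norm_eq_abs,
                abs_of_nonneg htI.1, hr]
              ring
            rw [e2, ← mul_assoc]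
          calc ‖z - z₀‖ * _ ≤ r * (M * (C * (M * r * t) ^ n / (Nat.factorial n : ℝ))) :=
                mul_le_mul_of_nonneg_left h3 hr0
            _ = _ := by ring)
      have h4 := key2 (right_mem_Icc.2 zero_le_one)
      simpa [mul_assoc] using h4
  intro z hz
  refine (key n z hz).trans ?_
  gcongr
  exact hR z hz

/-- **Existence for linear equations on convex open sets.** -/
theorem exists_linear_ode [CompleteSpace E] {Ω : Set ℂ} (ho : IsOpen Ω) (hc : Convex ℝ Ω) {A : ℂ → (E →L[ℂ] E)}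
    {b : ℂ → E} (hA : DifferentiableOn ℂ A Ω) (hb : DifferentiableOn ℂ b Ω) {z₀ : ℂ}
    (hz₀ : z₀ ∈ Ω) (y₀ : E) :
    ∃ Y : ℂ → E, (∀ z ∈ Ω, HasDerivAt Y (A z (Y z) + b z) z) ∧ Y z₀ = y₀ := by
  obtain ⟨Y, hYd, hY0, hY⟩ := exists_iter ho hc hA hb z₀ y₀
  -- the limit
  let L : ℂ → E := fun z => Y 0 z + ∑' n, (Y (n+1) z - Y n z)
  have hpart : ∀ N z, Y N z = Y 0 z + ∑ n ∈ Finset.range N, (Y (n+1) z - Y n z) := by
    intro N z
    rw [Finset.sum_range_sub (fun n => Y n z)]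
    abel
  -- locally uniform convergence
  have hloc : TendstoLocallyUniformlyOn Y L atTop Ω := by
    rw [tendstoLocallyUniformlyOn_iff_forall_isCompact ho]
    intro K₁ hK₁Ω hK₁
    -- compact star shaped set containing K₁ and z₀
    set K : Set ℂ := (fun p : ℝ × ℂ => z₀ + (p.1 : ℂ) * (p.2 - z₀)) '' (Icc (0:ℝ) 1 ×ˢ insert z₀ K₁)
      with hKdef
    have hKc : IsCompact K := by
      refine (isCompact_Icc.prod (hK₁.insert z₀)).image ?_
      fun_prop
    have hKΩ : K ⊆ Ω := by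
      rintro _ ⟨⟨t, z⟩, ⟨ht, hz⟩, rfl⟩
      have hzΩ : z ∈ Ω := by
        rcases hz with rfl | hz
        · exact hz₀
        · exact hK₁Ω hz
      have := hc hz₀ hzΩ (sub_nonneg.2 ht.2) ht.1 (by ring)
      have e : (1 - t) • z₀ + t • z = z₀ + (t:ℂ) * (z - z₀) := by
        simp only [Complex.real_smul]
        push_cast
        ring
      rwa [e] at this
    have hz₀K : z₀ ∈ K := ⟨(0, z₀), ⟨⟨le_rfl, zero_le_one⟩, mem_insert _ _⟩, by simp⟩
    have hK₁K : K₁ ⊆ K := fun z hz =>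
      ⟨(1, z), ⟨⟨zero_le_one, le_rfl⟩, mem_insert_of_mem _ hz⟩, by simp⟩
    have hst : StarConvex ℝ z₀ K := by
      rintro _ ⟨⟨t, z⟩, ⟨ht, hz⟩, rfl⟩ c d hc0 hd0 hcd
      refine ⟨(d * t, z), ⟨⟨mul_nonneg hd0 ht.1, mul_le_one₀ (by linarith) ht.1 ht.2⟩, hz⟩, ?_⟩
      obtain rfl : c = 1 - d := by linarith
      simp only [Complex.real_smul]
      push_cast
      ring
    obtain ⟨M, hM⟩ := hKc.exists_bound_of_continuousOn (hA.continuousOn.mono hKΩ)
    obtain ⟨C, hC⟩ := hKc.exists_bound_of_continuousOn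
      (((hYd 1).continuousOn.sub (hYd 0).continuousOn).mono hKΩ)
    obtain ⟨R, hR⟩ := hKc.exists_bound_of_continuousOn
      ((continuous_id.sub continuous_const : Continuous fun z : ℂ => z - z₀).continuousOn)
    have hM0 : 0 ≤ M := (norm_nonneg _).trans (hM z₀ hz₀K)
    have hb' := iter_bound (Ω := Ω) (A := A) (b := b) (z₀ := z₀) (Y := Y)
      (fun n => by rw [hY0, hY0]) hY hKΩ hst hz₀K hM0 hM hC hR
    have hsum : Summable fun n : ℕ => C * (M * R) ^ n / (Nat.factorial n : ℝ) := by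
      have := (Real.summable_pow_div_factorial (M * R)).mul_left C
      simpa [mul_div_assoc] using this
    have h1 := tendstoUniformlyOn_tsum_nat hsum (f := fun n z => Y (n+1) z - Y n z) (s := K)
      (fun n z hz => hb' n z hz)
    have h2 : TendstoUniformlyOn Y L atTop K := by
      rw [Metric.tendstoUniformlyOn_iff] at h1 ⊢
      intro ε hε
      filter_upwards [h1 ε hε] with N hN z hz
      have := hN z hz
      rw [dist_eq_norm] at this ⊢
      rw [hpart N z]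
      simpa [L] using this
    exact h2.mono hK₁K
  have hLd : DifferentiableOn ℂ L Ω :=
    hloc.differentiableOn (Eventually.of_forall fun n => hYd n) ho
  have hder := hloc.deriv (Eventually.of_forall fun n => hYd n) ho
  refine ⟨L, fun z hz => ?_, ?_⟩
  · have h1 : HasDerivAt L (deriv L z) z :=
      (hLd.differentiableAt (ho.mem_nhds hz)).hasDerivAt
    have h2 : Tendsto (fun n => deriv (Y n) z) atTop (𝓝 (deriv L z)) :=
      hder.tendsto_at hz
    have h3 : Tendsto (fun n => deriv (Y (n+1)) z) atTop (𝓝 (deriv L z)) :=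
      h2.comp (tendsto_add_atTop_nat 1)
    have h4 : Tendsto (fun n => A z (Y n z) + b z) atTop (𝓝 (A z (L z) + b z)) :=
      (((A z).continuous.tendsto _).comp (hloc.tendsto_at hz)).add_const _
    have h5 : (fun n => deriv (Y (n+1)) z) = fun n => A z (Y n z) + b z := by
      funext n
      exact (hY n z hz).deriv
    rw [h5] at h3
    rwa [tendsto_nhds_unique h3 h4] at h1
  · have h1 : Tendsto (fun n => Y n z₀) atTop (𝓝 (L z₀)) := hloc.tendsto_at hz₀
    have h2 : (fun n => Y n z₀) = fun _ => y₀ := by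
      funext n
      exact hY0 n
    rw [h2] at h1
    exact (tendsto_nhds_unique h1 tendsto_const_nhds)

end Vale.Agent.P030.H462
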