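import Vale.Agent.P030.H462.EvSer

/-!
# P030: the scalar equation of `K`

`ℓ f = z (1 - z²) f'' + (1 - 3 z²) f' - z f`.  `Sol Ω ρ f f1 f2` : `f' = f1`, `f1' = f2` and `ℓ f = ρ`
on `Ω`.  Series solutions, logarithmic solutions, the symmetries `u ↦ (u+1)/(u-1)`, `u ↦ 1/u`,
`u ↦ -u`, and uniqueness.
-/

open PowerSeries Metric Set

namespace Vale.Agent.P030.H462

open Vale.Agent.P030.T

structure Sol (Ω : Set ℂ) (ρ f f1 f2 : ℂ → ℂ) : Prop where
  d0 : ∀ z ∈ Ω, HasDerivAt f (f1 z) z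
  d1 : ∀ z ∈ Ω, HasDerivAt f1 (f2 z) z
  eq : ∀ z ∈ Ω, z * (1 - z ^ 2) * f2 z + (1 - 3 * z ^ 2) * f1 z - z * f z = ρ z

namespace Sol

variable {Ω Ω' : Set ℂ} {ρ σ f f1 f2 g g1 g2 : ℂ → ℂ}

theorem mono (h : Sol Ω ρ f f1 f2) (hs : Ω' ⊆ Ω) : Sol Ω' ρ f f1 f2 :=
  ⟨fun z hz => h.d0 z (hs hz), fun z hz => h.d1 z (hs hz), fun z hz => h.eq z (hs hz)⟩

theorem congr_rhs (h : Sol Ω ρ f f1 f2) (hs : ∀ z ∈ Ω, ρ z = σ z) : Sol Ω σ f f1 f2 :=
  ⟨h.d0, h.d1, fun z hz => by rw [h.eq z hz, hs z hz]⟩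

theorem add (h : Sol Ω ρ f f1 f2) (h' : Sol Ω σ g g1 g2) :
    Sol Ω (fun z => ρ z + σ z) (fun z => f z + g z) (fun z => f1 z + g1 z) (fun z => f2 z + g2 z) :=
  ⟨fun z hz => (h.d0 z hz).add (h'.d0 z hz), fun z hz => (h.d1 z hz).add (h'.d1 z hz),
    fun z hz => by
      have e1 := h.eq z hz
      have e2 := h'.eq z hz
      linear_combination e1 + e2⟩

theorem smul (h : Sol Ω ρ f f1 f2) (c : ℂ) :
    Sol Ω (fun z => c * ρ z) (fun z => c * f z) (fun z => c * f1 z) (fun z => c * f2 z) :=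
  ⟨fun z hz => (h.d0 z hz).const_mul c, fun z hz => (h.d1 z hz).const_mul c,
    fun z hz => by
      have e1 := h.eq z hz
      linear_combination c * e1⟩

theorem sub (h : Sol Ω ρ f f1 f2) (h' : Sol Ω σ g g1 g2) :
    Sol Ω (fun z => ρ z - σ z) (fun z => f z - g z) (fun z => f1 z - g1 z) (fun z => f2 z - g2 z) :=
  ⟨fun z hz => (h.d0 z hz).sub (h'.d0 z hz), fun z hz => (h.d1 z hz).sub (h'.d1 z hz),
    fun z hz => by
      have e1 := h.eq z hz
      have e2 := h'.eq z hz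
      linear_combination e1 - e2⟩

/-- `u ↦ -u` -/
theorem comp_neg (h : Sol Ω ρ f f1 f2) :
    Sol {z | -z ∈ Ω} (fun z => -ρ (-z)) (fun z => f (-z)) (fun z => -f1 (-z)) (fun z => f2 (-z)) := by
  have hn : ∀ z : ℂ, HasDerivAt (fun z : ℂ => -z) (-1) z := fun z => (hasDerivAt_id z).neg
  refine ⟨fun z hz => ?_, fun z hz => ?_, fun z hz => ?_⟩
  · have := (h.d0 (-z) hz).comp z (hn z)
    rw [mul_neg_one] at this
    exact this
  · have := ((h.d1 (-z) hz).comp z (hn z)).neg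
    rw [mul_neg_one, neg_neg] at this
    exact this
  · have e1 := h.eq (-z) hz
    linear_combination -e1

/-- `u ↦ w = (u+1)/(u-1)` : `F u = f w / (1 - u)` -/
theorem comp_w (h : Sol Ω ρ f f1 f2) :
    Sol {u | u ≠ 1 ∧ (u + 1) / (u - 1) ∈ Ω} (fun u => ρ ((u + 1) / (u - 1)) / (1 - u))
      (fun u => f ((u + 1) / (u - 1)) / (1 - u))
      (fun u => -2 * f1 ((u + 1) / (u - 1)) / (1 - u) ^ 3 + f ((u + 1) / (u - 1)) / (1 - u) ^ 2)
      (fun u => 4 * f2 ((u + 1) / (u - 1)) / (1 - u) ^ 5 - 8 * f1 ((u + 1) / (u - 1)) / (1 - u) ^ 4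
        + 2 * f ((u + 1) / (u - 1)) / (1 - u) ^ 3) := by
  have hw : ∀ u : ℂ, u ≠ 1 → HasDerivAt (fun u : ℂ => (u + 1) / (u - 1)) (-2 / (1 - u) ^ 2) u := by
    intro u hu
    have h1 : u - 1 ≠ 0 := sub_ne_zero.2 hu
    have h2 : (1 - u) ≠ 0 := sub_ne_zero.2 (Ne.symm hu)
    have := ((hasDerivAt_id u).add_const (1 : ℂ)).div ((hasDerivAt_id u).sub_const (1 : ℂ)) h1
    refine this.congr_deriv ?_
    simp only [id]
    field_simp
    ring
  have hp : ∀ u : ℂ, HasDerivAt (fun u : ℂ => 1 - u) (-1) u := fun u => by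
    simpa using (hasDerivAt_id u).const_sub (1 : ℂ)
  refine ⟨fun u hu => ?_, fun u hu => ?_, fun u hu => ?_⟩
  · obtain ⟨hu1, hu2⟩ := hu
    have h2 : (1 - u) ≠ 0 := sub_ne_zero.2 (Ne.symm hu1)
    have := ((h.d0 _ hu2).comp u (hw u hu1)).div (hp u) h2
    refine this.congr_deriv ?_
    simp only [Function.comp_apply]
    field_simp
    ring
  · obtain ⟨hu1, hu2⟩ := hu
    have h2 : (1 - u) ≠ 0 := sub_ne_zero.2 (Ne.symm hu1)
    have a1 := (((h.d1 _ hu2).comp u (hw u hu1)).const_mul (-2 : ℂ)).div ((hp u).pow 3) (pow_ne_zero 3 h2)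
    have a2 := ((h.d0 _ hu2).comp u (hw u hu1)).div ((hp u).pow 2) (pow_ne_zero 2 h2)
    refine (a1.add a2).congr_deriv ?_
    simp only [Function.comp_apply, Pi.pow_apply]
    push_cast
    field_simp
    ring
  · obtain ⟨hu1, hu2⟩ := hu
    have h1 : u - 1 ≠ 0 := sub_ne_zero.2 hu1
    have h2 : (1 - u) ≠ 0 := sub_ne_zero.2 (Ne.symm hu1)
    have e1 := h.eq _ hu2
    set w := (u + 1) / (u - 1) with hwd
    have hw1 : w = 1 - 2 / (1 - u) := by
      rw [hwd]; field_simp; ring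
    have hu' : u = (w + 1) / (w - 1) := by
      have h3 : w - 1 ≠ 0 := by
        rw [hw1]
        intro hcon
        have : (2 : ℂ) / (1 - u) = 0 := by linear_combination -hcon
        exact (div_ne_zero two_ne_zero h2) this
      rw [eq_div_iff h3, hwd]
      field_simp
      ring
    rw [hw1] at e1 ⊢
    generalize hA : f (1 - 2 / (1 - u)) = A at *
    generalize hB : f1 (1 - 2 / (1 - u)) = B at *
    generalize hC : f2 (1 - 2 / (1 - u)) = C' at *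
    generalize hR : ρ (1 - 2 / (1 - u)) = R at *
    rw [← e1]
    field_simp
    ring

/-- `u ↦ v = 1/u` : `G v = F (1/v) / v` -/
theorem comp_inv (h : Sol Ω ρ f f1 f2) :
    Sol {v | v ≠ 0 ∧ v⁻¹ ∈ Ω} (fun v => -ρ v⁻¹ / v) (fun v => f v⁻¹ / v)
      (fun v => -f1 v⁻¹ / v ^ 3 - f v⁻¹ / v ^ 2)
      (fun v => f2 v⁻¹ / v ^ 5 + 4 * f1 v⁻¹ / v ^ 4 + 2 * f v⁻¹ / v ^ 3) := by
  refine ⟨fun v hv => ?_, fun v hv => ?_, fun v hv => ?_⟩
  · obtain ⟨hv1, hv2⟩ := hv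
    have := ((h.d0 _ hv2).comp v (hasDerivAt_inv hv1)).div (hasDerivAt_id v) hv1
    refine this.congr_deriv ?_
    simp only [Function.comp_apply, id]
    field_simp
  · obtain ⟨hv1, hv2⟩ := hv
    have a1 := ((h.d1 _ hv2).comp v (hasDerivAt_inv hv1)).neg.div (hasDerivAt_pow 3 v) (pow_ne_zero 3 hv1)
    have a2 := ((h.d0 _ hv2).comp v (hasDerivAt_inv hv1)).div (hasDerivAt_pow 2 v) (pow_ne_zero 2 hv1)
    refine (a1.sub a2).congr_deriv ?_
    simp only [Function.comp_apply, Pi.neg_apply]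
    push_cast
    field_simp
    ring
  · obtain ⟨hv1, hv2⟩ := hv
    have e1 := h.eq _ hv2
    generalize hA : f v⁻¹ = A at *
    generalize hB : f1 v⁻¹ = B at *
    generalize hC : f2 v⁻¹ = C' at *
    generalize hR : ρ v⁻¹ = R at *
    rw [← e1]
    field_simp
    ring

end Sol

end Vale.Agent.P030.H462
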