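import Mathlib

/-!
# P030: Stieltjes transforms of finite measures on `[0,1]`

`stiel μ s w = ∫ (1 - w s)⁻¹ dμ` with `s` valued in `[0,1]` : holomorphic off `[1,∞)`, power series.
-/

open MeasureTheory Set Metric Filter Topology

namespace Vale.Agent.P030.H462

/-- the complement of `[1, ∞)` -/
def cut1 : Set ℂ := {w | ∀ s ∈ Icc (0 : ℝ) 1, 1 - w * s ≠ 0}

theorem exists_delta {w : ℂ} (hw : w ∈ cut1) :
    ∃ δ : ℝ, 0 < δ ∧ ∀ z ∈ ball w δ, ∀ s ∈ Icc (0 : ℝ) 1, δ ≤ ‖1 - z * (s : ℂ)‖ := by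
  have hc : IsCompact (Icc (0 : ℝ) 1) := isCompact_Icc
  obtain ⟨s0, hs0, hmin⟩ := hc.exists_isMinOn ⟨0, by norm_num⟩
    (f := fun s : ℝ => ‖1 - w * (s : ℂ)‖) (by fun_prop)
  have hpos : 0 < ‖1 - w * (s0 : ℂ)‖ := norm_pos_iff.2 (hw s0 hs0)
  refine ⟨‖1 - w * (s0 : ℂ)‖ / 2, half_pos hpos, fun z hz s hs => ?_⟩
  have h1 : ‖1 - w * (s0 : ℂ)‖ ≤ ‖1 - w * (s : ℂ)‖ := hmin hs
  have h2 : ‖z - w‖ < ‖1 - w * (s0 : ℂ)‖ / 2 := by
    rwa [mem_ball, dist_eq_norm] at hz
  have h3 : 1 - w * (s : ℂ) = (1 - z * s) + (z - w) * s := by ring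
  have h4 : ‖1 - w * (s : ℂ)‖ ≤ ‖1 - z * (s : ℂ)‖ + ‖z - w‖ * ‖(s : ℂ)‖ := by
    rw [h3, ← norm_mul]
    exact norm_add_le _ _
  have h5 : ‖(s : ℂ)‖ ≤ 1 := by
    rw [Complex.norm_real, Real.norm_of_nonneg hs.1]; exact hs.2
  have h6 : ‖z - w‖ * ‖(s : ℂ)‖ ≤ ‖z - w‖ := mul_le_of_le_one_right (norm_nonneg _) h5
  linarith

theorem isOpen_cut1 : IsOpen cut1 := by
  rw [Metric.isOpen_iff]
  intro w hw
  obtain ⟨δ, hδ, h⟩ := exists_delta hw
  refine ⟨δ, hδ, fun z hz s hs hcon => ?_⟩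
  have := h z hz s hs
  rw [hcon, norm_zero] at this
  linarith

theorem ball_sub_cut1 : ball (0 : ℂ) 1 ⊆ cut1 := by
  intro w hw s hs hcon
  rw [mem_ball_zero_iff] at hw
  have h1 : w * (s : ℂ) = 1 := by linear_combination -hcon
  have h2 : ‖w‖ * ‖(s : ℂ)‖ = 1 := by rw [← norm_mul, h1, norm_one]
  rw [Complex.norm_real, Real.norm_of_nonneg hs.1] at h2
  have h3 := hs.2
  have h4 := hs.1
  nlinarith [norm_nonneg w]

theorem starConvex_cut1 : StarConvex ℝ 0 cut1 := by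
  intro w hw a b ha hb hab s hs
  rw [smul_zero, zero_add]
  have h1 := hw (b * s) ⟨mul_nonneg hb hs.1, by
    have : b ≤ 1 := by linarith
    have h2 := hs.2
    have h3 := hs.1
    nlinarith⟩
  rw [Complex.real_smul]
  push_cast at h1
  intro hcon
  apply h1
  rw [← hcon]
  ring

theorem isPreconnected_cut1 : IsPreconnected cut1 := by
  have h1 : StarConvex ℝ (0 : ℂ) cut1 := starConvex_cut1
  have h2 : IsPathConnected cut1 :=
    StarConvex.isPathConnected h1 (ball_sub_cut1 (mem_ball_self one_pos))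
  exact h2.isConnected.isPreconnected

variable {X : Type*} [MeasurableSpace X] (μ : Measure X) [IsFiniteMeasure μ] {s : X → ℝ}

/-- the transform -/
noncomputable def stiel (s : X → ℝ) (w : ℂ) : ℂ := ∫ x, (1 - w * (s x : ℂ))⁻¹ ∂μ

variable {μ}

theorem meas_kernel (hs : Measurable s) (w : ℂ) : Measurable fun x => (1 - w * (s x : ℂ))⁻¹ :=
  (measurable_const.sub (measurable_const.mul (Complex.measurable_ofReal.comp hs))).inv

theorem integrable_kernel (hs : Measurable s) (h01 : ∀ᵐ x ∂μ, s x ∈ Icc (0 : ℝ) 1) {w : ℂ}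
    (hw : w ∈ cut1) : Integrable (fun x => (1 - w * (s x : ℂ))⁻¹) μ := by
  obtain ⟨δ, hδ, h⟩ := exists_delta hw
  refine Integrable.mono' (integrable_const δ⁻¹) (meas_kernel hs w).aestronglyMeasurable ?_
  filter_upwards [h01] with x hx
  rw [norm_inv]
  exact inv_anti₀ hδ (h w (mem_ball_self hδ) _ hx)

theorem hasDerivAt_stiel (hs : Measurable s) (h01 : ∀ᵐ x ∂μ, s x ∈ Icc (0 : ℝ) 1) {w : ℂ}
    (hw : w ∈ cut1) : HasDerivAt (stiel μ s) (∫ x, (s x : ℂ) / (1 - w * (s x : ℂ)) ^ 2 ∂μ) w := by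
  obtain ⟨δ, hδ, h⟩ := exists_delta hw
  have hd : ∀ x, s x ∈ Icc (0 : ℝ) 1 → ∀ z ∈ ball w δ,
      HasDerivAt (fun z : ℂ => (1 - z * (s x : ℂ))⁻¹) ((s x : ℂ) / (1 - z * (s x : ℂ)) ^ 2) z := by
    intro x hx z hz
    have hne : 1 - z * (s x : ℂ) ≠ 0 := by
      intro hcon
      have := h z hz _ hx
      rw [hcon, norm_zero] at this
      linarith
    have h1 : HasDerivAt (fun z : ℂ => 1 - z * (s x : ℂ)) (-(s x : ℂ)) z := by
      have := ((hasDerivAt_id z).mul_const (s x : ℂ)).const_sub (1 : ℂ)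
      simpa using this
    have h2 := h1.inv hne
    refine h2.congr_deriv ?_
    rw [neg_neg]
  refine (hasDerivAt_integral_of_dominated_loc_of_deriv_le (μ := μ) (𝕜 := ℂ)
    (F := fun z x => (1 - z * (s x : ℂ))⁻¹) (F' := fun z x => (s x : ℂ) / (1 - z * (s x : ℂ)) ^ 2)
    (x₀ := w) (s := ball w δ) (bound := fun _ => (δ ^ 2)⁻¹) (ball_mem_nhds w hδ) ?_ ?_ ?_ ?_ ?_
    ?_).2
  · exact Eventually.of_forall fun z => (meas_kernel hs z).aestronglyMeasurable
  · exact integrable_kernel hs h01 hw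
  · have : Measurable fun x => (s x : ℂ) / (1 - w * (s x : ℂ)) ^ 2 :=
      (Complex.measurable_ofReal.comp hs).div
        ((measurable_const.sub (measurable_const.mul (Complex.measurable_ofReal.comp hs))).pow_const 2)
    exact this.aestronglyMeasurable
  · filter_upwards [h01] with x hx z hz
    rw [norm_div, norm_pow, Complex.norm_real, Real.norm_of_nonneg hx.1]
    have h1 := h z hz _ hx
    have h0 : 0 < ‖1 - z * (s x : ℂ)‖ := lt_of_lt_of_le hδ h1
    rw [div_le_iff₀ (by positivity), inv_mul_eq_div, le_div_iff₀ (by positivity)]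
    have h2 : δ ^ 2 ≤ ‖1 - z * (s x : ℂ)‖ ^ 2 := pow_le_pow_left₀ hδ.le h1 2
    have h3 := hx.2
    have h4 := hx.1
    nlinarith [sq_nonneg δ]
  · exact integrable_const _
  · filter_upwards [h01] with x hx z hz using hd x hx z hz

theorem differentiableOn_stiel (hs : Measurable s) (h01 : ∀ᵐ x ∂μ, s x ∈ Icc (0 : ℝ) 1) :
    DifferentiableOn ℂ (stiel μ s) cut1 := fun _ hw =>
  (hasDerivAt_stiel hs h01 hw).differentiableAt.differentiableWithinAt

theorem hasSum_stiel (hs : Measurable s) (h01 : ∀ᵐ x ∂μ, s x ∈ Icc (0 : ℝ) 1) {w : ℂ}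
    (hw : ‖w‖ < 1) : HasSum (fun n : ℕ => w ^ n * ((∫ x, s x ^ n ∂μ : ℝ) : ℂ)) (stiel μ s w) := by
  have hint : ∀ n : ℕ, Integrable (fun x => (w * (s x : ℂ)) ^ n) μ := by
    intro n
    refine Integrable.mono' (integrable_const (1 : ℝ))
      ((measurable_const.mul (Complex.measurable_ofReal.comp hs)).pow_const n).aestronglyMeasurable ?_
    filter_upwards [h01] with x hx
    rw [norm_pow, norm_mul, Complex.norm_real, Real.norm_of_nonneg hx.1]
    refine pow_le_one₀ (mul_nonneg (norm_nonneg _) hx.1) ?_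
    have h3 := hx.2
    have h4 := hx.1
    nlinarith [norm_nonneg w]
  have hb : ∀ n : ℕ, ∫ x, ‖(w * (s x : ℂ)) ^ n‖ ∂μ ≤ ‖w‖ ^ n * μ.real univ := by
    intro n
    have h1 : ∫ x, ‖(w * (s x : ℂ)) ^ n‖ ∂μ ≤ ∫ _, ‖w‖ ^ n ∂μ := by
      refine integral_mono_ae (hint n).norm (integrable_const _) ?_
      filter_upwards [h01] with x hx
      rw [norm_pow, norm_mul, Complex.norm_real, Real.norm_of_nonneg hx.1]
      refine pow_le_pow_left₀ (mul_nonneg (norm_nonneg _) hx.1) ?_ n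
      exact mul_le_of_le_one_right (norm_nonneg _) hx.2
    refine h1.trans (le_of_eq ?_)
    rw [integral_const, smul_eq_mul, mul_comm]
  have hsum : Summable fun n : ℕ => ∫ x, ‖(w * (s x : ℂ)) ^ n‖ ∂μ := by
    refine Summable.of_nonneg_of_le (fun n => integral_nonneg fun _ => norm_nonneg _) hb ?_
    exact (summable_geometric_of_lt_one (norm_nonneg w) hw).mul_right _
  have key := hasSum_integral_of_summable_integral_norm hint hsum
  have e1 : ∀ n : ℕ, ∫ x, (w * (s x : ℂ)) ^ n ∂μ = w ^ n * ((∫ x, s x ^ n ∂μ : ℝ) : ℂ) := by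
    intro n
    rw [← integral_complex_ofReal, ← integral_const_mul]
    refine integral_congr_ae (Eventually.of_forall fun x => ?_)
    simp only
    rw [mul_pow]
    push_cast
    rfl
  have e2 : ∫ x, ∑' n : ℕ, (w * (s x : ℂ)) ^ n ∂μ = stiel μ s w := by
    unfold stiel
    refine integral_congr_ae ?_
    filter_upwards [h01] with x hx
    rw [tsum_geometric_of_norm_lt_one]
    rw [norm_mul, Complex.norm_real, Real.norm_of_nonneg hx.1]
    have h3 := hx.2
    have h4 := hx.1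
    nlinarith [norm_nonneg w]
  rw [e2] at key
  simp_rw [e1] at key
  exact key

end Vale.Agent.P030.H462
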