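import Vale.Agent.P030.H462.Link
import Vale.Agent.P030.H476.V1.All
import Vale.Agent.P030.V1.Tab

/-!
# P030, route N: potentials, constants and energy of the literal table
-/

noncomputable section

namespace Vale.Agent.P030.H462.V1L

open Vale.Agent.P030.H462 Vale.Agent.P030.H476.VE

/-- the table in the format of H462 -/
abbrev D : TA.Tab := Vale.Agent.P030.V1.tab.toTab

theorem m_ok : LK.mtch V1.S V1.A Vale.Agent.P030.V1.tab.toTab.ents = true := by decide +kernel

theorem sym_ok : PT.symOk Vale.Agent.P030.V1.tab.toTab = true := by decide +kernel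

theorem L_pos : 0 < D.L := by decide +kernel

theorem S_L : V1.S.L = 27 * D.L := by decide +kernel

/-- the potentials -/
def mu (b : Fin 8) : H905.Pot := LK.muV V1.S V1.A V1.ok b

/-- the constants -/
def ga (b : Fin 8) : ℝ := LK.gaV V1.S D 27 b

/-- **the weights** -/
theorem W_eq (b : Fin 8) (z : ℂ) : H905.WtP (fun _ => 27) mu ga b z = D.W b z :=
  LK.W_val V1.ok m_ok L_pos (by norm_num) S_L b z

/-- **reality** -/
theorem W_conj (b : ℕ) (z : ℂ) : D.W b ((starRingEnd ℂ) z) = D.W b z := PT.W_conj D sym_ok b z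

/-- the masses -/
theorem mass (b : Fin 8) : D.mass b = 27 * D.L := LK.mass_val V1.ok m_ok S_L b

/-- the energy, numerator over `2 ^ 40` -/
def e : ℤ := 499338378766000000

theorem e_ok : LK.enOk V1.S D 27 V1.P V1.Q e = true := by decide +kernel

/-- **the energy** (`e / 2 ^ 40 = 454145.60987...`) -/
theorem en : (e : ℝ) / 2 ^ 40 ≤ H905.E0P (fun _ => 27) mu ga :=
  LK.E0_ge V1.ok L_pos (by norm_num) S_L V1.seg V1.len e_ok

end Vale.Agent.P030.H462.V1L
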